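import Vale.Agent.P159.T1.H910.FF

/-!
Toolkit in the language of `T1/D/Defs.lean`: monotonicity in the domain, `exp (Var / 2) ≤ E exp`,
FKG for nonnegative charges.
-/

open MeasureTheory Filter Topology

namespace Vale.Agent.P159.T1.H910

open Vale.Agent.P159 Vale.Agent.P159.H353 Vale.Agent.P159.R2.H254 Vale.Agent.P159.R2.H729
  Vale.Agent.P159.T1.H934 Vale.Agent.P159.T1.D

/-! ### heights with the bonds of `S` -/

section FF

variable {J J' : Bnd → ℝ} {S : Finset Bnd} {U U' : Finset Z2}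

lemma FF_congr {F G : (Z2 → ℤ) → ℝ} (h : ∀ g : Ht U, F g.1 = G g.1) :
    FF J S U F = FF J S U G := by
  unfold FF
  exact tsum_congr fun g => by rw [h g]

lemma FF_nonneg (hJ : ∀ e, 0 ≤ J e) {F : (Z2 → ℤ) → ℝ} (hF : ∀ g : Ht U, 0 ≤ F g.1) :
    0 ≤ FF J S U F :=
  tsum_nonneg fun g => mul_nonneg (Finset.prod_nonneg fun e _ => wI_nonneg (hJ e) _) (hF g)

/-- dictionary for functions of a linear functional -/
lemma ZZ_ch (hU : U' ⊆ U) (ρ : Z2 → ℝ) (G : ℝ → ℝ) :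
    ZZ (gs S U) (gt S U) (fun e => J e.1) (pinF U U') (fun h => G (li (liC U ρ) h)) =
      FF J S U' fun h => G (ch U' ρ h) := by
  simp only [li_ext]
  rw [ZZ_eq_FF J S hU fun h => G (ch U ρ h)]
  exact FF_congr fun g => by rw [ch_mono hU ρ g.2]

lemma ZZ_one (hU : U' ⊆ U) :
    ZZ (gs S U) (gt S U) (fun e => J e.1) (pinF U U') (fun _ => 1) = FF J S U' fun _ => 1 :=
  ZZ_eq_FF J S hU fun _ => 1

lemma FF_pos (hJ : ∀ e, 0 ≤ J e) (hS : ∀ f ∈ U, (f, true) ∈ S) (hU : U' ⊆ U) :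
    0 < FF J S U' fun _ => 1 := by
  rw [← ZZ_one hU]
  exact ZZ_pos (conn_g hS) (fun e => hJ e.1) (pinF_nonempty hU)

/-- summability of functions of exponential growth -/
lemma FF_summable (hJ : ∀ e, 0 ≤ J e) (hS : ∀ f ∈ U, (f, true) ∈ S) (ρ : Z2 → ℝ)
    {F : (Z2 → ℤ) → ℝ} {C : ℝ} (hF : ∀ h : Ht U, |F h.1| ≤ C * Real.exp |ch U ρ h.1|) :
    Summable fun h : Ht U => (∏ e ∈ S, wI (J e) (dh h.1 e)) * F h.1 := by
  classical
  have h1 := (summable_ZZ (conn_g hS) (J := fun e : {e : Bnd // e ∈ S} => J e.1)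
    (fun e => hJ e.1) (pinF_nonempty (Finset.Subset.refl U)) (liC U ρ)
    (f := fun h => Real.exp |li (liC U ρ) h|) (C := 1)
    (fun h => by rw [abs_of_pos (Real.exp_pos _), one_mul])).of_abs
  have h2 : Summable fun h : {h : GV U → ℤ // ∀ v ∈ pinF U U, h v = 0} =>
      (∏ e ∈ S, wI (J e) (dh (ext U h.1) e)) * Real.exp |ch U ρ (ext U h.1)| := by
    refine (h1.subtype {h : GV U → ℤ | ∀ v ∈ pinF U U, h v = 0}).congr fun h => ?_
    simp only [Function.comp]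
    rw [if_pos (show ∀ v ∈ pinF U U, h.1 v = 0 from h.2), W_ext, li_ext]
  have h3 : Summable fun h : Ht U =>
      (∏ e ∈ S, wI (J e) (dh h.1 e)) * Real.exp |ch U ρ h.1| := by
    rw [← (eqH (Finset.Subset.refl U)).summable_iff]
    exact h2
  refine Summable.of_norm_bounded (h3.mul_left C) fun h => ?_
  rw [Real.norm_eq_abs, abs_mul,
    abs_of_nonneg (Finset.prod_nonneg fun e _ => wI_nonneg (hJ e) _)]
  calc _ ≤ (∏ e ∈ S, wI (J e) (dh h.1 e)) * (C * Real.exp |ch U ρ h.1|) :=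
        mul_le_mul_of_nonneg_left (hF h) (Finset.prod_nonneg fun e _ => wI_nonneg (hJ e) _)
    _ = _ := by ring

/-- exponential moments increase with the domain -/
theorem FF_mono_exp (hJ : ∀ e, 0 ≤ J e) (hS : ∀ f ∈ U, (f, true) ∈ S) (hU : U' ⊆ U)
    (ρ : Z2 → ℝ) :
    (FF J S U' fun h => Real.exp (ch U' ρ h)) * (FF J S U fun _ => 1) ≤
      (FF J S U fun h => Real.exp (ch U ρ h)) * FF J S U' fun _ => 1 := by
  have h1 := pin_mono (conn_g hS) (J := fun e : {e : Bnd // e ∈ S} => J e.1)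
    (fun e => hJ e.1) (pinF_nonempty (Finset.Subset.refl U)) (pinF_mono hU) (liC U ρ)
  rwa [ZZ_ch hU ρ Real.exp, ZZ_ch (Finset.Subset.refl U) ρ Real.exp, ZZ_one hU,
    ZZ_one (Finset.Subset.refl U)] at h1

/-- second moments increase with the domain and the couplings -/
theorem FF_mono_sq (hJ : ∀ e, 0 ≤ J e) (hJJ : ∀ e, J e ≤ J' e) (hS : ∀ f ∈ U, (f, true) ∈ S)
    (hU : U' ⊆ U) (ρ : Z2 → ℝ) :
    (FF J S U' fun h => (ch U' ρ h) ^ 2) / (FF J S U' fun _ => 1) ≤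
      (FF J' S U fun h => (ch U ρ h) ^ 2) / FF J' S U fun _ => 1 := by
  have h1 := mono_sq_XJ (conn_g hS) (J := fun e : {e : Bnd // e ∈ S} => J e.1)
    (J' := fun e => J' e.1) (fun e => hJ e.1) (fun e => hJJ e.1)
    (pinF_nonempty (Finset.Subset.refl U)) (pinF_mono hU) (liC U ρ)
  rwa [ZZ_ch hU ρ (fun x => x ^ 2), ZZ_ch (Finset.Subset.refl U) ρ (fun x => x ^ 2), ZZ_one hU,
    ZZ_one (Finset.Subset.refl U)] at h1

/-- `exp (Var / 2) ≤ E exp` -/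
theorem FF_exp_var (hJ : ∀ e, 0 ≤ J e) (hS : ∀ f ∈ U, (f, true) ∈ S) (ρ : Z2 → ℝ) :
    Real.exp (((FF J S U fun h => (ch U ρ h) ^ 2) / FF J S U fun _ => 1) / 2) ≤
      (FF J S U fun h => Real.exp (ch U ρ h)) / FF J S U fun _ => 1 := by
  have h1 := exp_var_le (conn_g hS) (J := fun e : {e : Bnd // e ∈ S} => J e.1)
    (fun e => hJ e.1) (pinF_nonempty (Finset.Subset.refl U)) (liC U ρ)
  rwa [ZZ_ch (Finset.Subset.refl U) ρ Real.exp, ZZ_ch (Finset.Subset.refl U) ρ (fun x => x ^ 2),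
    ZZ_one (Finset.Subset.refl U)] at h1

/-- the exponential moments are the hyperbolic ones -/
theorem FF_exp_cosh (hJ : ∀ e, 0 ≤ J e) (hS : ∀ f ∈ U, (f, true) ∈ S) (ρ : Z2 → ℝ) :
    (FF J S U fun h => Real.exp (ch U ρ h)) = FF J S U fun h => Real.cosh (ch U ρ h) := by
  have h1 := ZZ_exp (conn_g hS) (J := fun e : {e : Bnd // e ∈ S} => J e.1)
    (fun e => hJ e.1) (pinF_nonempty (Finset.Subset.refl U)) (liC U ρ)
  rwa [ZZ_ch (Finset.Subset.refl U) ρ Real.exp, ZZ_ch (Finset.Subset.refl U) ρ Real.cosh] at h1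

lemma liC_nonneg {ρ : Z2 → ℝ} (h : ∀ f ∈ U, 0 ≤ ρ f) (v : GV U) : 0 ≤ liC U ρ v := by
  rcases v with _ | f
  · exact le_rfl
  · exact h f.1 f.2

lemma liC_sum {ι : Type} (T : Finset ι) (ρ : ι → Z2 → ℝ) :
    (fun v : GV U => ∑ j ∈ T, liC U (ρ j) v) = liC U fun f => ∑ j ∈ T, ρ j f := by
  funext v
  rcases v with _ | f
  · exact Finset.sum_const_zero
  · rfl

/-- FKG for nonnegative charges, together with monotonicity in the domain -/
theorem FF_prod (hJ : ∀ e, 0 ≤ J e) (hS : ∀ f ∈ U, (f, true) ∈ S) {ι : Type} (T : Finset ι)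
    {ρ : ι → Z2 → ℝ} (h0 : ∀ j ∈ T, ∀ f ∈ U, 0 ≤ ρ j f) {Y : ι → Finset Z2}
    (hY : ∀ j ∈ T, Y j ⊆ U) :
    ∏ j ∈ T, ((FF J S (Y j) fun h => Real.exp (ch (Y j) (ρ j) h)) / FF J S (Y j) fun _ => 1) ≤
      (FF J S U fun h => Real.exp (ch U (fun f => ∑ j ∈ T, ρ j f) h)) / FF J S U fun _ => 1 := by
  have h1 := pin_prod (conn_g hS) (J := fun e : {e : Bnd // e ∈ S} => J e.1)
    (fun e => hJ e.1) (pinF_nonempty (Finset.Subset.refl U)) T
    (ρ := fun j => liC U (ρ j)) (fun j hj => liC_nonneg (h0 j hj))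
    (Y := fun j => pinF U (Y j)) (fun j hj => pinF_mono (hY j hj))
  rw [liC_sum, ZZ_ch (Finset.Subset.refl U) _ Real.exp, ZZ_one (Finset.Subset.refl U)] at h1
  refine le_trans (le_of_eq (Finset.prod_congr rfl fun j hj => ?_)) h1
  rw [ZZ_ch (hY j hj) (ρ j) Real.exp, ZZ_one (hY j hj)]

end FF

/-! ### bonds which do not touch the domain -/

lemma mem_bd {U : Finset Z2} {e : Bnd} : e ∈ bd U ↔ rt e ∈ U ∨ lf e ∈ U := by
  unfold bd
  rw [Finset.mem_biUnion]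
  constructor
  · rintro ⟨f, hf, he⟩
    simp only [sides, Finset.mem_insert, Finset.mem_singleton] at he
    rcases he with rfl | rfl | rfl | rfl
    · right; simpa [D.lf] using hf
    · left; simpa [D.rt] using hf
    · left; simpa [D.rt] using hf
    · right; simpa [D.lf] using hf
  · obtain ⟨⟨i, j⟩, d⟩ := e
    rintro (h | h)
    · refine ⟨_, h, ?_⟩
      cases d <;> simp [sides, D.rt]
    · refine ⟨_, h, ?_⟩
      cases d <;> simp [sides, D.lf]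

lemma bd_mono {U U' : Finset Z2} (h : U' ⊆ U) : bd U' ⊆ bd U := fun e he => by
  rw [mem_bd] at he ⊢
  exact he.imp (fun h1 => h h1) (fun h1 => h h1)

lemma bd_side {U : Finset Z2} : ∀ f ∈ U, (f, true) ∈ bd U := fun f hf =>
  mem_bd.2 (Or.inl (by simpa [D.rt] using hf))

lemma dh_off {U : Finset Z2} {h : Z2 → ℤ} (hh : ∀ f, f ∉ U → h f = 0) {e : Bnd}
    (he : e ∉ bd U) : dh h e = 0 := by
  rw [mem_bd, not_or] at he
  unfold dh
  rw [hh _ he.1, hh _ he.2, sub_zero]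

lemma FF_bd {J : Bnd → ℝ} {S : Finset Bnd} {U : Finset Z2} (hS : bd U ⊆ S)
    (F : (Z2 → ℤ) → ℝ) :
    FF J S U F = (∏ e ∈ S \ bd U, wI (J e) 0) * FF J (bd U) U F := by
  unfold FF
  rw [← tsum_mul_left]
  refine tsum_congr fun h => ?_
  rw [← Finset.prod_sdiff hS, mul_assoc]
  congr 1
  refine Finset.prod_congr rfl fun e he => ?_
  rw [dh_off h.2 (Finset.mem_sdiff.1 he).2]

/-- ratios do not depend on the additional bonds -/
lemma FF_ratio {J : Bnd → ℝ} (hJ : ∀ e, 0 ≤ J e) {S : Finset Bnd} {U : Finset Z2}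
    (hS : bd U ⊆ S) (F G : (Z2 → ℤ) → ℝ) :
    FF J S U F / FF J S U G = FF J (bd U) U F / FF J (bd U) U G := by
  rw [FF_bd hS F, FF_bd hS G]
  refine mul_div_mul_left _ _ (Finset.prod_pos fun e _ => wI_zero_pos (hJ e)).ne'

/-! ### gradients and charges -/

/-- the divergence (with sign) of the field `B` with the bonds of `S` -/
noncomputable def dS (S : Finset Bnd) (B : Bnd → ℝ) (f : Z2) : ℝ :=
  ∑ e ∈ S, B e * ((if lf e = f then 1 else 0) - if rt e = f then 1 else 0)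

lemma sum_dh (S : Finset Bnd) {U : Finset Z2} (B : Bnd → ℝ) {h : Z2 → ℤ}
    (hh : ∀ f, f ∉ U → h f = 0) :
    ∑ e ∈ S, B e * ((dh h e : ℤ) : ℝ) = ch U (dS S B) h := by
  unfold ch dS
  have h1 : ∀ f : Z2, (h f : ℝ) = ∑ g ∈ U, (if f = g then 1 else 0) * (h g : ℝ) := by
    intro f
    by_cases hf : f ∈ U
    · rw [Finset.sum_eq_single f]
      · rw [if_pos rfl, one_mul]
      · intro g _ hg
        rw [if_neg (Ne.symm hg), zero_mul]
      · exact fun h' => absurd hf h'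
    · rw [hh f hf, Finset.sum_eq_zero fun g hg => ?_, Int.cast_zero]
      rw [if_neg (fun h' : f = g => hf (h' ▸ hg)), zero_mul]
  have h2 : ∀ e : Bnd, B e * ((dh h e : ℤ) : ℝ) =
      ∑ g ∈ U, B e * ((if lf e = g then 1 else 0) - if rt e = g then 1 else 0) * (h g : ℝ) := by
    intro e
    unfold dh
    push_cast
    rw [h1 (lf e), h1 (rt e), ← Finset.sum_sub_distrib, Finset.mul_sum]
    exact Finset.sum_congr rfl fun g _ => by ring
  rw [Finset.sum_congr rfl fun e _ => h2 e, Finset.sum_comm]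
  refine Finset.sum_congr rfl fun g _ => ?_
  rw [Finset.sum_mul]

/-- the divergence (with sign) of a field -/
def dv (B : Bnd → ℝ) (f : Z2) : ℝ :=
  B (f, false) - B ((f.1, f.2 + 1), false) + B ((f.1 + 1, f.2), true) - B (f, true)

lemma isDiv_iff {U : Finset Z2} {B : Bnd → ℝ} {ρ : Z2 → ℝ} :
    IsDiv U B ρ ↔ ∀ f ∈ U, dv B f = ρ f := Iff.rfl

lemma dS_eq {S : Finset Bnd} {f : Z2} (hS : sides f ⊆ S) (B : Bnd → ℝ) : dS S B f = dv B f := by
  unfold dS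
  rw [← Finset.sum_subset hS]
  · obtain ⟨i, j⟩ := f
    unfold sides
    rw [Finset.sum_insert, Finset.sum_insert, Finset.sum_insert, Finset.sum_singleton]
    · simp only [D.lf, D.rt, dv]
      simp
      ring
    · simp
    · simp
    · simp
  · intro e _ he
    have h1 : ¬ lf e = f := by
      rintro rfl
      obtain ⟨⟨i, j⟩, d⟩ := e
      apply he
      cases d <;> simp [sides, D.lf]
    have h2 : ¬ rt e = f := by
      rintro rfl
      obtain ⟨⟨i, j⟩, d⟩ := e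
      apply he
      cases d <;> simp [sides, D.rt]
    rw [if_neg h1, if_neg h2]
    ring

lemma sides_bd {U : Finset Z2} {f : Z2} (hf : f ∈ U) : sides f ⊆ bd U :=
  Finset.subset_biUnion_of_mem sides hf

/-- the pairing of a field with the gradient is the pairing of its charges with the heights -/
lemma pr_eq_ch {U : Finset Z2} (B : Bnd → ℝ) {h : Z2 → ℤ} (hh : ∀ f, f ∉ U → h f = 0) :
    pr U B 0 h = ch U (dv B) h := by
  have h1 : pr U B 0 h = ∑ e ∈ bd U, B e * ((dh h e : ℤ) : ℝ) := by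
    unfold pr
    exact Finset.sum_congr rfl fun e _ => by simp
  rw [h1, sum_dh (bd U) B hh]
  exact Finset.sum_congr rfl fun f hf => by rw [dS_eq (sides_bd hf)]

lemma ch_congr {U : Finset Z2} {ρ ρ' : Z2 → ℝ} (h : ∀ f ∈ U, ρ f = ρ' f) (g : Z2 → ℤ) :
    ch U ρ g = ch U ρ' g := Finset.sum_congr rfl fun f hf => by rw [h f hf]

lemma pr_isDiv {U : Finset Z2} {B : Bnd → ℝ} {ρ : Z2 → ℝ} (hB : IsDiv U B ρ) (h : Ht U) :
    pr U B 0 h.1 = ch U ρ h.1 := by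
  rw [pr_eq_ch B h.2]
  exact ch_congr hB h.1

/-! ### the objects of `T1/D/Defs` -/

section D

variable {b : ℝ} {U U' : Finset Z2}

lemma wt_eq (b : ℝ) (U : Finset Z2) (h : Z2 → ℤ) : wt b U 0 h = ∏ e ∈ bd U, wI b (dh h e) :=
  Finset.prod_congr rfl fun e _ => by simp

lemma tsum_wt (b : ℝ) (U : Finset Z2) (F : (Z2 → ℤ) → ℝ) :
    ∑' h : Ht U, wt b U 0 h.1 * F h.1 = FF (fun _ => b) (bd U) U F := by
  unfold FF
  exact tsum_congr fun h => by rw [wt_eq]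

lemma Z_eq (b : ℝ) (U : Finset Z2) : Z b U = FF (fun _ => b) (bd U) U fun _ => 1 := by
  unfold Z
  rw [← tsum_wt]
  exact tsum_congr fun h => by rw [mul_one]

lemma Zρ_eq (b : ℝ) (U : Finset Z2) (ρ : Z2 → ℝ) :
    Zρ b U ρ = FF (fun _ => b) (bd U) U fun h => Real.exp (ch U ρ h) :=
  tsum_wt b U fun h => Real.exp (ch U ρ h)

lemma ZB_eq (b : ℝ) (U : Finset Z2) (B : Bnd → ℝ) :
    ZB b U 0 B = FF (fun _ => b) (bd U) U fun h => Real.exp (pr U B 0 h) :=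
  tsum_wt b U fun h => Real.exp (pr U B 0 h)

lemma ZB_eq_dv (b : ℝ) (U : Finset Z2) (B : Bnd → ℝ) : ZB b U 0 B = Zρ b U (dv B) := by
  rw [ZB_eq, Zρ_eq]
  exact FF_congr fun h => by rw [pr_eq_ch B h.2]

/-- **a field and its charges** -/
theorem ZB_eq_Zρ {B : Bnd → ℝ} {ρ : Z2 → ℝ} (hB : IsDiv U B ρ) : ZB b U 0 B = Zρ b U ρ := by
  rw [ZB_eq, Zρ_eq]
  exact FF_congr fun h => by rw [pr_isDiv hB h]

lemma E_eq (b : ℝ) (U : Finset Z2) (F : (Z2 → ℤ) → ℝ) :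
    E b U F = FF (fun _ => b) (bd U) U F / FF (fun _ => b) (bd U) U fun _ => 1 := by
  unfold E
  rw [tsum_wt, Z_eq]

lemma Vr_eq (b : ℝ) (U : Finset Z2) (B : Bnd → ℝ) :
    Vr b U B = (FF (fun _ => b) (bd U) U fun h => (ch U (dv B) h) ^ 2) /
      FF (fun _ => b) (bd U) U fun _ => 1 := by
  unfold Vr
  rw [E_eq]
  congr 1
  exact FF_congr fun h => by rw [pr_eq_ch B h.2]

theorem Z_pos (hb : 0 ≤ b) (U : Finset Z2) : 0 < Z b U := by
  rw [Z_eq]
  exact FF_pos (fun _ => hb) bd_side (Finset.Subset.refl U)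

/-- summability of functions of exponential growth -/
theorem summ_ch (hb : 0 ≤ b) (ρ : Z2 → ℝ) {F : (Z2 → ℤ) → ℝ} {C : ℝ}
    (hF : ∀ h : Ht U, |F h.1| ≤ C * Real.exp |ch U ρ h.1|) :
    Summable fun h : Ht U => wt b U 0 h.1 * F h.1 := by
  refine (FF_summable (J := fun _ => b) (fun _ => hb) bd_side ρ hF).congr fun h => ?_
  rw [wt_eq]

/-- the same with a field -/
theorem summ_pr (hb : 0 ≤ b) (B : Bnd → ℝ) {F : (Z2 → ℤ) → ℝ} {C : ℝ}
    (hF : ∀ h : Ht U, |F h.1| ≤ C * Real.exp |pr U B 0 h.1|) :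
    Summable fun h : Ht U => wt b U 0 h.1 * F h.1 :=
  summ_ch hb (dv B) fun h => by rw [← pr_eq_ch B h.2]; exact hF h

theorem Zρ_pos (hb : 0 ≤ b) (U : Finset Z2) (ρ : Z2 → ℝ) : 0 < Zρ b U ρ := by
  have h1 := FF_exp_var (J := fun _ => b) (fun _ => hb) (bd_side (U := U)) ρ
  rw [← Zρ_eq, ← Z_eq] at h1
  have h2 := (Real.exp_pos _).trans_le h1
  by_contra h3
  exact absurd h2 (not_lt.2 (div_nonpos_of_nonpos_of_nonneg (not_lt.1 h3) (Z_pos hb U).le))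

/-- the variance does not depend on the sign of the mean: it is nonnegative -/
theorem Vr_nonneg (hb : 0 ≤ b) (U : Finset Z2) (B : Bnd → ℝ) : 0 ≤ Vr b U B := by
  rw [Vr_eq]
  exact div_nonneg (FF_nonneg (fun _ => hb) fun h => sq_nonneg _)
    (FF_nonneg (fun _ => hb) fun h => zero_le_one)

/-- **The variance increases with the domain.** -/
theorem Vr_mono (hb : 0 ≤ b) (hU : U' ⊆ U) (B : Bnd → ℝ) : Vr b U' B ≤ Vr b U B := by
  rw [Vr_eq, Vr_eq, ← FF_ratio (fun _ => hb) (bd_mono hU)]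
  exact FF_mono_sq (fun _ => hb) (fun _ => le_rfl) bd_side hU (dv B)

/-- **Exponential moments increase with the domain** (charges of any sign). -/
theorem Zρ_div_mono (hb : 0 ≤ b) (hU : U' ⊆ U) (ρ : Z2 → ℝ) :
    Zρ b U' ρ / Z b U' ≤ Zρ b U ρ / Z b U := by
  rw [Zρ_eq, Zρ_eq, Z_eq, Z_eq, ← FF_ratio (fun _ => hb) (bd_mono hU)]
  rw [div_le_div_iff₀ (FF_pos (fun _ => hb) bd_side hU)
    (FF_pos (fun _ => hb) bd_side (Finset.Subset.refl U))]
  exact FF_mono_exp (fun _ => hb) bd_side hU ρ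

theorem Zr_mono (hb : 0 ≤ b) (hU : U' ⊆ U) (ρ : Z2 → ℝ) :
    Zρ b U' ρ * Z b U ≤ Zρ b U ρ * Z b U' := by
  have h1 := Zρ_div_mono hb hU ρ
  rwa [div_le_div_iff₀ (Z_pos hb U') (Z_pos hb U)] at h1

/-- **`exp (Var / 2) ≤ E exp`.** -/
theorem exp_Vr_le (hb : 0 ≤ b) (U : Finset Z2) (B : Bnd → ℝ) :
    Real.exp (Vr b U B / 2) * Z b U ≤ ZB b U 0 B := by
  have h1 := FF_exp_var (J := fun _ => b) (fun _ => hb) (bd_side (U := U)) (dv B)
  rw [← Vr_eq, ← Zρ_eq, ← Z_eq, le_div_iff₀ (Z_pos hb U), ← ZB_eq_dv] at h1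
  exact h1

/-- the same for charges -/
theorem exp_Vr_le_div (hb : 0 ≤ b) {B : Bnd → ℝ} {ρ : Z2 → ℝ} (hB : IsDiv U B ρ) :
    Real.exp (Vr b U B / 2) ≤ Zρ b U ρ / Z b U := by
  rw [le_div_iff₀ (Z_pos hb U), ← ZB_eq_Zρ hB]
  exact exp_Vr_le hb U B

/-- charges do not decrease the partition function -/
theorem one_le_Zρ (hb : 0 ≤ b) (U : Finset Z2) (ρ : Z2 → ℝ) : 1 ≤ Zρ b U ρ / Z b U := by
  have h1 := FF_exp_var (J := fun _ => b) (fun _ => hb) (bd_side (U := U)) ρ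
  rw [← Zρ_eq, ← Z_eq] at h1
  refine le_trans (Real.one_le_exp ?_) h1
  exact div_nonneg (div_nonneg (FF_nonneg (fun _ => hb) fun h => sq_nonneg _)
    (Z_pos hb U).le) zero_le_two

/-- symmetric form of the tilted partition function -/
theorem Zρ_cosh (hb : 0 ≤ b) (U : Finset Z2) (ρ : Z2 → ℝ) :
    Zρ b U ρ = ∑' h : Ht U, wt b U 0 h.1 * Real.cosh (ch U ρ h.1) := by
  rw [Zρ_eq, FF_exp_cosh (fun _ => hb) bd_side ρ, tsum_wt b U fun h => Real.cosh (ch U ρ h)]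

/-- **FKG for nonnegative charges**, together with monotonicity in the domain. -/
theorem Zr_prod (hb : 0 ≤ b) {ι : Type} (T : Finset ι) {ρ : ι → Z2 → ℝ}
    (h0 : ∀ j ∈ T, ∀ f ∈ U, 0 ≤ ρ j f) {Y : ι → Finset Z2} (hY : ∀ j ∈ T, Y j ⊆ U) :
    ∏ j ∈ T, (Zρ b (Y j) (ρ j) / Z b (Y j)) ≤ Zρ b U (fun f => ∑ j ∈ T, ρ j f) / Z b U := by
  rw [Zρ_eq, Z_eq]
  refine le_trans (le_of_eq (Finset.prod_congr rfl fun j hj => ?_))
    (FF_prod (fun _ => hb) bd_side T h0 hY)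
  rw [Zρ_eq, Z_eq, ← FF_ratio (fun _ => hb) (bd_mono (hY j hj))]

/-- the same with variances -/
theorem Zr_prod_var (hb : 0 ≤ b) {ι : Type} (T : Finset ι) {ρ : ι → Z2 → ℝ}
    (h0 : ∀ j ∈ T, ∀ f ∈ U, 0 ≤ ρ j f) {Y : ι → Finset Z2} (hY : ∀ j ∈ T, Y j ⊆ U)
    {B : ι → Bnd → ℝ} (hB : ∀ j ∈ T, IsDiv (Y j) (B j) (ρ j)) :
    Real.exp (∑ j ∈ T, Vr b (Y j) (B j) / 2) ≤
      Zρ b U (fun f => ∑ j ∈ T, ρ j f) / Z b U := by
  refine le_trans ?_ (Zr_prod hb T h0 hY)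
  rw [Real.exp_sum]
  exact Finset.prod_le_prod (fun j _ => (Real.exp_pos _).le) fun j hj =>
    exp_Vr_le_div hb (hB j hj)

/-- more charge -/
theorem Zρ_mono_ρ (hb : 0 ≤ b) {ρ ρ' : Z2 → ℝ} (h0 : ∀ f ∈ U, 0 ≤ ρ f)
    (h1 : ∀ f ∈ U, ρ f ≤ ρ' f) : Zρ b U ρ ≤ Zρ b U ρ' := by
  have h2 := Zr_prod (U := U) hb (Finset.univ : Finset Bool)
    (ρ := fun j f => if j then ρ f else ρ' f - ρ f)
    (fun j _ f hf => by
      cases j
      · simpa using h1 f hf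
      · simpa using h0 f hf) (Y := fun _ => U) (fun _ _ => Finset.Subset.refl U)
  rw [Fintype.prod_bool] at h2
  have e1 : (fun f => ∑ j : Bool, if j then ρ f else ρ' f - ρ f) = ρ' := by
    funext f
    rw [Fintype.sum_bool]
    simp
  rw [e1] at h2
  simp only [if_true, Bool.false_eq_true, if_false] at h2
  have h3 := one_le_Zρ hb U fun f => ρ' f - ρ f
  have hZ := Z_pos hb U
  have h4 : 0 ≤ Zρ b U ρ / Z b U := div_nonneg (Zρ_pos hb U ρ).le hZ.le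
  have h5 : Zρ b U ρ / Z b U ≤ Zρ b U ρ' / Z b U := le_trans (by nlinarith) h2
  exact (div_le_div_iff_of_pos_right hZ).1 h5

end D

end Vale.Agent.P159.T1.H910
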