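import Vale.Agent.P159.T1.H910.Far

/-!
Upper bounds in the language of `T1/D/Defs.lean`.
-/

open MeasureTheory Filter Topology

namespace Vale.Agent.P159.T1.H910

open Vale.Agent.P159 Vale.Agent.P159.H353 Vale.Agent.P159.R2.H254 Vale.Agent.P159.R2.H729
  Vale.Agent.P159.T1.H934 Vale.Agent.P159.T1.D

section D

variable {b : ℝ}

/-- **trivial upper bound of the exponential moments** -/
theorem ZB_le (hb : 0 ≤ b) (U : Finset Z2) (B : Bnd → ℝ) :
    ZB b U 0 B ≤ Real.exp (∑ e ∈ bd U, b * (Real.cosh (B e) - 1)) * Z b U := by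
  have h1 := FF_cosh_le (J := fun _ => b) (U := U) (fun _ => hb) bd_side B
  rw [← Z_eq] at h1
  refine le_trans (le_of_eq ?_) h1
  rw [ZB_eq_dv, Zρ_eq, FF_exp_cosh (fun _ => hb) bd_side]
  refine FF_congr fun h => ?_
  rw [prS_bd (Finset.Subset.refl _), pr_eq_ch B h.2]

/-- **trivial upper bound of the variance** -/
theorem Vr_le (hb : 0 ≤ b) (U : Finset Z2) (B : Bnd → ℝ) :
    Vr b U B ≤ b * ∑ e ∈ bd U, B e ^ 2 := by
  have hZ := Z_pos hb U
  have key : ∀ x : ℝ, 0 < x →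
      Vr b U B ≤ ∑ e ∈ bd U, b * (B e ^ 2 * Real.exp (x ^ 2 * B e ^ 2 / 2)) := by
    intro x hx
    have h1 := exp_Vr_le hb U fun e => x * B e
    have h2 := ZB_le hb U fun e => x * B e
    have h3 : Real.exp (Vr b U (fun e => x * B e) / 2) ≤
        Real.exp (∑ e ∈ bd U, b * (Real.cosh (x * B e) - 1)) :=
      le_of_mul_le_mul_right (h1.trans h2) hZ
    have h4 : Vr b U (fun e => x * B e) = x ^ 2 * Vr b U B := by
      unfold Vr E
      rw [← mul_div_assoc, ← tsum_mul_left]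
      congr 1
      refine tsum_congr fun h => ?_
      have : pr U (fun e => x * B e) 0 h.1 = x * pr U B 0 h.1 := by
        unfold pr
        rw [Finset.mul_sum]
        exact Finset.sum_congr rfl fun e _ => by ring
      show D.wt b U 0 h.1 * pr U (fun e => x * B e) 0 h.1 ^ 2 =
        x ^ 2 * (D.wt b U 0 h.1 * pr U B 0 h.1 ^ 2)
      rw [this]
      ring
    rw [Real.exp_le_exp, h4] at h3
    have h5 : ∑ e ∈ bd U, b * (Real.cosh (x * B e) - 1) ≤
        x ^ 2 / 2 * ∑ e ∈ bd U, b * (B e ^ 2 * Real.exp (x ^ 2 * B e ^ 2 / 2)) := by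
      rw [Finset.mul_sum]
      refine Finset.sum_le_sum fun e _ => ?_
      have h6 := Real.cosh_le_exp_half_sq (x * B e)
      -- `exp y - 1 ≤ y exp y`
      have h7 : Real.exp ((x * B e) ^ 2 / 2) - 1 ≤
          (x * B e) ^ 2 / 2 * Real.exp ((x * B e) ^ 2 / 2) := by
        have h8 := Real.add_one_le_exp (-((x * B e) ^ 2 / 2))
        have h9 := mul_le_mul_of_nonneg_right h8 (Real.exp_pos ((x * B e) ^ 2 / 2)).le
        rw [← Real.exp_add, neg_add_cancel, Real.exp_zero] at h9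
        linarith
      have h10 : Real.cosh (x * B e) - 1 ≤
          x ^ 2 / 2 * (B e ^ 2 * Real.exp (x ^ 2 * B e ^ 2 / 2)) := by
        calc _ ≤ (x * B e) ^ 2 / 2 * Real.exp ((x * B e) ^ 2 / 2) := by linarith
          _ = _ := by rw [mul_pow]; ring
      calc b * (Real.cosh (x * B e) - 1) ≤
            b * (x ^ 2 / 2 * (B e ^ 2 * Real.exp (x ^ 2 * B e ^ 2 / 2))) :=
            mul_le_mul_of_nonneg_left h10 hb
        _ = _ := by ring
    have h11 : x ^ 2 / 2 * Vr b U B ≤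
        x ^ 2 / 2 * ∑ e ∈ bd U, b * (B e ^ 2 * Real.exp (x ^ 2 * B e ^ 2 / 2)) := by
      linarith
    exact le_of_mul_le_mul_left h11 (by positivity)
  have lim : Tendsto (fun x : ℝ => ∑ e ∈ bd U, b * (B e ^ 2 * Real.exp (x ^ 2 * B e ^ 2 / 2)))
      (𝓝[>] 0) (𝓝 (b * ∑ e ∈ bd U, B e ^ 2)) := by
    have h1 : Continuous fun x : ℝ => ∑ e ∈ bd U, b * (B e ^ 2 *
        Real.exp (x ^ 2 * B e ^ 2 / 2)) := by fun_prop
    have h2 := (h1.tendsto 0).mono_left (nhdsWithin_le_nhds (s := Set.Ioi (0 : ℝ)))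
    simpa [Finset.mul_sum] using h2
  exact ge_of_tendsto lim (by
    filter_upwards [self_mem_nhdsWithin] with x hx
    exact key x hx)

/-- **fourth moments** -/
theorem E_four_le (hb : 0 < b) (U : Finset Z2) {A : ℝ} (hA : 0 < A) {B : Bnd → ℝ}
    (hB : ∑ e ∈ bd U, B e ^ 2 ≤ A) :
    E b U (fun h => pr U B 0 h ^ 4) ≤ 144 * (b * A) ^ 2 / (min b 1) ^ 2 := by
  rw [E_eq]
  have h1 := FF_four (J := fun _ => b) (U := U) (fun _ => hb.le) bd_side
    (lt_min hb one_pos) (min_le_right b 1) (fun _ _ => min_le_left b 1) (mul_pos hb hA)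
    (B := B) (by
      rw [← Finset.mul_sum]
      exact mul_le_mul_of_nonneg_left hB hb.le)
  refine le_trans (le_of_eq ?_) h1
  congr 1
  exact FF_congr fun h => by rw [prS_bd (Finset.Subset.refl _)]

/-- **the mirror symmetry which exchanges the two tips** -/
theorem Zρ_mir (b : ℝ) (r : ℕ) (U : Finset Z2) (ρ : Z2 → ℝ) :
    Zρ b (U.image (mir r)) (fun f => ρ (mir r f)) = Zρ b U ρ := by
  classical
  have h1 : U.image (mir r) = U.map (mirF r).toEmbedding := by
    ext f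
    simp only [Finset.mem_image, Finset.mem_map, Equiv.toEmbedding_apply, mirF_apply]
  rw [h1, Zρ_symm (isSym_mir r)]
  congr 1
  funext f
  simp only [Function.comp, mirF_apply]
  congr 1
  simp [mir]

end D

end Vale.Agent.P159.T1.H910
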