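import Vale.Agent.P159.T1.H910.DKit
import Vale.Agent.P159.T1.D.Stmts
import Vale.Agent.P159.T1.H532.QDefs

/-!
Symmetries of the square lattice act on the heights (language of `T1/D/Defs.lean`).
-/

open MeasureTheory Filter Topology

namespace Vale.Agent.P159.T1.H910

open Vale.Agent.P159 Vale.Agent.P159.H353 Vale.Agent.P159.R2.H254 Vale.Agent.P159.R2.H729
  Vale.Agent.P159.T1.H934 Vale.Agent.P159.T1.D
open Vale.Agent.P159.T1.H532 (bxQ mem_bxQ)

/-- `σ` maps neighbouring faces to neighbouring faces; `τ` is the action on the bonds -/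
def IsSym (σ : Z2 ≃ Z2) (τ : Bnd ≃ Bnd) : Prop :=
  ∀ e, (D.lf (τ e) = σ (D.lf e) ∧ D.rt (τ e) = σ (D.rt e)) ∨
    (D.lf (τ e) = σ (D.rt e) ∧ D.rt (τ e) = σ (D.lf e))

lemma IsSym.trans {σ σ' : Z2 ≃ Z2} {τ τ' : Bnd ≃ Bnd} (h : IsSym σ τ) (h' : IsSym σ' τ') :
    IsSym (σ.trans σ') (τ.trans τ') := by
  intro e
  rcases h e with ⟨h1, h2⟩ | ⟨h1, h2⟩ <;> rcases h' (τ e) with ⟨h3, h4⟩ | ⟨h3, h4⟩ <;>
    simp only [Equiv.trans_apply, h3, h4, h1, h2, and_self, true_or, or_true]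

lemma isSym_refl : IsSym (Equiv.refl _) (Equiv.refl _) := fun _ => Or.inl ⟨rfl, rfl⟩

/-- translation of the faces -/
def trF (u : Z2) : Z2 ≃ Z2 := Equiv.addRight u

/-- translation of the bonds -/
def trB (u : Z2) : Bnd ≃ Bnd := (Equiv.addRight u).prodCongr (Equiv.refl _)

lemma isSym_tr (u : Z2) : IsSym (trF u) (trB u) := by
  rintro ⟨⟨i, j⟩, d⟩
  left
  cases d <;> simp [D.lf, D.rt, trF, trB, Prod.ext_iff] <;> ring

/-- reflection of the first coordinate -/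
def rxF : Z2 ≃ Z2 where
  toFun f := (-1 - f.1, f.2)
  invFun f := (-1 - f.1, f.2)
  left_inv f := by ext <;> simp
  right_inv f := by ext <;> simp

/-- reflection of the first coordinate, bonds -/
def rxB : Bnd ≃ Bnd where
  toFun e := if e.2 then ((-e.1.1, e.1.2), true) else ((-1 - e.1.1, e.1.2), false)
  invFun e := if e.2 then ((-e.1.1, e.1.2), true) else ((-1 - e.1.1, e.1.2), false)
  left_inv e := by
    obtain ⟨⟨i, j⟩, d⟩ := e
    cases d <;> simp
  right_inv e := by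
    obtain ⟨⟨i, j⟩, d⟩ := e
    cases d <;> simp

lemma isSym_rx : IsSym rxF rxB := by
  rintro ⟨⟨i, j⟩, d⟩
  cases d
  · left; simp [D.lf, D.rt, rxF, rxB]
  · right; constructor <;> simp [D.lf, D.rt, rxF, rxB] <;> ring

/-- reflection of the second coordinate -/
def ryF : Z2 ≃ Z2 where
  toFun f := (f.1, -1 - f.2)
  invFun f := (f.1, -1 - f.2)
  left_inv f := by ext <;> simp
  right_inv f := by ext <;> simp

/-- reflection of the second coordinate, bonds -/
def ryB : Bnd ≃ Bnd where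
  toFun e := if e.2 then ((e.1.1, -1 - e.1.2), true) else ((e.1.1, -e.1.2), false)
  invFun e := if e.2 then ((e.1.1, -1 - e.1.2), true) else ((e.1.1, -e.1.2), false)
  left_inv e := by
    obtain ⟨⟨i, j⟩, d⟩ := e
    cases d <;> simp
  right_inv e := by
    obtain ⟨⟨i, j⟩, d⟩ := e
    cases d <;> simp

lemma isSym_ry : IsSym ryF ryB := by
  rintro ⟨⟨i, j⟩, d⟩
  cases d
  · right; constructor <;> simp [D.lf, D.rt, ryF, ryB] <;> ring
  · left; simp [D.lf, D.rt, ryF, ryB]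

/-- exchange of the coordinates -/
def swF : Z2 ≃ Z2 := Equiv.prodComm ℤ ℤ

/-- exchange of the coordinates, bonds -/
def swB : Bnd ≃ Bnd where
  toFun e := ((e.1.2, e.1.1), !e.2)
  invFun e := ((e.1.2, e.1.1), !e.2)
  left_inv e := by simp
  right_inv e := by simp

lemma isSym_sw : IsSym swF swB := by
  rintro ⟨⟨i, j⟩, d⟩
  right
  cases d <;> simp [D.lf, D.rt, swF, swB]

/-- the isometries of `StmtV`, faces -/
def isoF (u : Z2) (x y z : Bool) : Z2 ≃ Z2 :=
  (((if z then swF else Equiv.refl _).trans (if x then Equiv.refl _ else rxF)).trans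
    (if y then Equiv.refl _ else ryF)).trans (trF u)

/-- the isometries of `StmtV`, bonds -/
def isoB (u : Z2) (x y z : Bool) : Bnd ≃ Bnd :=
  (((if z then swB else Equiv.refl _).trans (if x then Equiv.refl _ else rxB)).trans
    (if y then Equiv.refl _ else ryB)).trans (trB u)

lemma isSym_iso (u : Z2) (x y z : Bool) : IsSym (isoF u x y z) (isoB u x y z) := by
  have hz : IsSym (if z then swF else Equiv.refl _) (if z then swB else Equiv.refl _) := by
    cases z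
    · exact isSym_refl
    · exact isSym_sw
  have hx : IsSym (if x then Equiv.refl _ else rxF) (if x then Equiv.refl _ else rxB) := by
    cases x
    · exact isSym_rx
    · exact isSym_refl
  have hy : IsSym (if y then Equiv.refl _ else ryF) (if y then Equiv.refl _ else ryB) := by
    cases y
    · exact isSym_ry
    · exact isSym_refl
  exact ((hz.trans hx).trans hy).trans (isSym_tr u)

lemma isoF_apply (u : Z2) (x y z : Bool) (f : Z2) : isoF u x y z f = iso u x y z f := by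
  obtain ⟨i, j⟩ := f
  obtain ⟨u1, u2⟩ := u
  cases x <;> cases y <;> cases z <;>
    simp [isoF, iso, swF, rxF, ryF, trF, add_comm]

/-- the mirror symmetry which exchanges the two tips, faces -/
def mirF (r : ℕ) : Z2 ≃ Z2 := rxF.trans (trF ((r : ℤ), 0))

/-- the mirror symmetry which exchanges the two tips, bonds -/
def mirBd (r : ℕ) : Bnd ≃ Bnd := rxB.trans (trB ((r : ℤ), 0))

lemma isSym_mir (r : ℕ) : IsSym (mirF r) (mirBd r) := isSym_rx.trans (isSym_tr _)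

lemma mirF_apply (r : ℕ) (f : Z2) : mirF r f = mir r f := by
  simp [mirF, rxF, trF, mir]
  ring

/-! ### action on the heights -/

section act

variable {σ : Z2 ≃ Z2} {τ : Bnd ≃ Bnd}

lemma IsSym.wI (hs : IsSym σ τ) (b : ℝ) (h : Z2 → ℤ) (e : Bnd) :
    wI b (dh h (τ e)) = wI b (dh (h ∘ σ) e) := by
  unfold dh
  rcases hs e with ⟨h1, h2⟩ | ⟨h1, h2⟩
  · rw [h1, h2]; rfl
  · rw [h1, h2, ← wI_neg, neg_sub]; rfl

lemma IsSym.mul (hs : IsSym σ τ) (g : Z2 → ℝ) (h : Z2 → ℤ) (e : Bnd) :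
    dr g (τ e) * ((dh h (τ e) : ℤ) : ℝ) = dr (g ∘ σ) e * ((dh (h ∘ σ) e : ℤ) : ℝ) := by
  unfold dh dr
  rcases hs e with ⟨h1, h2⟩ | ⟨h1, h2⟩
  · rw [h1, h2]; rfl
  · rw [h1, h2]
    simp only [Function.comp]
    push_cast
    ring

lemma IsSym.bd (hs : IsSym σ τ) (U : Finset Z2) :
    bd (U.map σ.toEmbedding) = (bd U).map τ.toEmbedding := by
  ext e
  obtain ⟨e, rfl⟩ := τ.surjective e
  rw [mem_bd, Finset.mem_map_equiv, Finset.mem_map_equiv, Finset.mem_map_equiv, mem_bd,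
    Equiv.symm_apply_apply]
  rcases hs e with ⟨h1, h2⟩ | ⟨h1, h2⟩
  · rw [h1, h2, Equiv.symm_apply_apply, Equiv.symm_apply_apply]
  · rw [h1, h2, Equiv.symm_apply_apply, Equiv.symm_apply_apply]
    exact or_comm

/-- the heights on the image -/
def htE (σ : Z2 ≃ Z2) (U : Finset Z2) : Ht (U.map σ.toEmbedding) ≃ Ht U where
  toFun h := ⟨h.1 ∘ σ, fun f hf => h.2 _ (by
    rw [Finset.mem_map_equiv, Equiv.symm_apply_apply]; exact hf)⟩
  invFun h := ⟨h.1 ∘ σ.symm, fun f hf => h.2 _ (by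
    rw [Finset.mem_map_equiv] at hf; exact hf)⟩
  left_inv h := Subtype.ext (by funext f; simp)
  right_inv h := Subtype.ext (by funext f; simp)

/-- **symmetry** -/
theorem FF_symm (hs : IsSym σ τ) (J : Bnd → ℝ) (S : Finset Bnd) (U : Finset Z2)
    (F : (Z2 → ℤ) → ℝ) :
    FF J (S.map τ.toEmbedding) (U.map σ.toEmbedding) F =
      FF (fun e => J (τ e)) S U fun h => F (h ∘ σ.symm) := by
  unfold FF
  rw [← (htE σ U).tsum_eq]
  refine tsum_congr fun h => ?_
  have e1 : ((htE σ U) h).1 = h.1 ∘ σ := rfl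
  have e2 : ((h.1 ∘ σ) ∘ σ.symm : Z2 → ℤ) = h.1 := by funext f; simp
  rw [e1, Finset.prod_map]
  simp only [e2]
  congr 1
  exact Finset.prod_congr rfl fun e _ => hs.wI (J (τ e)) h.1 e

theorem Z_symm (hs : IsSym σ τ) (b : ℝ) (U : Finset Z2) :
    Z b (U.map σ.toEmbedding) = Z b U := by
  rw [Z_eq, Z_eq, hs.bd, FF_symm hs]

lemma ch_symm (σ : Z2 ≃ Z2) (U : Finset Z2) (ρ : Z2 → ℝ) (h : Z2 → ℤ) :
    ch (U.map σ.toEmbedding) ρ h = ch U (ρ ∘ σ) (h ∘ σ) := by
  unfold ch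
  rw [Finset.sum_map]
  rfl

theorem Zρ_symm (hs : IsSym σ τ) (b : ℝ) (U : Finset Z2) (ρ : Z2 → ℝ) :
    Zρ b (U.map σ.toEmbedding) ρ = Zρ b U (ρ ∘ σ) := by
  rw [Zρ_eq, Zρ_eq, hs.bd, FF_symm hs]
  refine FF_congr fun h => ?_
  rw [ch_symm]
  congr 2
  funext f
  simp

lemma pr_symm (hs : IsSym σ τ) (U : Finset Z2) (g : Z2 → ℝ) (h : Z2 → ℤ) :
    pr (U.map σ.toEmbedding) (dr g) 0 h = pr U (dr (g ∘ σ)) 0 (h ∘ σ) := by
  unfold pr
  rw [hs.bd, Finset.sum_map]
  refine Finset.sum_congr rfl fun e _ => ?_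
  have := hs.mul g h e
  simpa using this

/-- **the variance of `X_g`** -/
theorem Vr_symm (hs : IsSym σ τ) (b : ℝ) (U : Finset Z2) (g : Z2 → ℝ) :
    Vr b (U.map σ.toEmbedding) (dr g) = Vr b U (dr (g ∘ σ)) := by
  unfold Vr
  rw [E_eq, E_eq, hs.bd, FF_symm hs, FF_symm hs]
  congr 1
  refine FF_congr fun h => ?_
  rw [pr_symm hs]
  congr 2
  funext f
  simp

end act

/-- **(V4)**: every domain which contains the box -/
theorem Vr_box_le {b : ℝ} (hb : 0 ≤ b) {φ : ℝ × ℝ → ℝ} (hφ : ∀ z ∈ tsupport φ, 0 < z.1 ∧ 0 < z.2)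
    {n L : ℕ} (u : Z2) (x y z : Bool) {U : Finset Z2}
    (hU : ∀ f : Z2, 0 ≤ f.1 → f.1 < L → 0 ≤ f.2 → f.2 < L → iso u x y z f ∈ U)
    {g : Z2 → ℝ} (hg : ∀ f : Z2, 0 ≤ f.1 → 0 ≤ f.2 → g (iso u x y z f) =
      φ ((f.1 : ℝ) / n, (f.2 : ℝ) / n))
    (hg0 : ∀ f : Z2, (∀ f', 0 ≤ f'.1 → 0 ≤ f'.2 → f ≠ iso u x y z f') → g f = 0) :
    Vr b (bxQ L) (dr fun f => φ ((f.1 : ℝ) / n, (f.2 : ℝ) / n)) ≤ Vr b U (dr g) := by
  have h1 : (bxQ L).map (isoF u x y z).toEmbedding ⊆ U := by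
    intro f hf
    rw [Finset.mem_map] at hf
    obtain ⟨f', hf', rfl⟩ := hf
    rw [mem_bxQ] at hf'
    rw [Equiv.toEmbedding_apply, isoF_apply]
    exact hU f' hf'.1 hf'.2.1 hf'.2.2.1 hf'.2.2.2
  refine le_trans (le_of_eq ?_) (Vr_mono hb h1 _)
  rw [Vr_symm (isSym_iso u x y z)]
  congr 2
  funext f
  simp only [Function.comp, isoF_apply]
  have hoff : ∀ w : ℝ × ℝ, (w.1 ≤ 0 ∨ w.2 ≤ 0) → φ w = 0 := by
    intro w hw
    by_contra h
    have := hφ w (subset_tsupport φ h)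
    rcases hw with h2 | h2
    · exact absurd this.1 (not_lt.2 h2)
    · exact absurd this.2 (not_lt.2 h2)
  by_cases hf : 0 ≤ f.1 ∧ 0 ≤ f.2
  · exact (hg f hf.1 hf.2).symm
  · have h3 : g (iso u x y z f) = 0 := by
      apply hg0
      intro f' h4 h5 h6
      rw [← isoF_apply, ← isoF_apply] at h6
      have := (isoF u x y z).injective h6
      exact hf ⟨this ▸ h4, this ▸ h5⟩
    rw [h3]
    apply hoff
    rw [not_and_or, not_le, not_le] at hf
    rcases hf with h4 | h4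
    · left
      exact div_nonpos_of_nonpos_of_nonneg (by exact_mod_cast h4.le) (Nat.cast_nonneg n)
    · right
      exact div_nonpos_of_nonpos_of_nonneg (by exact_mod_cast h4.le) (Nat.cast_nonneg n)

end Vale.Agent.P159.T1.H910
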