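import Vale.Agent.P159.T1.H910.PinMono

/-!
Exponential moments of the gradient are at most those of independent currents.
-/

open MeasureTheory Filter Topology

namespace Vale.Agent.P159.T1.H910

open Vale.Agent.P159 Vale.Agent.P159.H353 Vale.Agent.P159.R2.H254 Vale.Agent.P159.R2.H729
  Vale.Agent.P159.T1.H934

/-- the exponential moments of the weight of one bond -/
lemma wI_exp {J : ℝ} (hJ : 0 ≤ J) (a : ℝ) :
    HasSum (fun n : ℤ => wI J n * Real.exp (a * n)) (Real.exp (J * Real.cosh a)) := by
  have h := laurent hJ (z := Complex.exp a) (Complex.exp_ne_zero _)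
  have e1 : ∀ n : ℤ, (wI J n : ℂ) * Complex.exp (a : ℂ) ^ n =
      ((wI J n * Real.exp (a * n) : ℝ) : ℂ) := by
    intro n
    rw [← Complex.exp_int_mul]
    push_cast
    rw [mul_comm (n : ℂ) (a : ℂ)]
  have e2 : Complex.exp (J * ((Complex.exp a + (Complex.exp a)⁻¹) / 2)) =
      ((Real.exp (J * Real.cosh a) : ℝ) : ℂ) := by
    push_cast
    rw [← Complex.exp_neg, Complex.cosh]
  rw [e2] at h
  simp only [e1] at h
  exact_mod_cast h

section free

variable {H : Type} [AddCommGroup H] {E C : Type} [Fintype E] [Fintype C]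

/-- currents with additional linear functionals -/
def addC (D : H →+ (E → ℤ)) (c : H →+ (C → ℤ)) : H →+ (E ⊕ C → ℤ) where
  toFun h := Sum.elim (D h) (c h)
  map_zero' := by funext x; rcases x with e | y <;> simp
  map_add' a b := by funext x; rcases x with e | y <;> simp

lemma addC_inj {D : H →+ (E → ℤ)} (hD : Function.Injective D) (c : H →+ (C → ℤ)) :
    Function.Injective (addC D c) := by
  intro a b h
  apply hD
  funext e
  exact congrFun h (Sum.inl e)

open Classical in
/-- **Exponential moments increase if linear constraints are removed.** -/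
theorem mono_free {D : H →+ (E → ℤ)} (hD : Function.Injective D) (c : H →+ (C → ℤ)) {J : E → ℝ}
    (hJ : ∀ e, 0 ≤ J e) (a : E → ℝ) :
    (∑' h, if c h = 0 then W D J h * Real.cosh (ln D a h) else 0) * (∑' h, W D J h) ≤
      (∑' h, W D J h * Real.cosh (ln D a h)) * ∑' h, if c h = 0 then W D J h else 0 := by
  have hinj := addC_inj hD c
  set J' : E ⊕ C → ℝ := Sum.elim J 0 with hJ'
  set K' : ℕ → E ⊕ C → ℝ := fun m => Sum.elim 0 (fun _ => (m : ℝ)) with hK'
  set a' : E ⊕ C → ℝ := Sum.elim a 0 with ha'
  have hJ'0 : ∀ x, 0 ≤ J' x := by rintro (e | y) <;> simp [hJ', hJ]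
  have hK'0 : ∀ m x, 0 ≤ K' m x := by
    rintro m (e | y) <;> simp [hK']
  have ln' : ∀ h, ln (addC D c) a' h = ln D a h := by
    intro h
    unfold ln
    rw [Fintype.sum_sum_type]
    simp only [ha', Sum.elim_inl, Sum.elim_inr, Pi.zero_apply, zero_mul, Finset.sum_const_zero,
      add_zero]
    rfl
  have hadd : ∀ m, J' + K' m = Sum.elim J (fun _ : C => (m : ℝ)) := by
    intro m
    funext x
    rcases x with e | y <;> simp [hJ', hK']
  have w1 : ∀ h : H, W (addC D c) J' h = if c h = 0 then W D J h else 0 := by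
    intro h
    unfold W
    rw [Fintype.prod_sum_type]
    have e1 : ∀ e : E, wI (J' (Sum.inl e)) (addC D c h (Sum.inl e)) = wI (J e) (D h e) :=
      fun e => rfl
    have e2 : ∀ y : C, wI (J' (Sum.inr y)) (addC D c h (Sum.inr y)) =
        if c h y = 0 then 1 else 0 := fun y => wI_zero_left _
    simp only [e1, e2]
    by_cases h1 : c h = 0
    · have h2 : ∀ y : C, c h y = 0 := fun y => congrFun h1 y
      rw [if_pos h1, Finset.prod_eq_one fun y _ => if_pos (h2 y), mul_one]
    · rw [if_neg h1]
      obtain ⟨y, hy⟩ : ∃ y, c h y ≠ 0 := by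
        by_contra hn
        push Not at hn
        exact h1 (funext hn)
      rw [Finset.prod_eq_zero (Finset.mem_univ y) (if_neg hy), mul_zero]
  set z : ℕ → ℝ := fun m => ∏ _y : C, wI m 0 with hz
  have z0 : ∀ m, 0 < z m := fun m => Finset.prod_pos fun y _ => wI_zero_pos (Nat.cast_nonneg m)
  set R : ℕ → H → ℝ := fun m h => ∏ y : C, wI m (c h y) / wI m 0 with hR
  have w2 : ∀ m (h : H), W (addC D c) (J' + K' m) h = z m * (W D J h * R m h) := by
    intro m h
    rw [hadd]
    unfold W
    rw [Fintype.prod_sum_type]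
    have e1 : ∏ y : C, wI (Sum.elim J (fun _ : C => (m : ℝ)) (Sum.inr y))
        (addC D c h (Sum.inr y)) = z m * R m h := by
      simp only [hz, hR]
      rw [← Finset.prod_mul_distrib]
      refine Finset.prod_congr rfl fun y _ => ?_
      rw [mul_div_cancel₀ _ (wI_zero_pos (Nat.cast_nonneg m)).ne']
      rfl
    rw [e1]
    show (∏ e : E, wI (J e) (D h e)) * (z m * R m h) = _
    ring
  have R0 : ∀ m h, 0 ≤ R m h := fun m h => Finset.prod_nonneg fun y _ =>
    div_nonneg (wI_nonneg (Nat.cast_nonneg m) _) (wI_nonneg (Nat.cast_nonneg m) _)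
  have R1 : ∀ m h, R m h ≤ 1 := fun m h => Finset.prod_le_one
    (fun y _ => div_nonneg (wI_nonneg (Nat.cast_nonneg m) _) (wI_nonneg (Nat.cast_nonneg m) _))
    fun y _ => by
      rw [div_le_one (wI_zero_pos (Nat.cast_nonneg m))]
      exact wI_anti (Nat.cast_nonneg m) (by rw [abs_zero]; exact abs_nonneg _)
  have Rlim : ∀ h, Tendsto (fun m => R m h) atTop (𝓝 1) := by
    intro h
    have h1 : Tendsto (fun m => R m h) atTop (𝓝 (∏ _y : C, (1 : ℝ))) :=
      tendsto_finsetProd _ fun y _ => wI_ratio _
    rwa [Finset.prod_const_one] at h1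
  have cb : ∀ h : H, |Real.cosh (ln D a h)| ≤ 1 * Real.exp |ln D a h| := fun h => by
    rw [abs_of_pos (Real.cosh_pos _), one_mul, ← Real.cosh_abs, Real.cosh_eq]
    have : Real.exp (-|ln D a h|) ≤ Real.exp |ln D a h| :=
      Real.exp_le_exp.2 (by linarith [abs_nonneg (ln D a h)])
    linarith
  have ob : ∀ h : H, |(1 : ℝ)| ≤ 1 * Real.exp |ln D a h| := fun h => by
    rw [abs_one, one_mul]
    exact Real.one_le_exp (abs_nonneg _)
  have lim : ∀ f : H → ℝ, (∀ h, 0 ≤ f h) → (∀ h, |f h| ≤ 1 * Real.exp |ln D a h|) →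
      Tendsto (fun m => ∑' h, W D J h * R m h * f h) atTop (𝓝 (∑' h, W D J h * f h)) := by
    intro f f0 hf
    have hs := (summable_growth (D := D) hD hJ a hf).of_abs
    refine tendsto_tsum_of_dominated_convergence (bound := fun h : H => W D J h * f h) hs
      (fun h => ?_) ?_
    · have h1 := ((Rlim h).const_mul (W D J h)).mul_const (f h)
      rwa [mul_one] at h1
    · filter_upwards with m h
      rw [Real.norm_eq_abs, abs_of_nonneg (mul_nonneg (mul_nonneg (W_nonneg hJ _) (R0 m h)) (f0 h))]
      exact mul_le_mul_of_nonneg_right (mul_le_of_le_one_right (W_nonneg hJ _) (R1 m h)) (f0 h)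
  have l1 := lim (fun h => Real.cosh (ln D a h)) (fun h => (Real.cosh_pos _).le) cb
  have l2 := lim (fun _ => 1) (fun _ => zero_le_one) ob
  have e1 : ∑' h, W (addC D c) J' h * Real.cosh (ln (addC D c) a' h) =
      ∑' h, if c h = 0 then W D J h * Real.cosh (ln D a h) else 0 := by
    refine tsum_congr fun h => ?_
    rw [w1, ln']
    split_ifs
    · rfl
    · rw [zero_mul]
  have e2 : ∑' h, W (addC D c) J' h = ∑' h, if c h = 0 then W D J h else 0 :=
    tsum_congr fun h => w1 h
  have key : ∀ m, (∑' h, if c h = 0 then W D J h * Real.cosh (ln D a h) else 0) *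
      (∑' h, W D J h * R m h * 1) ≤
      (∑' h, W D J h * R m h * Real.cosh (ln D a h)) * ∑' h, if c h = 0 then W D J h else 0 := by
    intro m
    have h1 := mono_cosh hinj hJ'0 (hK'0 m) a'
    rw [e1, e2] at h1
    have e3 : ∑' h, W (addC D c) (J' + K' m) h = z m * ∑' h, W D J h * R m h * 1 := by
      rw [← tsum_mul_left]
      exact tsum_congr fun h => by rw [w2, mul_one]
    have e4 : ∑' h, W (addC D c) (J' + K' m) h * Real.cosh (ln (addC D c) a' h) =
        z m * ∑' h, W D J h * R m h * Real.cosh (ln D a h) := by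
      rw [← tsum_mul_left]
      exact tsum_congr fun h => by rw [w2, ln']; ring
    rw [e3, e4] at h1
    have h2 := z0 m
    refine le_of_mul_le_mul_left ?_ h2
    linarith
  have h3 := le_of_tendsto_of_tendsto' (l2.const_mul _) (l1.mul_const _) key
  simp only [mul_one] at h3
  exact h3

end free

/-! ### heights on a graph as constrained currents -/

section graph

variable {V E : Type} [Fintype V] [Fintype E] {s t : E → V}

omit [Fintype V] in
/-- differences of heights are integer linear functionals of the gradient -/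
lemma exists_flowZ (hc : Conn s t) (x v : V) :
    ∃ f : E → ℤ, ∀ h : V → ℤ, h v - h x = ∑ e, f e * grd s t h e := by
  classical
  have h1 := hc x v
  induction h1 with
  | refl => exact ⟨0, fun h => by simp⟩
  | @tail a b _ hab ih =>
    obtain ⟨f, hf⟩ := ih
    obtain ⟨e, he⟩ := hab
    have key : ∀ (σ : ℤ) (h : V → ℤ), ∑ e', (f e' + (if e' = e then σ else 0)) *
        grd s t h e' = (h a - h x) + σ * (h (t e) - h (s e)) := by
      intro σ h
      rw [hf h]
      simp only [add_mul, Finset.sum_add_distrib, ite_mul, zero_mul, Finset.sum_ite_eq',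
        Finset.mem_univ, if_true]
      rfl
    rcases he with ⟨rfl, rfl⟩ | ⟨rfl, rfl⟩
    · refine ⟨fun e' => f e' + if e' = e then 1 else 0, fun h => ?_⟩
      rw [key 1 h]
      ring
    · refine ⟨fun e' => f e' + if e' = e then -1 else 0, fun h => ?_⟩
      rw [key (-1) h]
      ring

/-- a linear functional of the currents for each vertex -/
def flF (F : V → E → ℤ) : (E → ℤ) →+ (V → ℤ) where
  toFun n := fun v => ∑ e, F v e * n e
  map_zero' := by funext v; simp
  map_add' a b := by
    funext v
    simp only [Pi.add_apply, mul_add, Finset.sum_add_distrib]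

open Classical in
/-- the constraints -/
noncomputable def cons (s t : E → V) (X : Set V) (F : V → E → ℤ) : (E → ℤ) →+ (E ⊕ V → ℤ) where
  toFun n := Sum.elim (fun e => n e - (flF F n (t e) - flF F n (s e)))
    fun v => if v ∈ X then flF F n v else 0
  map_zero' := by
    funext x
    rcases x with e | v
    · simp
    · simp
  map_add' a b := by
    funext x
    rcases x with e | v
    · simp only [map_add, Pi.add_apply, Sum.elim_inl]
      ring
    · simp only [map_add, Pi.add_apply, Sum.elim_inr]
      split_ifs <;> simp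

/-- the currents -/
def idE (E : Type) : (E → ℤ) →+ (E → ℤ) := AddMonoidHom.id _

lemma free_one {J : E → ℝ} (hJ : ∀ e, 0 ≤ J e) :
    ∑' n : E → ℤ, W (idE E) J n = Real.exp (∑ e, J e) := by
  have p0 := prod_real (a := fun e n => wI (J e) n) fun e => (summable_wI (hJ e)).abs
  have h1 : ∑' n : E → ℤ, W (idE E) J n = ∏ e, ∑' k, wI (J e) k := p0.2
  rw [h1, Real.exp_sum]
  refine Finset.prod_congr rfl fun e _ => ?_
  have h2 := (wI_exp (hJ e) 0).tsum_eq
  simpa using h2

lemma free_exp {J : E → ℝ} (hJ : ∀ e, 0 ≤ J e) (a : E → ℝ) (b : ℝ) :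
    HasSum (fun n : E → ℤ => W (idE E) J n *
      Real.exp (b * ∑ e, a e * (n e : ℝ))) (Real.exp (∑ e, J e * Real.cosh (b * a e))) := by
  have hs : ∀ e : E, Summable fun n : ℤ => |wI (J e) n * Real.exp (b * a e * n)| :=
    fun e => (wI_exp (hJ e) (b * a e)).summable.abs
  have h1 := prod_real (a := fun e n => wI (J e) n * Real.exp (b * a e * n)) hs
  have e1 : ∀ n : E → ℤ, W (idE E) J n * Real.exp (b * ∑ e, a e * (n e : ℝ)) =
      ∏ e, wI (J e) (n e) * Real.exp (b * a e * (n e : ℝ)) := by
    intro n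
    rw [Finset.prod_mul_distrib, ← Real.exp_sum, Finset.mul_sum]
    have e2 : ∑ e, b * (a e * (n e : ℝ)) = ∑ e, b * a e * (n e : ℝ) :=
      Finset.sum_congr rfl fun e _ => by ring
    rw [e2]
    rfl
  have h2 : ∏ e, ∑' k : ℤ, wI (J e) k * Real.exp (b * a e * k) =
      Real.exp (∑ e, J e * Real.cosh (b * a e)) := by
    rw [Real.exp_sum]
    exact Finset.prod_congr rfl fun e _ => (wI_exp (hJ e) (b * a e)).tsum_eq
  simp only [e1]
  rw [← h2, ← h1.2]
  exact h1.1.of_abs.hasSum

lemma free_cosh {J : E → ℝ} (hJ : ∀ e, 0 ≤ J e) (a : E → ℝ) :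
    ∑' n : E → ℤ, W (idE E) J n * Real.cosh (∑ e, a e * (n e : ℝ)) =
      Real.exp (∑ e, J e * Real.cosh (a e)) := by
  have h1 := ((free_exp hJ a 1).add (free_exp hJ a (-1))).div_const 2
  have e1 : ∀ n : E → ℤ, W (idE E) J n * Real.cosh (∑ e, a e * (n e : ℝ)) =
      (W (idE E) J n * Real.exp (1 * ∑ e, a e * (n e : ℝ)) +
        W (idE E) J n * Real.exp (-1 * ∑ e, a e * (n e : ℝ))) / 2 := by
    intro n
    rw [Real.cosh_eq, one_mul, neg_one_mul]
    ring
  rw [tsum_congr e1, h1.tsum_eq]
  have e2 : ∑ e, J e * Real.cosh (1 * a e) = ∑ e, J e * Real.cosh (a e) :=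
    Finset.sum_congr rfl fun e _ => by rw [one_mul]
  have e3 : ∑ e, J e * Real.cosh (-1 * a e) = ∑ e, J e * Real.cosh (a e) :=
    Finset.sum_congr rfl fun e _ => by rw [neg_one_mul, Real.cosh_neg]
  rw [e2, e3]
  ring

open Classical in
/-- **The exponential moments are at most those of independent currents.** -/
theorem ZZ_exp_le (hc : Conn s t) {J : E → ℝ} (hJ : ∀ e, 0 ≤ J e) {X : Set V}
    (hX : X.Nonempty) (a : E → ℝ) :
    ZZ s t J X (fun h => Real.cosh (∑ e, a e * (grd s t h e : ℝ))) ≤
      Real.exp (∑ e, J e * (Real.cosh (a e) - 1)) * ZZ s t J X fun _ => 1 := by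
  obtain ⟨x0, hx0⟩ := hX
  choose F hF using fun v => exists_flowZ hc x0 v
  have hmain := mono_free (D := idE E) (fun _ _ h => h) (cons s t X F) hJ a
  -- heights and constrained currents
  have hgr : ∀ h : V → ℤ, (∀ v ∈ X, h v = 0) → flF F (grd s t h) = h := by
    intro h hh
    funext v
    show ∑ e, F v e * grd s t h e = h v
    rw [← hF v h, hh x0 hx0, sub_zero]
  let eqv : {h : V → ℤ // ∀ v ∈ X, h v = 0} ≃ {n : E → ℤ // cons s t X F n = 0} :=
    { toFun := fun h => ⟨grd s t h.1, by
        funext x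
        rcases x with e | v
        · show grd s t h.1 e - (flF F (grd s t h.1) (t e) - flF F (grd s t h.1) (s e)) = 0
          rw [hgr h.1 h.2]
          exact sub_self _
        · show (if v ∈ X then flF F (grd s t h.1) v else 0) = 0
          rw [hgr h.1 h.2]
          split_ifs with hv
          · exact h.2 v hv
          · rfl⟩
      invFun := fun n => ⟨flF F n.1, fun v hv => by
        have := congrFun n.2 (Sum.inr v)
        have h2 : (if v ∈ X then flF F n.1 v else 0) = 0 := this
        rwa [if_pos hv] at h2⟩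
      left_inv := fun h => Subtype.ext (hgr h.1 h.2)
      right_inv := fun n => Subtype.ext (by
        funext e
        have := congrFun n.2 (Sum.inl e)
        have h2 : n.1 e - (flF F n.1 (t e) - flF F n.1 (s e)) = 0 := this
        show flF F n.1 (t e) - flF F n.1 (s e) = n.1 e
        omega) }
  have tr : ∀ f : (E → ℤ) → ℝ, (∑' n : E → ℤ, if cons s t X F n = 0 then
      W (idE E) J n * f n else 0) = ZZ s t J X fun h => f (grd s t h) := by
    intro f
    have h1 : ∀ n : E → ℤ, (if cons s t X F n = 0 then W (idE E) J n * f n else 0) =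
        Set.indicator {n : E → ℤ | cons s t X F n = 0} (fun n => W (idE E) J n * f n) n := by
      intro n
      by_cases h2 : cons s t X F n = 0
      · rw [if_pos h2, Set.indicator_of_mem (by exact h2)]
      · rw [if_neg h2, Set.indicator_of_notMem (by exact h2)]
    have h3 : ∀ h : V → ℤ, (if ∀ v ∈ X, h v = 0 then W (grd s t) J h * f (grd s t h) else 0) =
        Set.indicator {h : V → ℤ | ∀ v ∈ X, h v = 0}
          (fun h => W (grd s t) J h * f (grd s t h)) h := by
      intro h
      by_cases h2 : ∀ v ∈ X, h v = 0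
      · rw [if_pos h2, Set.indicator_of_mem (by exact h2)]
      · rw [if_neg h2, Set.indicator_of_notMem (by exact h2)]
    unfold ZZ
    rw [tsum_congr h1, tsum_congr h3, ← tsum_subtype, ← tsum_subtype]
    exact (eqv.tsum_eq (fun n : {n : E → ℤ // cons s t X F n = 0} =>
      W (idE E) J n.1 * f n.1)).symm
  have t1 := tr fun n => Real.cosh (∑ e, a e * (n e : ℝ))
  have t2 := tr fun _ => 1
  simp only [mul_one] at t2
  have hln : ∀ n, ln (idE E) a n = ∑ e, a e * (n e : ℝ) := fun n => rfl
  simp only [hln] at hmain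
  rw [t1, t2] at hmain
  have q0 := free_one (E := E) hJ
  have q1 := free_cosh hJ a
  rw [q0, q1] at hmain
  have e4 : Real.exp (∑ e, J e * (Real.cosh (a e) - 1)) =
      Real.exp (∑ e, J e * Real.cosh (a e)) * Real.exp (-∑ e, J e) := by
    rw [← Real.exp_add]
    congr 1
    simp only [mul_sub, mul_one, Finset.sum_sub_distrib]
    ring
  rw [e4]
  have h5 : Real.exp (∑ e, J e) * Real.exp (-∑ e, J e) = 1 := by
    rw [← Real.exp_add, add_neg_cancel, Real.exp_zero]
  have h6 := mul_le_mul_of_nonneg_right hmain (Real.exp_pos (-∑ e, J e)).le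
  calc _ = ZZ s t J X (fun h => Real.cosh (∑ e, a e * (grd s t h e : ℝ))) *
        (Real.exp (∑ e, J e) * Real.exp (-∑ e, J e)) := by rw [h5, mul_one]
    _ = ZZ s t J X (fun h => Real.cosh (∑ e, a e * (grd s t h e : ℝ))) *
        Real.exp (∑ e, J e) * Real.exp (-∑ e, J e) := by ring
    _ ≤ _ := h6
    _ = _ := by ring

end graph

end Vale.Agent.P159.T1.H910
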