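import Vale.Agent.P159.T1.H910.Sym
import Vale.Agent.P159.T1.H910.Moment

/-!
Fourth moments and the passage from the quadrant box with free far sides to the box with
zero boundary values.
-/

open MeasureTheory Filter Topology

namespace Vale.Agent.P159.T1.H910

open Vale.Agent.P159 Vale.Agent.P159.H353 Vale.Agent.P159.R2.H254 Vale.Agent.P159.R2.H729
  Vale.Agent.P159.T1.H934 Vale.Agent.P159.T1.D
open Vale.Agent.P159.T1.H532 (bxQ mem_bxQ SQ mem_SQ JQ)

section four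

variable {J : Bnd → ℝ} {S : Finset Bnd} {U : Finset Z2}

/-- the pairing of a field with the gradient, bonds of `S` -/
noncomputable def prS (S : Finset Bnd) (B : Bnd → ℝ) (h : Z2 → ℤ) : ℝ :=
  ∑ e ∈ S, B e * ((dh h e : ℤ) : ℝ)

/-- exponential moments, bonds of `S` -/
theorem FF_cosh_le (hJ : ∀ e, 0 ≤ J e) (hS : ∀ f ∈ U, (f, true) ∈ S) (B : Bnd → ℝ) :
    (FF J S U fun h => Real.cosh (prS S B h)) ≤
      Real.exp (∑ e ∈ S, J e * (Real.cosh (B e) - 1)) * FF J S U fun _ => 1 := by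
  have h1 := ZZ_exp_le (conn_g hS) (J := fun e : {e : Bnd // e ∈ S} => J e.1)
    (fun e => hJ e.1) (pinF_nonempty (Finset.Subset.refl U)) (fun e => B e.1)
  rw [ZZ_one (Finset.Subset.refl U)] at h1
  have e1 : ∀ h : GV U → ℤ, ∑ e : {e : Bnd // e ∈ S}, B e.1 * (grd (gs S U) (gt S U) h e : ℝ) =
      prS S B (ext U h) := by
    intro h
    unfold prS
    rw [← Finset.sum_coe_sort S]
    rfl
  simp only [e1] at h1
  rw [ZZ_eq_FF J S (Finset.Subset.refl U) fun h => Real.cosh (prS S B h)] at h1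
  have e2 : ∑ e : {e : Bnd // e ∈ S}, J e.1 * (Real.cosh (B e.1) - 1) =
      ∑ e ∈ S, J e * (Real.cosh (B e) - 1) :=
    Finset.sum_coe_sort S fun e => J e * (Real.cosh (B e) - 1)
  rwa [e2] at h1

lemma four_cosh (y : ℝ) : y ^ 4 ≤ 48 * Real.cosh y := by
  have h1 : |y| ^ 4 / 24 ≤ Real.exp |y| := by
    have := Real.pow_div_factorial_le_exp |y| (abs_nonneg y) 4
    have e : ((4).factorial : ℝ) = 24 := by norm_num [Nat.factorial]
    rwa [e] at this
  have h2 : |y| ^ 4 = y ^ 4 := by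
    rw [← abs_pow, abs_of_nonneg (by positivity)]
  have h3 : Real.exp |y| ≤ 2 * Real.cosh y := by
    rw [← Real.cosh_abs, Real.cosh_eq]
    have := Real.exp_pos (-|y|)
    linarith
  rw [h2] at h1
  linarith

lemma cosh_sub_one_le {y : ℝ} (hy : |y| ≤ 1) : Real.cosh y - 1 ≤ y ^ 2 := by
  have h1 := Real.cosh_le_exp_half_sq y
  have h0 : y ^ 2 ≤ 1 := by
    rw [← sq_abs]
    exact pow_le_one₀ (abs_nonneg y) hy
  have h2 : |y ^ 2 / 2| ≤ 1 := by
    rw [abs_of_nonneg (by positivity)]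
    linarith
  have h3 := (abs_le.1 (Real.abs_exp_sub_one_le h2)).2
  rw [abs_of_nonneg (by positivity)] at h3
  linarith

lemma prS_eq (S : Finset Bnd) (B : Bnd → ℝ) (h : Ht U) :
    prS S B h.1 = ch U (dS S B) h.1 := sum_dh S B h.2

lemma summable_four (hJ : ∀ e, 0 ≤ J e) (hS : ∀ f ∈ U, (f, true) ∈ S) (B : Bnd → ℝ) :
    Summable fun h : Ht U => (∏ e ∈ S, wI (J e) (dh h.1 e)) * (prS S B h.1) ^ 4 := by
  refine FF_summable (C := 24) hJ hS (dS S B) (F := fun h => (prS S B h) ^ 4) fun h => ?_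
  show |(prS S B h.1) ^ 4| ≤ _
  rw [prS_eq S B h]
  have := Real.pow_div_factorial_le_exp |ch U (dS S B) h.1| (abs_nonneg _) 4
  have e : ((4).factorial : ℝ) = 24 := by norm_num [Nat.factorial]
  rw [e] at this
  rw [abs_pow]
  linarith

lemma summable_coshS (hJ : ∀ e, 0 ≤ J e) (hS : ∀ f ∈ U, (f, true) ∈ S) (B : Bnd → ℝ) (x : ℝ) :
    Summable fun h : Ht U =>
      (∏ e ∈ S, wI (J e) (dh h.1 e)) * Real.cosh (x * prS S B h.1) := by
  refine FF_summable (C := 1) hJ hS (fun f => x * dS S B f)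
    (F := fun h => Real.cosh (x * prS S B h)) fun h => ?_
  have e : ch U (fun f => x * dS S B f) h.1 = x * prS S B h.1 := by
    rw [prS_eq S B h]
    unfold ch
    rw [Finset.mul_sum]
    exact Finset.sum_congr rfl fun f _ => by ring
  show |Real.cosh (x * prS S B h.1)| ≤ _
  rw [e, abs_of_pos (Real.cosh_pos _), one_mul, ← Real.cosh_abs, Real.cosh_eq]
  have : Real.exp (-|x * prS S B h.1|) ≤ Real.exp |x * prS S B h.1| :=
    Real.exp_le_exp.2 (by linarith [abs_nonneg (x * prS S B h.1)])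
  linarith

lemma four_le_cosh (hJ : ∀ e, 0 ≤ J e) (hS : ∀ f ∈ U, (f, true) ∈ S) (B : Bnd → ℝ) (x : ℝ) :
    x ^ 4 * (FF J S U fun h => (prS S B h) ^ 4) ≤
      48 * FF J S U fun h => Real.cosh (x * prS S B h) := by
  have s4 := summable_four hJ hS B
  have sc := summable_coshS hJ hS B x
  have e1 : x ^ 4 * (FF J S U fun h => (prS S B h) ^ 4) =
      ∑' h : Ht U, x ^ 4 * ((∏ e ∈ S, wI (J e) (dh h.1 e)) * (prS S B h.1) ^ 4) :=
    tsum_mul_left.symm
  have e2 : 48 * (FF J S U fun h => Real.cosh (x * prS S B h)) =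
      ∑' h : Ht U, 48 * ((∏ e ∈ S, wI (J e) (dh h.1 e)) * Real.cosh (x * prS S B h.1)) :=
    tsum_mul_left.symm
  rw [e1, e2]
  refine (s4.mul_left (x ^ 4)).tsum_le_tsum (fun h => ?_) (sc.mul_left 48)
  have h5 := four_cosh (x * prS S B h.1)
  rw [mul_pow] at h5
  have h6 := mul_le_mul_of_nonneg_left h5
    (Finset.prod_nonneg fun e (_ : e ∈ S) => wI_nonneg (hJ e) (dh h.1 e))
  linarith

/-- **fourth moments** -/
theorem FF_four (hJ : ∀ e, 0 ≤ J e) (hS : ∀ f ∈ U, (f, true) ∈ S) {j A : ℝ} (hj : 0 < j)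
    (hj1 : j ≤ 1) (hjJ : ∀ e ∈ S, j ≤ J e) (hA : 0 < A) {B : Bnd → ℝ}
    (hB : ∑ e ∈ S, J e * B e ^ 2 ≤ A) :
    (FF J S U fun h => (prS S B h) ^ 4) / (FF J S U fun _ => 1) ≤ 144 * A ^ 2 / j ^ 2 := by
  have hZ := FF_pos (J := J) hJ hS (Finset.Subset.refl U)
  obtain ⟨x, hx2⟩ : ∃ x : ℝ, x ^ 2 = j / A := ⟨√(j / A), Real.sq_sqrt (by positivity)⟩
  -- the field is small
  have hsmall : ∀ e ∈ S, |x * B e| ≤ 1 := by
    intro e he
    rw [← abs_one, ← sq_le_sq, one_pow, mul_pow, hx2]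
    have h1 : J e * B e ^ 2 ≤ A := le_trans
      (Finset.single_le_sum (f := fun e => J e * B e ^ 2)
        (fun e _ => mul_nonneg (hJ e) (sq_nonneg _)) he) hB
    have h2 : j * B e ^ 2 ≤ A := le_trans
      (mul_le_mul_of_nonneg_right (hjJ e he) (sq_nonneg _)) h1
    rw [div_mul_eq_mul_div, div_le_one hA]
    exact h2
  have h1 := FF_cosh_le hJ hS (fun e => x * B e)
  have e1 : ∀ h : Z2 → ℤ, prS S (fun e => x * B e) h = x * prS S B h := by
    intro h
    unfold prS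
    rw [Finset.mul_sum]
    exact Finset.sum_congr rfl fun e _ => by ring
  have h2 : ∑ e ∈ S, J e * (Real.cosh (x * B e) - 1) ≤ 1 := by
    calc ∑ e ∈ S, J e * (Real.cosh (x * B e) - 1) ≤ ∑ e ∈ S, x ^ 2 * (J e * B e ^ 2) := by
          refine Finset.sum_le_sum fun e he => ?_
          have := mul_le_mul_of_nonneg_left (cosh_sub_one_le (hsmall e he)) (hJ e)
          rw [mul_pow] at this
          linarith
      _ = x ^ 2 * ∑ e ∈ S, J e * B e ^ 2 := by rw [Finset.mul_sum]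
      _ ≤ x ^ 2 * A := mul_le_mul_of_nonneg_left hB (sq_nonneg _)
      _ = j := by rw [hx2, div_mul_cancel₀ _ hA.ne']
      _ ≤ 1 := hj1
  have h3 : (FF J S U fun h => Real.cosh (x * prS S B h)) ≤ 3 * FF J S U fun _ => 1 := by
    simp only [e1] at h1
    refine h1.trans (mul_le_mul_of_nonneg_right ?_ hZ.le)
    exact (Real.exp_le_exp.2 h2).trans Real.exp_one_lt_three.le
  have h4 := four_le_cosh hJ hS B x
  have hx4 : x ^ 4 = (j / A) ^ 2 := by rw [← hx2]; ring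
  rw [hx4] at h4
  rw [div_le_div_iff₀ hZ (by positivity)]
  generalize (FF J S U fun h => (prS S B h) ^ 4) = Q at h4 ⊢
  generalize (FF J S U fun h => Real.cosh (x * prS S B h)) = R at h3 h4
  generalize (FF J S U fun _ => 1) = T at h3 hZ ⊢
  have h7 : (j / A) ^ 2 * Q ≤ 144 * T := by linarith
  have h8 := mul_le_mul_of_nonneg_right h7 (sq_nonneg A)
  have e9 : (j / A) ^ 2 * Q * A ^ 2 = Q * j ^ 2 := by
    field_simp
  rw [e9] at h8
  linarith

end four

/-! ### the box -/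

/-- the inequality for the far sides -/
def FarBox (b c : ℝ) : Prop :=
  ∃ C κ : ℝ, 0 < C ∧ 0 < κ ∧ ∀ (a L : ℕ) (ρ : Z2 → ℝ), 2 ≤ a → 2 * a ≤ L →
    (∀ f, f ∉ bxQ a → ρ f = 0) →
    (FF (JQ b c) (SQ L) (bxQ L) fun h => ch (bxQ L) ρ h ^ 2) /
        (FF (JQ b c) (SQ L) (bxQ L) fun _ => 1) ≤
      (FF (JQ b c) (SQ L) (bxQ (L - 1)) fun h => ch (bxQ L) ρ h ^ 2) /
          (FF (JQ b c) (SQ L) (bxQ (L - 1)) fun _ => 1) +
        √((FF (JQ b c) (SQ L) (bxQ L) fun h => ch (bxQ L) ρ h ^ 4) /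
          (FF (JQ b c) (SQ L) (bxQ L) fun _ => 1) * (C * ((a : ℝ) / L) ^ κ))

lemma JQ_nonneg {b c : ℝ} (hb : 0 ≤ b) (hc : 0 ≤ c) (e : Bnd) : 0 ≤ JQ b c e := by
  unfold JQ
  split_ifs <;> assumption

lemma JQ_le {b c : ℝ} (hcb : c ≤ b) (e : Bnd) : JQ b c e ≤ b := by
  unfold JQ
  split_ifs <;> first | exact hcb | exact le_rfl

lemma le_JQ {b c : ℝ} (hcb : c ≤ b) (e : Bnd) : c ≤ JQ b c e := by
  unfold JQ
  split_ifs <;> first | exact hcb | exact le_rfl

lemma SQ_side {L : ℕ} : ∀ f ∈ bxQ L, (f, true) ∈ SQ L := fun f hf => by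
  rw [mem_SQ]
  exact hf

lemma bxQ_mono {L L' : ℕ} (h : L ≤ L') : bxQ L ⊆ bxQ L' := by
  intro f hf
  rw [mem_bxQ] at hf ⊢
  have : (L : ℤ) ≤ L' := by exact_mod_cast h
  exact ⟨hf.1, hf.2.1.trans_le this, hf.2.2.1, hf.2.2.2.trans_le this⟩

lemma bd_SQ {L : ℕ} : bd (bxQ (L - 1)) ⊆ SQ L := by
  rintro ⟨⟨i, j⟩, d⟩ he
  rw [mem_bd, mem_bxQ, mem_bxQ] at he
  rw [mem_SQ, mem_bxQ]
  cases d
  · simp only [D.rt, D.lf, Bool.false_eq_true, if_false] at he ⊢
    omega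
  · simp only [D.rt, D.lf, if_true] at he ⊢
    omega

lemma prS_bd {S : Finset Bnd} {U : Finset Z2} (hS : bd U ⊆ S) (B : Bnd → ℝ) (h : Ht U) :
    prS S B h.1 = pr U B 0 h.1 := by
  unfold prS pr
  symm
  refine (Finset.sum_congr rfl fun e _ => ?_).trans
    (Finset.sum_subset hS fun e _ he => ?_)
  · simp
  · rw [dh_off h.2 he]
    simp

/-- the charges of a gradient field are supported near the field -/
lemma dS_dr_off {L a : ℕ} {g : Z2 → ℝ} (hg : ∀ f, f ∉ bxQ a → g f = 0) {f : Z2}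
    (hf : f ∉ bxQ (a + 1)) (h0 : f ∈ bxQ L) : dS (SQ L) (dr g) f = 0 := by
  unfold dS
  refine Finset.sum_eq_zero fun e _ => ?_
  obtain ⟨i, j⟩ := f
  rw [mem_bxQ] at hf h0
  simp only at hf h0
  push_cast at hf
  have far : ∀ k l : ℤ, (i - 1 ≤ k ∧ j - 1 ≤ l) → g (k, l) = 0 := by
    intro k l h1
    apply hg
    rw [mem_bxQ]
    simp only
    omega
  obtain ⟨⟨k, l⟩, d⟩ := e
  by_cases h1 : D.lf ((k, l), d) = (i, j)
  · have h2 : dr g ((k, l), d) = 0 := by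
      unfold dr
      rw [h1, far i j ⟨by omega, by omega⟩]
      cases d
      · simp only [D.lf, D.rt, Bool.false_eq_true, if_false, Prod.mk.injEq] at h1 ⊢
        rw [far _ _ ⟨by omega, by omega⟩, sub_zero]
      · simp only [D.lf, D.rt, if_true, Prod.mk.injEq] at h1 ⊢
        rw [far _ _ ⟨by omega, by omega⟩, sub_zero]
    rw [h2, zero_mul]
  · by_cases h2 : D.rt ((k, l), d) = (i, j)
    · have h3 : dr g ((k, l), d) = 0 := by
        unfold dr
        rw [h2, far i j ⟨by omega, by omega⟩]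
        cases d
        · simp only [D.lf, D.rt, Bool.false_eq_true, if_false, Prod.mk.injEq] at h2 ⊢
          rw [far _ _ ⟨by omega, by omega⟩, sub_zero]
        · simp only [D.lf, D.rt, if_true, Prod.mk.injEq] at h2 ⊢
          rw [far _ _ ⟨by omega, by omega⟩, sub_zero]
      rw [h3, zero_mul]
    · rw [if_neg h1, if_neg h2, sub_zero, mul_zero]

/-- **(V3)**: zero boundary values on the far sides -/
theorem box_le {b c : ℝ} (hc : 0 < c) (hcb : c ≤ b) (hF : FarBox b c) :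
    ∃ C κ : ℝ, 0 < C ∧ 0 < κ ∧ ∀ (a L : ℕ) (g : Z2 → ℝ), 1 ≤ a → 2 * (a + 1) ≤ L →
      (∀ f, f ∉ bxQ a → g f = 0) →
      (FF (JQ b c) (SQ L) (bxQ L) fun h => (prS (SQ L) (dr g) h) ^ 2) /
          (FF (JQ b c) (SQ L) (bxQ L) fun _ => 1) ≤
        Vr b (bxQ L) (dr g) + C * (∑ e ∈ SQ L, dr g e ^ 2) * ((a : ℝ) / L) ^ κ := by
  obtain ⟨C, κ, hC, hκ, hmain⟩ := hF
  have hb : 0 < b := hc.trans_le hcb
  set j : ℝ := min c 1 with hj
  have hj0 : 0 < j := lt_min hc one_pos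
  refine ⟨12 * b / j * √(C * 2 ^ κ), κ / 2, by positivity, by positivity, ?_⟩
  intro a L g ha haL hg
  have hL : (0 : ℝ) < L := by
    have : 0 < L := by omega
    exact_mod_cast this
  have ha0 : (0 : ℝ) < a := by exact_mod_cast ha
  set S := SQ L with hS
  set A : ℝ := ∑ e ∈ S, dr g e ^ 2 with hA
  have hA0 : 0 ≤ A := Finset.sum_nonneg fun e _ => sq_nonneg _
  have hJ : ∀ e, 0 ≤ JQ b c e := JQ_nonneg hb.le hc.le
  rcases hA0.eq_or_lt with h0 | hApos
  · -- no field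
    have h1 : ∀ e ∈ S, dr g e = 0 := by
      intro e he
      have := (Finset.sum_eq_zero_iff_of_nonneg fun e _ => sq_nonneg (dr g e)).1
        (hA ▸ h0.symm) e he
      exact pow_eq_zero_iff (two_ne_zero) |>.1 this
    have h2 : ∀ h : Z2 → ℤ, prS S (dr g) h = 0 := fun h =>
      Finset.sum_eq_zero fun e he => by rw [h1 e he, zero_mul]
    have h3 : (FF (JQ b c) S (bxQ L) fun h => (prS S (dr g) h) ^ 2) = 0 := by
      unfold FF
      simp [h2]
    rw [h3, zero_div, ← h0]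
    simpa using Vr_nonneg hb.le (bxQ L) (dr g)
  -- charges
  classical
  set ρ : Z2 → ℝ := fun f => if f ∈ bxQ (a + 1) then dS S (dr g) f else 0 with hρ
  have hch : ∀ U' : Finset Z2, U' ⊆ bxQ L → ∀ h : Ht U', ch (bxQ L) ρ h.1 =
      prS S (dr g) h.1 := by
    intro U' hU' h
    have h1 : ∀ f, f ∉ bxQ L → h.1 f = 0 := fun f hf => h.2 f fun hf' => hf (hU' hf')
    rw [show prS S (dr g) h.1 = ch (bxQ L) (dS S (dr g)) h.1 from sum_dh S (dr g) h1]
    refine ch_congr (fun f hf => ?_) _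
    simp only [hρ]
    split_ifs with hf'
    · rfl
    · exact (dS_dr_off hg hf' hf).symm
  have h1 := hmain (a + 1) L ρ (by omega) haL fun f hf => by simp only [hρ]; rw [if_neg hf]
  have t0 : bxQ (L - 1) ⊆ bxQ L := bxQ_mono (Nat.sub_le _ _)
  rw [FF_congr (F := fun h => ch (bxQ L) ρ h ^ 2) (G := fun h => (prS S (dr g) h) ^ 2)
      fun h : Ht (bxQ L) => by rw [hch _ (Finset.Subset.refl _) h],
    FF_congr (F := fun h => ch (bxQ L) ρ h ^ 4) (G := fun h => (prS S (dr g) h) ^ 4)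
      fun h : Ht (bxQ L) => by rw [hch _ (Finset.Subset.refl _) h],
    FF_congr (F := fun h => ch (bxQ L) ρ h ^ 2) (G := fun h => (ch (bxQ (L - 1)) (dv (dr g)) h) ^ 2)
      fun h : Ht (bxQ (L - 1)) => by
        rw [hch _ t0 h, prS_bd bd_SQ, pr_eq_ch _ h.2]] at h1
  -- the box with zero boundary values
  have h2 : (FF (JQ b c) S (bxQ (L - 1)) fun h => (ch (bxQ (L - 1)) (dv (dr g)) h) ^ 2) /
      (FF (JQ b c) S (bxQ (L - 1)) fun _ => 1) ≤ Vr b (bxQ L) (dr g) := by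
    rw [FF_ratio hJ bd_SQ]
    refine le_trans ?_ (Vr_mono hb.le t0 (dr g))
    rw [Vr_eq]
    exact FF_mono_sq hJ (JQ_le hcb) bd_side (Finset.Subset.refl _) _
  -- fourth moment
  have h3 : (FF (JQ b c) S (bxQ L) fun h => (prS S (dr g) h) ^ 4) /
      (FF (JQ b c) S (bxQ L) fun _ => 1) ≤ 144 * (b * A) ^ 2 / j ^ 2 := by
    refine FF_four hJ SQ_side hj0 (min_le_right _ _)
      (fun e _ => (min_le_left _ _).trans (le_JQ hcb e)) (mul_pos hb hApos) ?_
    rw [hA, Finset.mul_sum]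
    exact Finset.sum_le_sum fun e _ => mul_le_mul_of_nonneg_right (JQ_le hcb e) (sq_nonneg _)
  have h4 : (((a + 1 : ℕ) : ℝ) / L) ^ κ ≤ 2 ^ κ * ((a : ℝ) / L) ^ κ := by
    rw [← Real.mul_rpow zero_le_two (by positivity)]
    refine Real.rpow_le_rpow (by positivity) ?_ hκ.le
    rw [← mul_div_assoc]
    refine div_le_div_of_nonneg_right ?_ hL.le
    push_cast
    have : (1 : ℝ) ≤ a := by exact_mod_cast ha
    linarith
  have h5 : √((FF (JQ b c) S (bxQ L) fun h => (prS S (dr g) h) ^ 4) /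
      (FF (JQ b c) S (bxQ L) fun _ => 1) * (C * (((a + 1 : ℕ) : ℝ) / L) ^ κ)) ≤
      12 * b / j * √(C * 2 ^ κ) * A * ((a : ℝ) / L) ^ (κ / 2) := by
    have h6 : (FF (JQ b c) S (bxQ L) fun h => (prS S (dr g) h) ^ 4) /
        (FF (JQ b c) S (bxQ L) fun _ => 1) * (C * (((a + 1 : ℕ) : ℝ) / L) ^ κ) ≤
        (12 * b * A / j) ^ 2 * (C * 2 ^ κ) * ((a : ℝ) / L) ^ κ := by
      have e : 144 * (b * A) ^ 2 / j ^ 2 = (12 * b * A / j) ^ 2 := by ring
      rw [e] at h3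
      calc _ ≤ (12 * b * A / j) ^ 2 * (C * (2 ^ κ * ((a : ℝ) / L) ^ κ)) := by
            refine mul_le_mul h3 (mul_le_mul_of_nonneg_left h4 hC.le) (by positivity)
              (sq_nonneg _)
        _ = _ := by ring
    refine (Real.sqrt_le_sqrt h6).trans (le_of_eq ?_)
    rw [Real.sqrt_mul (by positivity), Real.sqrt_mul (by positivity),
      Real.sqrt_sq (by positivity), Real.sqrt_eq_rpow (((a : ℝ) / L) ^ κ),
      ← Real.rpow_mul (by positivity)]
    rw [show κ * (1 / 2) = κ / 2 by ring]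
    ring
  linarith

end Vale.Agent.P159.T1.H910
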