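import Vale.Agent.P159.T1.H910.Fatou

/-!
The variance after pinning `range l` (P159, plan 115, the far sides): if the clusters of
`{h ≠ 0}` of `range l` stay in `N` and `ρ` vanishes on `N`, then

  `E_X[(ρ.h)²] ≤ E_{X ∪ range l}[(ρ.h)²] + (E_X[(ρ.h)⁴] P_X(Eᶜ))^(1/2)`.
-/

open MeasureTheory Filter Topology

namespace Vale.Agent.P159.T1.H910

open Vale.Agent.P159 Vale.Agent.P159.H353 Vale.Agent.P159.R2.H254 Vale.Agent.P159.R2.H729
  Vale.Agent.P159.T1.H934

section far

variable {V E A : Type} [Fintype V] [Fintype E] {s t : E → V} {l : A → V}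

lemma four_le' (ρ : V → ℝ) (h : V → ℤ) : |(li ρ h) ^ 4| ≤ 24 * Real.exp |li ρ h| := by
  have h1 : |li ρ h| ^ 4 / (Nat.factorial 4 : ℝ) ≤ Real.exp |li ρ h| :=
    Real.pow_div_factorial_le_exp _ (abs_nonneg _) 4
  have h2 : ((Nat.factorial 4 : ℕ) : ℝ) = 24 := by norm_num [Nat.factorial]
  rw [h2, div_le_iff₀ (by norm_num)] at h1
  rw [abs_pow]
  linarith

/-- Cauchy-Schwarz on the complement of the event -/
lemma ZE_compl_sq (hc : Conn s t) {J : E → ℝ} (hJ : ∀ e, 0 ≤ J e) {X : Set V} (hX : X.Nonempty)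
    (N : Set V) (ρ : V → ℝ) :
    (ZZ s t J X (fun h => (li ρ h) ^ 2) - ZE s t l J X N (fun h => (li ρ h) ^ 2)) ^ 2 ≤
      ZZ s t J X (fun h => (li ρ h) ^ 4) *
        (ZZ s t J X (fun _ => 1) - ZE s t l J X N (fun _ => 1)) := by
  classical
  -- the complementary sums
  set w : (V → ℤ) → ℝ := fun h => if (∀ v ∈ X, h v = 0) ∧ ¬ ∀ v ∈ Ex s t l h, v ∈ N then
    W (grd s t) J h else 0 with hw
  have w0 : ∀ h, 0 ≤ w h := fun h => by
    simp only [hw]
    split_ifs
    · exact W_nonneg hJ h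
    · exact le_rfl
  have sE : ∀ {f : (V → ℤ) → ℝ} {C : ℝ}, (∀ h, |f h| ≤ C * Real.exp |li ρ h|) →
      Summable fun h : V → ℤ => if (∀ v ∈ X, h v = 0) ∧ ∀ v ∈ Ex s t l h, v ∈ N then
        W (grd s t) J h * f h else 0 := by
    intro f C hf
    refine Summable.of_norm_bounded (summable_ZZ hc hJ hX ρ hf) fun h => ?_
    rw [Real.norm_eq_abs]
    by_cases h2 : ∀ v ∈ X, h v = 0
    · rw [if_pos h2]
      split_ifs
      · exact le_rfl
      · rw [abs_zero]; exact abs_nonneg _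
    · rw [if_neg h2, if_neg (fun h3 => h2 h3.1)]
  have diff : ∀ {f : (V → ℤ) → ℝ} {C : ℝ}, (∀ h, |f h| ≤ C * Real.exp |li ρ h|) →
      HasSum (fun h => w h * f h) (ZZ s t J X f - ZE s t l J X N f) := by
    intro f C hf
    have h1 := (summable_ZZ hc hJ hX ρ hf).of_abs.hasSum.sub (sE hf).hasSum
    have e : (fun h => w h * f h) = fun h : V → ℤ =>
        (if ∀ v ∈ X, h v = 0 then W (grd s t) J h * f h else 0) -
          if (∀ v ∈ X, h v = 0) ∧ ∀ v ∈ Ex s t l h, v ∈ N then W (grd s t) J h * f h else 0 := by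
      funext h
      simp only [hw]
      by_cases h2 : ∀ v ∈ X, h v = 0
      · by_cases h3 : ∀ v ∈ Ex s t l h, v ∈ N
        · rw [if_neg (fun h4 => h4.2 h3), if_pos h2, if_pos ⟨h2, h3⟩]
          ring
        · rw [if_pos ⟨h2, h3⟩, if_pos h2, if_neg (fun h4 => h3 h4.2)]
          ring
      · rw [if_neg (fun h4 => h2 h4.1), if_neg h2, if_neg (fun h4 => h2 h4.1)]
        ring
    rw [e]
    exact h1
  set a := ZZ s t J X (fun h => (li ρ h) ^ 4) - ZE s t l J X N (fun h => (li ρ h) ^ 4) with ha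
  set b := ZZ s t J X (fun h => (li ρ h) ^ 2) - ZE s t l J X N (fun h => (li ρ h) ^ 2) with hb
  set c := ZZ s t J X (fun _ => 1) - ZE s t l J X N (fun _ => 1) with hcc
  have d4 := diff (four_le' ρ)
  have d2 := diff (sq_le' ρ)
  have d0 := diff (one_le' ρ)
  have a0 : 0 ≤ a := d4.nonneg fun h => mul_nonneg (w0 h) (by positivity)
  have b0 : 0 ≤ b := d2.nonneg fun h => mul_nonneg (w0 h) (by positivity)
  have c0 : 0 ≤ c := d0.nonneg fun h => mul_nonneg (w0 h) zero_le_one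
  have q : ∀ x : ℝ, 0 ≤ a - 2 * x * b + x ^ 2 * c := by
    intro x
    have h1 := (d4.sub (d2.mul_left (2 * x))).add (d0.mul_left (x ^ 2))
    refine h1.nonneg fun h => ?_
    have : 0 ≤ w h * ((li ρ h) ^ 2 - x) ^ 2 := mul_nonneg (w0 h) (sq_nonneg _)
    nlinarith [this]
  have hac : b ^ 2 ≤ a * c := by
    rcases c0.eq_or_lt with h | h
    · rcases b0.eq_or_lt with h' | h'
      · rw [← h, ← h']; simp
      · exfalso
        have := q ((a + 1) / (2 * b))
        rw [← h] at this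
        have e : 2 * ((a + 1) / (2 * b)) * b = a + 1 := by field_simp
        rw [e] at this
        linarith
    · have := q (b / c)
      have e1 : 2 * (b / c) * b = 2 * (b ^ 2 / c) := by ring
      have e2 : (b / c) ^ 2 * c = b ^ 2 / c := by field_simp
      rw [e1, e2] at this
      have h2 : b ^ 2 / c ≤ a := by linarith
      rwa [div_le_iff₀ h] at h2
  have h4 : a ≤ ZZ s t J X (fun h => (li ρ h) ^ 4) := by
    have : 0 ≤ ZE s t l J X N (fun h => (li ρ h) ^ 4) := tsum_nonneg fun h => by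
      split_ifs
      · exact mul_nonneg (W_nonneg hJ _) (by positivity)
      · exact le_rfl
    linarith
  exact hac.trans (mul_le_mul_of_nonneg_right h4 c0)

/-- **Far sides.** -/
theorem far_var (hc : Conn s t) {J : E → ℝ} (hJ : ∀ e, 0 ≤ J e) {X N : Set V}
    (hX : X.Nonempty) {ρ : V → ℝ} (hρ : ∀ v ∈ N, ρ v = 0) :
    ZZ s t J X (fun h => (li ρ h) ^ 2) / ZZ s t J X (fun _ => 1) ≤
      ZZ s t J (X ∪ Set.range l) (fun h => (li ρ h) ^ 2) /
        ZZ s t J (X ∪ Set.range l) (fun _ => 1) +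
      √(ZZ s t J X (fun h => (li ρ h) ^ 4) / ZZ s t J X (fun _ => 1) *
        (1 - ZE s t l J X N (fun _ => 1) / ZZ s t J X (fun _ => 1))) := by
  have hX' : (X ∪ Set.range l).Nonempty := hX.mono Set.subset_union_left
  have p0 := ZZ_pos (s := s) (t := t) hc hJ hX
  have p1 := ZZ_pos (s := s) (t := t) hc hJ hX'
  have h1 := sq_cut (l := l) hc hJ hX hρ
  have h2 := ZE_compl_sq (l := l) hc hJ hX N ρ
  have h3 : ZE s t l J X N (fun _ => 1) ≤ ZZ s t J X (fun _ => 1) :=
    ZE_le hc hJ hX N 0 (fun _ => zero_le_one) (one_le' 0)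
  set z := ZZ s t J X (fun _ => 1)
  set z' := ZZ s t J (X ∪ Set.range l) (fun _ => 1)
  set e := ZE s t l J X N (fun _ => 1)
  set q := ZZ s t J X (fun h => (li ρ h) ^ 2)
  set q' := ZZ s t J (X ∪ Set.range l) (fun h => (li ρ h) ^ 2)
  set qe := ZE s t l J X N (fun h => (li ρ h) ^ 2)
  set f := ZZ s t J X (fun h => (li ρ h) ^ 4)
  have hq' : 0 ≤ q' := ZZ_nonneg hJ _ fun h => sq_nonneg _
  have h4 : (q - qe) / z ≤ √(f / z * (1 - e / z)) := by
    refine Real.le_sqrt_of_sq_le ?_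
    have : f / z * (1 - e / z) = f * (z - e) / z ^ 2 := by
      field_simp
    rw [this, div_pow]
    exact div_le_div_of_nonneg_right h2 (by positivity)
  have h5 : qe / z ≤ q' / z' := by
    rw [div_le_div_iff₀ p0 p1]
    exact h1.trans (mul_le_mul_of_nonneg_left h3 hq')
  have h6 : q / z = qe / z + (q - qe) / z := by ring
  rw [h6]
  exact add_le_add h5 h4

end far

end Vale.Agent.P159.T1.H910
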