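import Vale.Agent.P159.T1.H910.FarVar
import Vale.Agent.P159.T1.H897.LogC

/-!
Lower bounds for exponential moments (P159, plan 115 (3)):

* `exp (Var / 2) ≤ E exp`;
* for charges `ρ j ≥ 0` and pinned sets `Y j ⊇ X`:
  `∏ j, E_{Y j}[exp(ρ j.h)] ≤ E_X[exp((∑ j, ρ j).h)]`.
-/

open MeasureTheory Filter Topology

namespace Vale.Agent.P159.T1.H910

open Vale.Agent.P159 Vale.Agent.P159.H353 Vale.Agent.P159.R2.H254 Vale.Agent.P159.R2.H729
  Vale.Agent.P159.T1.H934 Vale.Agent.P159.T1.H897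

/-- `1 + x²/2 ≤ cosh x` -/
lemma cosh_low (x : ℝ) : 1 + x ^ 2 / 2 ≤ Real.cosh x := by
  have h1 : Real.cosh x = 1 + 2 * Real.sinh (x / 2) ^ 2 := by
    have h2 := Real.cosh_two_mul (x / 2)
    have h3 := Real.cosh_sq (x / 2)
    rw [show 2 * (x / 2) = x by ring] at h2
    rw [h2, h3]
    ring
  have h2 : (x / 2) ^ 2 ≤ Real.sinh (x / 2) ^ 2 := by
    rw [sq_le_sq]
    rcases le_total 0 (x / 2) with h | h
    · rw [abs_of_nonneg h, abs_of_nonneg (Real.sinh_nonneg_iff.2 h)]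
      exact Real.self_le_sinh_iff.2 h
    · rw [abs_of_nonpos h, abs_of_nonpos (Real.sinh_nonpos_iff.2 h), ← Real.sinh_neg]
      exact Real.self_le_sinh_iff.2 (by linarith)
  rw [h1]
  nlinarith

section dpin

variable {V E : Type} [Fintype V] [Fintype E] {s t : E → V}

lemma li_two (ρ : V → ℝ) (h : V → ℤ) : li (fun v => 2 * ρ v) h = 2 * li ρ h := li_smul 2 ρ h

/-- the four replica inequality for pinned heights -/
theorem four_ZZ (hc : Conn s t) {J : E → ℝ} (hJ : ∀ e, 0 ≤ J e) {X : Set V} (hX : X.Nonempty)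
    (ρ : V → ℝ) : (ZZ s t J X fun h => Real.exp (li ρ h)) ^ 4 ≤
      (ZZ s t J X fun _ => 1) ^ 3 * ZZ s t J X fun h => Real.exp (2 * li ρ h) := by
  obtain ⟨A, _, l, J', K', c, hA, hJ', hK', c0, e, lim⟩ := pin_seq hc hJ hX (subset_refl X)
  have hinj := grdL_inj (l := l) hc hA
  obtain ⟨y0⟩ := hA
  obtain ⟨a, ha⟩ := exists_lnA hc l y0 ρ
  have h1 := four_exp hinj hJ' a
  simp only [← ha] at h1
  rw [e, e] at h1
  have h2 : ∑' h, W (grdL s t l) J' h = ZZ s t J X (fun _ => 1) := by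
    rw [← e]
    exact tsum_congr fun h => (mul_one _).symm
  rw [h2] at h1
  exact h1

/-- iteration of the four replica inequality -/
lemma four_iter (hc : Conn s t) {J : E → ℝ} (hJ : ∀ e, 0 ≤ J e) {X : Set V} (hX : X.Nonempty)
    (n : ℕ) (ρ : V → ℝ) :
    (ZZ s t J X (fun h => Real.exp (li ρ h)) / ZZ s t J X fun _ => 1) ^ (4 ^ n) ≤
      ZZ s t J X (fun h => Real.exp (2 ^ n * li ρ h)) / ZZ s t J X fun _ => 1 := by
  have hZ := ZZ_pos (s := s) (t := t) hc hJ hX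
  induction n generalizing ρ with
  | zero => simp
  | succ n ih =>
    have h1 := four_ZZ hc hJ hX ρ
    have h2 : (ZZ s t J X (fun h => Real.exp (li ρ h)) / ZZ s t J X fun _ => 1) ^ 4 ≤
        ZZ s t J X (fun h => Real.exp (2 * li ρ h)) / ZZ s t J X fun _ => 1 := by
      rw [div_pow, div_le_div_iff₀ (by positivity) hZ]
      calc _ ≤ ((ZZ s t J X fun _ => 1) ^ 3 * ZZ s t J X fun h => Real.exp (2 * li ρ h)) *
            ZZ s t J X (fun _ => 1) := mul_le_mul_of_nonneg_right h1 hZ.le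
        _ = _ := by ring
    have h3 := ih (fun v => 2 * ρ v)
    simp only [li_two] at h3
    have h4 : 0 ≤ (ZZ s t J X (fun h => Real.exp (li ρ h)) / ZZ s t J X fun _ => 1) ^ 4 := by
      positivity
    rw [pow_succ, mul_comm (4 ^ n) 4, pow_mul]
    refine (pow_le_pow_left₀ h4 h2 _).trans (h3.trans (le_of_eq ?_))
    congr 2
    funext h
    congr 1
    ring

/-- **`exp (Var / 2) ≤ E exp`.** -/
theorem exp_var_le (hc : Conn s t) {J : E → ℝ} (hJ : ∀ e, 0 ≤ J e) {X : Set V}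
    (hX : X.Nonempty) (ρ : V → ℝ) :
    Real.exp ((ZZ s t J X (fun h => (li ρ h) ^ 2) / ZZ s t J X fun _ => 1) / 2) ≤
      ZZ s t J X (fun h => Real.exp (li ρ h)) / ZZ s t J X fun _ => 1 := by
  have hZ := ZZ_pos (s := s) (t := t) hc hJ hX
  set v := ZZ s t J X (fun h => (li ρ h) ^ 2) / ZZ s t J X fun _ => 1 with hv
  have hv0 : 0 ≤ v := div_nonneg (ZZ_nonneg hJ _ fun h => sq_nonneg _) hZ.le
  -- second order lower bound
  have low : ∀ n : ℕ, (1 + v / 2 / (4 : ℝ) ^ n) ^ (4 ^ n) ≤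
      ZZ s t J X (fun h => Real.exp (li ρ h)) / ZZ s t J X fun _ => 1 := by
    intro n
    set c : ℝ := ((2 : ℝ) ^ n)⁻¹ with hc'
    have h1 := four_iter hc hJ hX n (fun u => c * ρ u)
    simp only [li_smul] at h1
    have e1 : ∀ h : V → ℤ, (2 : ℝ) ^ n * (c * li ρ h) = li ρ h := fun h => by
      rw [hc', ← mul_assoc, mul_inv_cancel₀ (by positivity), one_mul]
    simp only [e1] at h1
    refine le_trans ?_ h1
    refine pow_le_pow_left₀ (by positivity) ?_ _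
    have h2 := ZZ_exp hc hJ hX (fun u => c * ρ u)
    simp only [li_smul] at h2
    rw [h2]
    have h3 : ZZ s t J X (fun _ => 1) + c ^ 2 / 2 * ZZ s t J X (fun h => (li ρ h) ^ 2) ≤
        ZZ s t J X fun h => Real.cosh (c * li ρ h) := by
      classical
      have s1 := (summable_ZZ hc hJ hX ρ (f := fun _ => 1) (one_le' ρ)).of_abs
      have s2 := ((summable_ZZ hc hJ hX ρ (sq_le' ρ)).of_abs).mul_left (c ^ 2 / 2)
      have s3 := (summable_ZZ hc hJ hX (fun u => c * ρ u) (cosh_le (fun u => c * ρ u))).of_abs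
      simp only [li_smul] at s3
      unfold ZZ
      rw [← tsum_mul_left, ← s1.tsum_add s2]
      refine (s1.add s2).tsum_le_tsum (fun h => ?_) s3
      split_ifs
      · have := cosh_low (c * li ρ h)
        have h5 := mul_le_mul_of_nonneg_left this (W_nonneg (D := grd s t) hJ h)
        simp only at h5 ⊢
        linarith [h5]
      · simp
    have h4 : (1 : ℝ) + v / 2 / 4 ^ n = (ZZ s t J X (fun _ => 1) +
        c ^ 2 / 2 * ZZ s t J X (fun h => (li ρ h) ^ 2)) / ZZ s t J X fun _ => 1 := by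
      have : c ^ 2 = 1 / (4 : ℝ) ^ n := by
        rw [hc', inv_pow, ← pow_mul, mul_comm n 2, pow_mul]
        norm_num
      rw [this, hv]
      field_simp
    rw [h4]
    exact div_le_div_of_nonneg_right h3 hZ.le
  have lim : Tendsto (fun n : ℕ => (1 + v / 2 / (4 : ℝ) ^ n) ^ (4 ^ n)) atTop
      (𝓝 (Real.exp (v / 2))) := by
    have h1 := Real.tendsto_one_add_div_pow_exp (v / 2)
    have h2 : Tendsto (fun n : ℕ => (4 : ℕ) ^ n) atTop atTop :=
      tendsto_pow_atTop_atTop_of_one_lt (by norm_num)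
    have h3 := h1.comp h2
    refine h3.congr fun n => ?_
    simp only [Function.comp]
    push_cast
    rfl
  exact le_of_tendsto' lim low

/-- the sums of `H897` -/
lemma ZZ_eq_pin (J : E → ℝ) (X : Set V) (f : (V → ℤ) → ℝ) :
    ZZ s t J X f = ∑' h : pin X (0 : V → ℤ), Wk s t (fun e => wI (J e)) h * f h := by
  classical
  rw [tsum_on (pin X (0 : V → ℤ)) fun h => Wk s t (fun e => wI (J e)) h * f h]
  unfold ZZ
  refine tsum_congr fun h => ?_
  by_cases h1 : ∀ v ∈ X, h v = 0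
  · have h2 : h ∈ pin X (0 : V → ℤ) := h1
    rw [if_pos h1, Set.indicator_of_mem h2, one_mul]
    rfl
  · have h2 : h ∉ pin X (0 : V → ℤ) := h1
    rw [if_neg h1, Set.indicator_of_notMem h2, zero_mul]

lemma summable_pin (hc : Conn s t) {J : E → ℝ} (hJ : ∀ e, 0 ≤ J e) {X : Set V}
    (hX : X.Nonempty) (ρ : V → ℝ) {f : (V → ℤ) → ℝ} {C : ℝ}
    (hf : ∀ h, |f h| ≤ C * Real.exp |li ρ h|) :
    Summable fun h : pin X (0 : V → ℤ) => Wk s t (fun e => wI (J e)) h * f h := by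
  classical
  have h1 := (summable_ZZ hc hJ hX ρ hf).of_abs.subtype (pin X (0 : V → ℤ))
  refine h1.congr fun h => ?_
  simp only [Function.comp]
  rw [if_pos (show ∀ v ∈ X, h.1 v = 0 from h.2)]
  rfl

/-- **FKG for two nonnegative charges.** -/
theorem fkg_exp (hc : Conn s t) {J : E → ℝ} (hJ : ∀ e, 0 ≤ J e) {X : Set V}
    (hX : X.Nonempty) {ρ₁ ρ₂ : V → ℝ} (h1 : ∀ v, 0 ≤ ρ₁ v) (h2 : ∀ v, 0 ≤ ρ₂ v) :
    ZZ s t J X (fun h => Real.exp (li ρ₁ h)) * ZZ s t J X (fun h => Real.exp (li ρ₂ h)) ≤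
      ZZ s t J X (fun _ => 1) * ZZ s t J X fun h => Real.exp (li (fun v => ρ₁ v + ρ₂ v) h) := by
  have w0 : ∀ e n, 0 ≤ (fun e => wI (J e)) e n := fun e n => wI_nonneg (hJ e) n
  have e1 : ∀ h : V → ℤ, Real.exp (li (fun v => ρ₁ v + ρ₂ v) h) =
      Real.exp (li ρ₁ h) * Real.exp (li ρ₂ h) := by
    intro h
    rw [← Real.exp_add]
    congr 1
    unfold li
    rw [← Finset.sum_add_distrib]
    exact Finset.sum_congr rfl fun v _ => by ring
  rw [ZZ_eq_pin, ZZ_eq_pin, ZZ_eq_pin, ZZ_eq_pin]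
  simp only [e1, mul_one]
  refine fkg_on (A := pin X (0 : V → ℤ)) (μ := Wk s t fun e => wI (J e))
    (f := fun h => Real.exp (li ρ₁ h)) (g := fun h => Real.exp (li ρ₂ h))
    (pin_le fun _ _ => le_rfl) (Wk_nonneg w0) (hol_Wk w0 fun e => logC_wI (hJ e))
    (ex_mono h1) (ex_mono h2) ?_ (summable_pin hc hJ hX ρ₁ (exp_le' ρ₁))
    (summable_pin hc hJ hX ρ₂ (exp_le' ρ₂)) ?_
  · refine (summable_pin hc hJ hX 0 (f := fun _ => 1) (one_le' 0)).congr fun h => ?_
    rw [mul_one]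
  · refine (summable_pin hc hJ hX _ (exp_le' fun v => ρ₁ v + ρ₂ v)).congr fun h => ?_
    rw [e1]

/-- **FKG for a finite family of nonnegative charges.** -/
theorem fkg_exp_prod (hc : Conn s t) {J : E → ℝ} (hJ : ∀ e, 0 ≤ J e) {X : Set V}
    (hX : X.Nonempty) {ι : Type} (S : Finset ι) {ρ : ι → V → ℝ} (h0 : ∀ j ∈ S, ∀ v, 0 ≤ ρ j v) :
    ∏ j ∈ S, (ZZ s t J X (fun h => Real.exp (li (ρ j) h)) / ZZ s t J X fun _ => 1) ≤
      ZZ s t J X (fun h => Real.exp (li (fun v => ∑ j ∈ S, ρ j v) h)) /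
        ZZ s t J X fun _ => 1 := by
  classical
  have hZ := ZZ_pos (s := s) (t := t) hc hJ hX
  induction S using Finset.induction_on with
  | empty =>
    have : ∀ h : V → ℤ, li (fun _ => (0 : ℝ)) h = 0 := fun h => by simp [li]
    simp only [Finset.prod_empty, Finset.sum_empty, this, Real.exp_zero]
    rw [div_self hZ.ne']
  | @insert a S ha ih =>
    rw [Finset.prod_insert ha]
    have ih' := ih fun j hj => h0 j (Finset.mem_insert_of_mem hj)
    have h1 := fkg_exp hc hJ hX (h0 a (Finset.mem_insert_self a S))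
      (ρ₂ := fun v => ∑ j ∈ S, ρ j v)
      (fun v => Finset.sum_nonneg fun j hj => h0 j (Finset.mem_insert_of_mem hj) v)
    have e1 : (fun v => ∑ j ∈ insert a S, ρ j v) = fun v => ρ a v + ∑ j ∈ S, ρ j v :=
      funext fun v => Finset.sum_insert ha
    rw [e1]
    have ha0 : 0 ≤ ZZ s t J X (fun h => Real.exp (li (ρ a) h)) / ZZ s t J X fun _ => 1 :=
      div_nonneg (ZZ_nonneg hJ _ fun h => (Real.exp_pos _).le) hZ.le
    refine (mul_le_mul_of_nonneg_left ih' ha0).trans ?_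
    rw [div_mul_div_comm, div_le_div_iff₀ (by positivity) hZ]
    calc _ ≤ (ZZ s t J X (fun _ => 1) *
          ZZ s t J X fun h => Real.exp (li (fun v => ρ a v + ∑ j ∈ S, ρ j v) h)) *
          ZZ s t J X (fun _ => 1) := mul_le_mul_of_nonneg_right h1 hZ.le
      _ = _ := by ring

/-- **The lower bound of plan 115 (3).** -/
theorem pin_prod (hc : Conn s t) {J : E → ℝ} (hJ : ∀ e, 0 ≤ J e) {X : Set V}
    (hX : X.Nonempty) {ι : Type} (S : Finset ι) {ρ : ι → V → ℝ} (h0 : ∀ j ∈ S, ∀ v, 0 ≤ ρ j v)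
    {Y : ι → Set V} (hY : ∀ j ∈ S, X ⊆ Y j) :
    ∏ j ∈ S, (ZZ s t J (Y j) (fun h => Real.exp (li (ρ j) h)) / ZZ s t J (Y j) fun _ => 1) ≤
      ZZ s t J X (fun h => Real.exp (li (fun v => ∑ j ∈ S, ρ j v) h)) /
        ZZ s t J X fun _ => 1 := by
  refine (Finset.prod_le_prod (fun j hj => ?_) fun j hj => ?_).trans
    (fkg_exp_prod hc hJ hX S h0)
  · exact div_nonneg (ZZ_nonneg hJ _ fun h => (Real.exp_pos _).le)
      (ZZ_nonneg hJ _ fun h => zero_le_one)
  · rw [div_le_div_iff₀ (ZZ_pos hc hJ (hX.mono (hY j hj))) (ZZ_pos hc hJ hX)]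
    exact pin_mono hc hJ hX (hY j hj) (ρ j)

/-- the same with variances: `exp (∑ j, Var_{Y j}(ρ j.h) / 2) ≤ E_X[exp((∑ j, ρ j).h)]` -/
theorem pin_var (hc : Conn s t) {J : E → ℝ} (hJ : ∀ e, 0 ≤ J e) {X : Set V}
    (hX : X.Nonempty) {ι : Type} (S : Finset ι) {ρ : ι → V → ℝ} (h0 : ∀ j ∈ S, ∀ v, 0 ≤ ρ j v)
    {Y : ι → Set V} (hY : ∀ j ∈ S, X ⊆ Y j) :
    Real.exp (∑ j ∈ S, (ZZ s t J (Y j) (fun h => (li (ρ j) h) ^ 2) /
        ZZ s t J (Y j) fun _ => 1) / 2) ≤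
      ZZ s t J X (fun h => Real.exp (li (fun v => ∑ j ∈ S, ρ j v) h)) /
        ZZ s t J X fun _ => 1 := by
  refine le_trans ?_ (pin_prod hc hJ hX S h0 hY)
  rw [Real.exp_sum]
  exact Finset.prod_le_prod (fun j _ => (Real.exp_pos _).le) fun j hj =>
    exp_var_le hc hJ (hX.mono (hY j hj)) (ρ j)

end dpin

end Vale.Agent.P159.T1.H910
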