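import Vale.Agent.P159.T1.H910.DPin

/-!
Monotonicity in the couplings: expectations of cosines decrease and second moments increase if
couplings are added.
-/

open MeasureTheory Filter Topology

namespace Vale.Agent.P159.T1.H910

open Vale.Agent.P159 Vale.Agent.P159.H353 Vale.Agent.P159.R2.H254 Vale.Agent.P159.R2.H729
  Vale.Agent.P159.T1.H934

section mono

variable {V E : Type} [Fintype V] [Fintype E] {s t : E → V}

/-- pinned heights as an exact system with more edges, for two families of couplings at once -/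
theorem pin_sys (hc : Conn s t) {X : Set V} (hX : X.Nonempty) :
    ∃ (A : Type) (_ : Fintype A) (l : A → V), Nonempty A ∧ ∀ (J : E → ℝ) (f : (V → ℤ) → ℝ),
      ∑' h, W (grdL s t l) (Sum.elim J 0) h * f h = ZZ s t J X f := by
  classical
  obtain ⟨x0, hx0⟩ := hX
  refine ⟨{v : V // v ∈ X}, inferInstance, Subtype.val, ⟨⟨x0, hx0⟩⟩, fun J f => ?_⟩
  unfold ZZ
  refine tsum_congr fun h => ?_
  rw [W_grdL]
  unfold Psi vals
  simp only [Pi.zero_apply, AddMonoidHom.coe_mk, ZeroHom.coe_mk, sub_zero, wI_zero_left]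
  by_cases h1 : ∀ v ∈ X, h v = 0
  · rw [if_pos h1, Finset.prod_eq_one fun y _ => if_pos (h1 y.1 y.2), mul_one]
  · rw [if_neg h1]
    push Not at h1
    obtain ⟨v, hv, hne⟩ := h1
    rw [Finset.prod_eq_zero (Finset.mem_univ (⟨v, hv⟩ : {v : V // v ∈ X})) (if_neg hne), mul_zero,
      zero_mul]

/-- **Expectations of cosines decrease if couplings are added.** -/
theorem mono_cos_J (hc : Conn s t) {J J' : E → ℝ} (hJ : ∀ e, 0 ≤ J e) (hJJ : ∀ e, J e ≤ J' e)
    {X : Set V} (hX : X.Nonempty) (ρ : V → ℝ) :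
    ZZ s t J' X (fun h => Real.cos (li ρ h)) * ZZ s t J X (fun _ => 1) ≤
      ZZ s t J X (fun h => Real.cos (li ρ h)) * ZZ s t J' X (fun _ => 1) := by
  obtain ⟨A, _, l, hA, e⟩ := pin_sys (s := s) (t := t) hc hX
  have hinj := grdL_inj (l := l) hc hA
  have hm := mono_cos hinj (J := (Sum.elim J 0 : E ⊕ A → ℝ))
    (K := Sum.elim (fun e => J' e - J e) 0) (by rintro (e | y) <;> simp [hJ])
    (by rintro (e | y) <;> simp [hJJ]) (liH ρ)
  have hadd : (Sum.elim J 0 : E ⊕ A → ℝ) + Sum.elim (fun e => J' e - J e) 0 = Sum.elim J' 0 := by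
    funext x
    rcases x with e | y <;> simp
  rw [hadd] at hm
  have e1 : ∀ K : E → ℝ, ∑' h, W (grdL s t l) (Sum.elim K 0) h = ZZ s t K X (fun _ => 1) := by
    intro K
    rw [← e]
    exact tsum_congr fun h => (mul_one _).symm
  have e2 : ∀ K : E → ℝ, ∑' h, W (grdL s t l) (Sum.elim K 0) h * Real.cos (liH ρ h) =
      ZZ s t K X (fun h => Real.cos (li ρ h)) := fun K => e K _
  rw [e1, e1, e2, e2] at hm
  exact hm

/-- **Exponential moments increase if couplings are added.** -/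
theorem mono_cosh_J (hc : Conn s t) {J J' : E → ℝ} (hJ : ∀ e, 0 ≤ J e) (hJJ : ∀ e, J e ≤ J' e)
    {X : Set V} (hX : X.Nonempty) (ρ : V → ℝ) :
    ZZ s t J X (fun h => Real.cosh (li ρ h)) * ZZ s t J' X (fun _ => 1) ≤
      ZZ s t J' X (fun h => Real.cosh (li ρ h)) * ZZ s t J X (fun _ => 1) := by
  obtain ⟨A, _, l, hA, e⟩ := pin_sys (s := s) (t := t) hc hX
  have hinj := grdL_inj (l := l) hc hA
  obtain ⟨y0⟩ := hA
  obtain ⟨a, ha⟩ := exists_lnA hc l y0 ρ
  have hm := mono_cosh hinj (J := (Sum.elim J 0 : E ⊕ A → ℝ))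
    (K := Sum.elim (fun e => J' e - J e) 0) (by rintro (e | y) <;> simp [hJ])
    (by rintro (e | y) <;> simp [hJJ]) a
  have hadd : (Sum.elim J 0 : E ⊕ A → ℝ) + Sum.elim (fun e => J' e - J e) 0 = Sum.elim J' 0 := by
    funext x
    rcases x with e | y <;> simp
  rw [hadd] at hm
  simp only [← ha] at hm
  have e1 : ∀ K : E → ℝ, ∑' h, W (grdL s t l) (Sum.elim K 0) h = ZZ s t K X (fun _ => 1) := by
    intro K
    rw [← e]
    exact tsum_congr fun h => (mul_one _).symm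
  rw [e1, e1, e, e] at hm
  exact hm

/-- passage from `1 - cos` to the square -/
theorem sq_of_cos (hc : Conn s t) {J J' : E → ℝ} (hJ : ∀ e, 0 ≤ J e) (hJ' : ∀ e, 0 ≤ J' e)
    {X X' : Set V} (hX : X.Nonempty) (hX' : X'.Nonempty) (ρ : V → ℝ)
    (key : ∀ x : ℝ, ZZ s t J X (fun h => 1 - Real.cos (x * li ρ h)) * ZZ s t J' X' (fun _ => 1) ≤
      ZZ s t J' X' (fun h => 1 - Real.cos (x * li ρ h)) * ZZ s t J X (fun _ => 1)) :
    ZZ s t J X (fun h => (li ρ h) ^ 2) * ZZ s t J' X' (fun _ => 1) ≤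
      ZZ s t J' X' (fun h => (li ρ h) ^ 2) * ZZ s t J X (fun _ => 1) := by
  classical
  set u : ℕ → ℝ := fun n => ((n : ℝ) + 1)⁻¹ with hu
  have u0 : ∀ n, 0 < u n := fun n => by simp only [hu]; positivity
  have ulim : Tendsto u atTop (𝓝 0) := by
    simpa [hu, one_div] using tendsto_one_div_add_atTop_nhds_zero_nat (𝕜 := ℝ)
  set F : ℕ → (V → ℤ) → ℝ := fun n h => 2 * (u n ^ 2)⁻¹ * (1 - Real.cos (u n * li ρ h)) with hF
  have F0 : ∀ n h, 0 ≤ F n h := fun n h => by
    have := Real.cos_le_one (u n * li ρ h)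
    have h2 := u0 n
    simp only [hF]
    have : 0 ≤ 1 - Real.cos (u n * li ρ h) := by linarith
    positivity
  have F1 : ∀ n h, F n h ≤ (li ρ h) ^ 2 := fun n h => by
    have h1 := Real.one_sub_sq_div_two_le_cos (x := u n * li ρ h)
    have h2 := u0 n
    simp only [hF]
    have h3 : 1 - Real.cos (u n * li ρ h) ≤ (u n * li ρ h) ^ 2 / 2 := by linarith
    calc 2 * (u n ^ 2)⁻¹ * (1 - Real.cos (u n * li ρ h))
        ≤ 2 * (u n ^ 2)⁻¹ * ((u n * li ρ h) ^ 2 / 2) :=
          mul_le_mul_of_nonneg_left h3 (by positivity)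
      _ = (li ρ h) ^ 2 := by field_simp
  have Flim : ∀ h, Tendsto (fun n => F n h) atTop (𝓝 ((li ρ h) ^ 2)) := by
    intro h
    have hsmall : ∀ᶠ n in atTop, |u n * li ρ h| ≤ 1 := by
      have h1 : Tendsto (fun n => |u n * li ρ h|) atTop (𝓝 0) := by
        have := (ulim.mul_const (li ρ h)).abs
        simpa using this
      exact (h1.eventually (gt_mem_nhds one_pos)).mono fun n hn => hn.le
    have hlow : Tendsto (fun n => (li ρ h) ^ 2 - (u n) ^ 2 * ((li ρ h) ^ 4 * (5 / 48))) atTop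
        (𝓝 ((li ρ h) ^ 2)) := by
      have := (tendsto_const_nhds (x := (li ρ h) ^ 2)).sub
        ((ulim.pow 2).mul_const ((li ρ h) ^ 4 * (5 / 48)))
      simpa using this
    refine tendsto_of_tendsto_of_tendsto_of_le_of_le' hlow tendsto_const_nhds ?_
      (Eventually.of_forall fun n => F1 n h)
    filter_upwards [hsmall] with n hn
    have h1 := (abs_le.1 (Real.cos_bound hn)).2
    have h2 := u0 n
    have h3 : |u n * li ρ h| ^ 4 = (u n * li ρ h) ^ 4 := by
      rw [show (4 : ℕ) = 2 * 2 from rfl, pow_mul, sq_abs, ← pow_mul]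
    rw [h3] at h1
    have h4 : (u n * li ρ h) ^ 2 / 2 - (u n * li ρ h) ^ 4 * (5 / 96) ≤
        1 - Real.cos (u n * li ρ h) := by linarith
    have h5 := mul_le_mul_of_nonneg_left h4 (show 0 ≤ 2 * (u n ^ 2)⁻¹ by positivity)
    refine le_trans (le_of_eq ?_) h5
    field_simp
    ring
  have lim : ∀ {K : E → ℝ} {Y : Set V}, (∀ e, 0 ≤ K e) → Y.Nonempty →
      Tendsto (fun n => ZZ s t K Y (F n)) atTop (𝓝 (ZZ s t K Y fun h => (li ρ h) ^ 2)) := by
    intro K Y hK hY
    unfold ZZ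
    refine tendsto_tsum_of_dominated_convergence (bound := fun h : V → ℤ =>
      |if ∀ v ∈ Y, h v = 0 then W (grd s t) K h * (li ρ h) ^ 2 else 0|)
      (summable_ZZ hc hK hY ρ (sq_le' ρ)) (fun h => ?_) ?_
    · split_ifs
      · exact (Flim h).const_mul _
      · exact tendsto_const_nhds
    · filter_upwards with n h
      rw [Real.norm_eq_abs]
      split_ifs
      · rw [abs_mul (W (grd s t) K h) (F n h), abs_mul (W (grd s t) K h) ((li ρ h) ^ 2),
          abs_of_nonneg (F0 n h), abs_of_nonneg (sq_nonneg (li ρ h))]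
        exact mul_le_mul_of_nonneg_left (F1 n h) (abs_nonneg _)
      · exact le_rfl
  refine le_of_tendsto_of_tendsto' ((lim hJ hX).mul_const _) ((lim hJ' hX').mul_const _)
    fun n => ?_
  have hpos : 0 ≤ 2 * (u n ^ 2)⁻¹ := by have := u0 n; positivity
  have h1 := mul_le_mul_of_nonneg_left (key (u n)) hpos
  simp only [hF]
  rw [ZZ_mul, ZZ_mul]
  linarith

/-- **Second moments increase if couplings are added.** -/
theorem mono_sq_J (hc : Conn s t) {J J' : E → ℝ} (hJ : ∀ e, 0 ≤ J e) (hJJ : ∀ e, J e ≤ J' e)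
    {X : Set V} (hX : X.Nonempty) (ρ : V → ℝ) :
    ZZ s t J X (fun h => (li ρ h) ^ 2) * ZZ s t J' X (fun _ => 1) ≤
      ZZ s t J' X (fun h => (li ρ h) ^ 2) * ZZ s t J X (fun _ => 1) := by
  have hJ' : ∀ e, 0 ≤ J' e := fun e => (hJ e).trans (hJJ e)
  refine sq_of_cos hc hJ hJ' hX hX ρ fun x => ?_
  have b1 : ∀ h : V → ℤ, |Real.cos (x * li ρ h)| ≤ 1 * Real.exp |li ρ h| := fun h => by
    rw [one_mul]
    exact (Real.abs_cos_le_one _).trans (Real.one_le_exp (abs_nonneg _))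
  rw [ZZ_sub hc hJ hX ρ (one_le' ρ) b1, ZZ_sub hc hJ' hX ρ (one_le' ρ) b1]
  have := mono_cos_J hc hJ hJJ hX (fun v => x * ρ v)
  simp only [li_smul] at this
  linarith

/-- second moments: fewer pins and larger couplings -/
theorem mono_sq_XJ (hc : Conn s t) {J J' : E → ℝ} (hJ : ∀ e, 0 ≤ J e) (hJJ : ∀ e, J e ≤ J' e)
    {X X' : Set V} (hX : X.Nonempty) (hXX : X ⊆ X') (ρ : V → ℝ) :
    ZZ s t J X' (fun h => (li ρ h) ^ 2) / ZZ s t J X' (fun _ => 1) ≤
      ZZ s t J' X (fun h => (li ρ h) ^ 2) / ZZ s t J' X (fun _ => 1) := by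
  have hJ' : ∀ e, 0 ≤ J' e := fun e => (hJ e).trans (hJJ e)
  refine le_trans (b := ZZ s t J X (fun h => (li ρ h) ^ 2) / ZZ s t J X (fun _ => 1)) ?_ ?_
  · rw [div_le_div_iff₀ (ZZ_pos hc hJ (hX.mono hXX)) (ZZ_pos hc hJ hX)]
    exact pin_mono_sq hc hJ hX hXX ρ
  · rw [div_le_div_iff₀ (ZZ_pos hc hJ hX) (ZZ_pos hc hJ' hX)]
    exact mono_sq_J hc hJ hJJ hX ρ

end mono

end Vale.Agent.P159.T1.H910
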