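import Vale.Agent.P159.T1.D.Defs
import Vale.Agent.P159.T1.H910.MonoJ
import Vale.Agent.P159.T1.H910.DPin

/-!
Heights on a finite set `U` of faces of `ℤ²` with the bonds of a finite set `S` (language of
`T1/D/Defs.lean`) as heights on a finite connected graph.
-/

open MeasureTheory Filter Topology

namespace Vale.Agent.P159.T1.H910

open Vale.Agent.P159 Vale.Agent.P159.H353 Vale.Agent.P159.R2.H254 Vale.Agent.P159.R2.H729
  Vale.Agent.P159.T1.H934 Vale.Agent.P159.T1.D

/-- sum over the heights which vanish outside `U`, with the bonds of `S` -/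
noncomputable def FF (J : Bnd → ℝ) (S : Finset Bnd) (U : Finset Z2) (F : (Z2 → ℤ) → ℝ) : ℝ :=
  ∑' h : Ht U, (∏ e ∈ S, wI (J e) (dh h.1 e)) * F h.1

/-! ### the graph -/

/-- the vertices: the faces of `U` and the outer face -/
abbrev GV (U : Finset Z2) : Type := Option {f : Z2 // f ∈ U}

/-- the vertex of a face -/
def gv (U : Finset Z2) (f : Z2) : GV U := if hf : f ∈ U then some ⟨f, hf⟩ else none

/-- first end point -/
def gs (S : Finset Bnd) (U : Finset Z2) (e : {e : Bnd // e ∈ S}) : GV U := gv U (rt e.1)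

/-- second end point -/
def gt (S : Finset Bnd) (U : Finset Z2) (e : {e : Bnd // e ∈ S}) : GV U := gv U (lf e.1)

lemma gv_mem {U : Finset Z2} {f : Z2} (hf : f ∈ U) : gv U f = some ⟨f, hf⟩ := dif_pos hf

lemma gv_not {U : Finset Z2} {f : Z2} (hf : f ∉ U) : gv U f = none := dif_neg hf

lemma gv_val {U : Finset Z2} (f : {f : Z2 // f ∈ U}) : gv U f.1 = some f := gv_mem f.2

/-- the graph is connected -/
lemma conn_g {S : Finset Bnd} {U : Finset Z2} (hS : ∀ f ∈ U, (f, true) ∈ S) :
    Conn (gs S U) (gt S U) := by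
  classical
  -- every vertex is joined to the outer one
  have key : ∀ n : ℕ, ∀ f : Z2, (∀ i ∈ U, f.1 - n < i.1) →
      Relation.ReflTransGen (adjG (gs S U) (gt S U)) (gv U f) none := by
    intro n
    induction n with
    | zero =>
      intro f hf
      have : f ∉ U := fun h => by have := hf f h; simp at this
      rw [gv_not this]
    | succ n ih =>
      intro f hf
      by_cases h : f ∈ U
      · refine Relation.ReflTransGen.head (b := gv U (f.1 - 1, f.2)) ?_ (ih _ fun i hi => ?_)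
        · exact ⟨⟨(f, true), hS f h⟩, Or.inl ⟨rfl, rfl⟩⟩
        · have := hf i hi
          push_cast at this ⊢
          linarith
      · rw [gv_not h]
  have key' : ∀ v : GV U, Relation.ReflTransGen (adjG (gs S U) (gt S U)) v none := by
    rintro (_ | f)
    · exact Relation.ReflTransGen.refl
    · rw [← gv_val f]
      obtain ⟨n, hn⟩ : ∃ n : ℕ, ∀ i ∈ U, f.1.1 - n < i.1 := by
        refine ⟨(∑ i ∈ U, |f.1.1 - i.1|).toNat + 1, fun i hi => ?_⟩
        have h1 : |f.1.1 - i.1| ≤ ∑ i ∈ U, |f.1.1 - i.1| :=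
          Finset.single_le_sum (f := fun i : Z2 => |f.1.1 - i.1|) (fun _ _ => abs_nonneg _) hi
        have h2 := le_abs_self (f.1.1 - i.1)
        have h3 := Int.self_le_toNat (∑ i ∈ U, |f.1.1 - i.1|)
        push_cast at h3 ⊢
        linarith
      exact key n _ hn
  have symm : ∀ a b : GV U, adjG (gs S U) (gt S U) a b → adjG (gs S U) (gt S U) b a := by
    rintro a b ⟨e, h | h⟩
    · exact ⟨e, Or.inr h⟩
    · exact ⟨e, Or.inl h⟩
  intro u v
  refine (key' u).trans ?_
  have : ∀ w : GV U, Relation.ReflTransGen (adjG (gs S U) (gt S U)) v w →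
      Relation.ReflTransGen (adjG (gs S U) (gt S U)) w v := by
    intro w hw
    induction hw with
    | refl => exact Relation.ReflTransGen.refl
    | tail _ h2 ih => exact Relation.ReflTransGen.head (symm _ _ h2) ih
  exact this _ (key' v)

/-- the pinned vertices: all except the faces of `U'` -/
def pinF (U U' : Finset Z2) : Set (GV U) := {v | ∀ f ∈ U', v ≠ gv U f}

lemma none_pinF {U U' : Finset Z2} (hU : U' ⊆ U) : none ∈ pinF U U' := fun f hf => by
  rw [gv_mem (hU hf)]
  exact (Option.some_ne_none _).symm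

lemma pinF_nonempty {U U' : Finset Z2} (hU : U' ⊆ U) : (pinF U U').Nonempty :=
  ⟨none, none_pinF hU⟩

lemma pinF_mono {U U₁ U₂ : Finset Z2} (h : U₁ ⊆ U₂) : pinF U U₂ ⊆ pinF U U₁ :=
  fun _ hv f hf => hv f (h hf)

/-- heights on the graph as heights on the plane -/
def ext (U : Finset Z2) (h : GV U → ℤ) : Z2 → ℤ := fun f => h (gv U f)

/-- heights on the plane as heights on the graph -/
def res (U : Finset Z2) (h : Z2 → ℤ) : GV U → ℤ := fun v => v.elim 0 fun f => h f.1

lemma ext_res {U : Finset Z2} {h : Z2 → ℤ} (hh : ∀ f, f ∉ U → h f = 0) :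
    ext U (res U h) = h := by
  funext f
  unfold ext res
  by_cases hf : f ∈ U
  · rw [gv_mem hf]; rfl
  · rw [gv_not hf, hh f hf]; rfl

lemma res_ext {U : Finset Z2} {h : GV U → ℤ} (hh : h none = 0) :
    res U (ext U h) = h := by
  funext v
  rcases v with _ | f
  · exact hh.symm
  · show h (gv U f.1) = _
    rw [gv_val]

lemma ext_mem {U U' : Finset Z2} {h : GV U → ℤ} (hU : U' ⊆ U)
    (hh : ∀ v ∈ pinF U U', h v = 0) : ∀ f, f ∉ U' → ext U h f = 0 := by
  intro f hf
  apply hh
  intro g hg h1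
  by_cases h2 : f ∈ U
  · rw [gv_mem h2, gv_mem (hU hg)] at h1
    have : f = g := congrArg Subtype.val (Option.some.inj h1)
    exact hf (this ▸ hg)
  · rw [gv_not h2, gv_mem (hU hg)] at h1
    exact (Option.some_ne_none _).symm h1

lemma res_mem {U U' : Finset Z2} {h : Z2 → ℤ} (hh : ∀ f, f ∉ U' → h f = 0) :
    ∀ v ∈ pinF U U', res U h v = 0 := by
  rintro (_ | f) hv
  · rfl
  · show h f.1 = 0
    refine hh _ fun h1 => hv f.1 h1 ?_
    rw [gv_val]

/-- heights on the graph and heights on the plane -/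
def eqH {U U' : Finset Z2} (hU : U' ⊆ U) :
    {h : GV U → ℤ // ∀ v ∈ pinF U U', h v = 0} ≃ Ht U' where
  toFun h := ⟨ext U h.1, ext_mem hU h.2⟩
  invFun h := ⟨res U h.1, res_mem h.2⟩
  left_inv h := Subtype.ext (res_ext (h.2 none (none_pinF hU)))
  right_inv h := Subtype.ext (ext_res fun f hf => h.2 f fun h' => hf (hU h'))

lemma W_ext (J : Bnd → ℝ) (S : Finset Bnd) (U : Finset Z2) (h : GV U → ℤ) :
    W (grd (gs S U) (gt S U)) (fun e => J e.1) h = ∏ e ∈ S, wI (J e) (dh (ext U h) e) := by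
  rw [← Finset.prod_coe_sort]
  rfl

/-- **dictionary** -/
theorem ZZ_eq_FF (J : Bnd → ℝ) (S : Finset Bnd) {U U' : Finset Z2} (hU : U' ⊆ U)
    (F : (Z2 → ℤ) → ℝ) :
    ZZ (gs S U) (gt S U) (fun e => J e.1) (pinF U U') (fun h => F (ext U h)) =
      FF J S U' F := by
  classical
  unfold FF
  rw [← (eqH hU).tsum_eq]
  unfold ZZ
  have h1 : ∀ h : GV U → ℤ, (if ∀ v ∈ pinF U U', h v = 0 then
      W (grd (gs S U) (gt S U)) (fun e => J e.1) h * F (ext U h) else 0) =
      Set.indicator {h : GV U → ℤ | ∀ v ∈ pinF U U', h v = 0}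
        (fun h => (∏ e ∈ S, wI (J e) (dh (ext U h) e)) * F (ext U h)) h := by
    intro h
    by_cases h2 : ∀ v ∈ pinF U U', h v = 0
    · rw [if_pos h2, Set.indicator_of_mem (by exact h2), W_ext]
    · rw [if_neg h2, Set.indicator_of_notMem (by exact h2)]
  rw [tsum_congr h1, ← tsum_subtype]
  rfl

/-- linear functionals -/
def liC (U : Finset Z2) (ρ : Z2 → ℝ) (v : GV U) : ℝ := v.elim 0 fun f => ρ f.1

lemma li_ext {U : Finset Z2} (ρ : Z2 → ℝ) (h : GV U → ℤ) :
    li (liC U ρ) h = ch U ρ (ext U h) := by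
  unfold li ch
  rw [Fintype.sum_option, ← Finset.sum_coe_sort U]
  have : liC U ρ none = 0 := rfl
  rw [this, zero_mul, zero_add]
  refine Finset.sum_congr rfl fun f _ => ?_
  show ρ f.1 * (h (some f) : ℝ) = ρ f.1 * (h (gv U f.1) : ℝ)
  rw [gv_val]

lemma ch_mono {U U' : Finset Z2} (hU : U' ⊆ U) (ρ : Z2 → ℝ) {h : Z2 → ℤ}
    (hh : ∀ f, f ∉ U' → h f = 0) : ch U ρ h = ch U' ρ h := by
  unfold ch
  symm
  refine Finset.sum_subset hU fun f _ hf => ?_
  rw [hh f hf]
  simp

end Vale.Agent.P159.T1.H910
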