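import Vale.Agent.P159.T1.H910.PinSeq

/-!
Comparison with the system in which all vertices of `range l` are pinned (P159): if the clusters
of `{h ≠ 0}` of `range l` stay in `N` with a large probability, and `ρ` vanishes on `N`, then the
law of `ρ.h` in the larger system controls the law in the system pinned on `X ∪ range l`.

This gives the input of plan 109 for a fully free rectangle from a rectangle with three wired
sides.
-/

open MeasureTheory Filter Topology

namespace Vale.Agent.P159.T1.H910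

open Vale.Agent.P159 Vale.Agent.P159.H353 Vale.Agent.P159.R2.H254 Vale.Agent.P159.R2.H729
  Vale.Agent.P159.T1.H934

section sums

variable {V E : Type} [Fintype V] [Fintype E] {s t : E → V}

lemma ZZ_sub (hc : Conn s t) {J : E → ℝ} (hJ : ∀ e, 0 ≤ J e) {X : Set V} (hX : X.Nonempty)
    (ρ : V → ℝ) {f g : (V → ℤ) → ℝ} {C C' : ℝ} (hf : ∀ h, |f h| ≤ C * Real.exp |li ρ h|)
    (hg : ∀ h, |g h| ≤ C' * Real.exp |li ρ h|) :
    ZZ s t J X (fun h => f h - g h) = ZZ s t J X f - ZZ s t J X g := by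
  classical
  unfold ZZ
  rw [← (summable_ZZ hc hJ hX ρ hf).of_abs.tsum_sub (summable_ZZ hc hJ hX ρ hg).of_abs]
  refine tsum_congr fun h => ?_
  split_ifs <;> ring

lemma ZZ_mul (J : E → ℝ) (X : Set V) (c : ℝ) (f : (V → ℤ) → ℝ) :
    ZZ s t J X (fun h => c * f h) = c * ZZ s t J X f := by
  unfold ZZ
  rw [← tsum_mul_left]
  refine tsum_congr fun h => ?_
  split_ifs <;> ring

lemma one_sub_cos_le (ρ : V → ℝ) (h : V → ℤ) :
    |1 - Real.cos (li ρ h)| ≤ 2 * Real.exp |li ρ h| := by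
  have h1 := Real.abs_cos_le_one (li ρ h)
  have h2 : 1 ≤ Real.exp |li ρ h| := Real.one_le_exp (abs_nonneg _)
  rw [abs_le] at h1 ⊢
  constructor <;> linarith

/-- **Expectations of `1 - cos` decrease if more vertices are pinned.** -/
theorem pin_mono_one_sub_cos (hc : Conn s t) {J : E → ℝ} (hJ : ∀ e, 0 ≤ J e) {X X' : Set V}
    (hX : X.Nonempty) (hXX : X ⊆ X') (ρ : V → ℝ) :
    ZZ s t J X' (fun h => 1 - Real.cos (li ρ h)) * ZZ s t J X (fun _ => 1) ≤
      ZZ s t J X (fun h => 1 - Real.cos (li ρ h)) * ZZ s t J X' (fun _ => 1) := by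
  rw [ZZ_sub hc hJ hX ρ (one_le' ρ) (cos_le' ρ), ZZ_sub hc hJ (hX.mono hXX) ρ (one_le' ρ)
    (cos_le' ρ)]
  have := pin_mono_cos hc hJ hX hXX ρ
  linarith [this]

lemma li_smul (c : ℝ) (ρ : V → ℝ) (h : V → ℤ) : li (fun v => c * ρ v) h = c * li ρ h := by
  unfold li
  rw [Finset.mul_sum]
  exact Finset.sum_congr rfl fun v _ => by ring

/-- **Second moments decrease if more vertices are pinned.** -/
theorem pin_mono_sq (hc : Conn s t) {J : E → ℝ} (hJ : ∀ e, 0 ≤ J e) {X X' : Set V}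
    (hX : X.Nonempty) (hXX : X ⊆ X') (ρ : V → ℝ) :
    ZZ s t J X' (fun h => (li ρ h) ^ 2) * ZZ s t J X (fun _ => 1) ≤
      ZZ s t J X (fun h => (li ρ h) ^ 2) * ZZ s t J X' (fun _ => 1) := by
  classical
  set u : ℕ → ℝ := fun n => ((n : ℝ) + 1)⁻¹ with hu
  have u0 : ∀ n, 0 < u n := fun n => by simp only [hu]; positivity
  have ulim : Tendsto u atTop (𝓝 0) := by
    simpa [hu, one_div] using tendsto_one_div_add_atTop_nhds_zero_nat (𝕜 := ℝ)
  set F : ℕ → (V → ℤ) → ℝ := fun n h => 2 * (u n ^ 2)⁻¹ * (1 - Real.cos (u n * li ρ h)) with hF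
  have F0 : ∀ n h, 0 ≤ F n h := fun n h => by
    have := Real.cos_le_one (u n * li ρ h)
    have h2 := u0 n
    simp only [hF]
    have : 0 ≤ 1 - Real.cos (u n * li ρ h) := by linarith
    positivity
  have F1 : ∀ n h, F n h ≤ (li ρ h) ^ 2 := fun n h => by
    have h1 := Real.one_sub_sq_div_two_le_cos (x := u n * li ρ h)
    have h2 := u0 n
    simp only [hF]
    have h3 : 1 - Real.cos (u n * li ρ h) ≤ (u n * li ρ h) ^ 2 / 2 := by linarith
    calc 2 * (u n ^ 2)⁻¹ * (1 - Real.cos (u n * li ρ h))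
        ≤ 2 * (u n ^ 2)⁻¹ * ((u n * li ρ h) ^ 2 / 2) :=
          mul_le_mul_of_nonneg_left h3 (by positivity)
      _ = (li ρ h) ^ 2 := by field_simp
  have Flim : ∀ h, Tendsto (fun n => F n h) atTop (𝓝 ((li ρ h) ^ 2)) := by
    intro h
    have hsmall : ∀ᶠ n in atTop, |u n * li ρ h| ≤ 1 := by
      have h1 : Tendsto (fun n => |u n * li ρ h|) atTop (𝓝 0) := by
        have := (ulim.mul_const (li ρ h)).abs
        simpa using this
      exact (h1.eventually (gt_mem_nhds one_pos)).mono fun n hn => hn.le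
    have hlow : Tendsto (fun n => (li ρ h) ^ 2 - (u n) ^ 2 * ((li ρ h) ^ 4 * (5 / 48))) atTop
        (𝓝 ((li ρ h) ^ 2)) := by
      have := (tendsto_const_nhds (x := (li ρ h) ^ 2)).sub
        ((ulim.pow 2).mul_const ((li ρ h) ^ 4 * (5 / 48)))
      simpa using this
    refine tendsto_of_tendsto_of_tendsto_of_le_of_le' hlow tendsto_const_nhds ?_
      (Eventually.of_forall fun n => F1 n h)
    filter_upwards [hsmall] with n hn
    have h1 := (abs_le.1 (Real.cos_bound hn)).2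
    have h2 := u0 n
    have h3 : |u n * li ρ h| ^ 4 = (u n * li ρ h) ^ 4 := by
      rw [show (4 : ℕ) = 2 * 2 from rfl, pow_mul, sq_abs, ← pow_mul]
    rw [h3] at h1
    have h4 : (u n * li ρ h) ^ 2 / 2 - (u n * li ρ h) ^ 4 * (5 / 96) ≤
        1 - Real.cos (u n * li ρ h) := by linarith
    have h5 := mul_le_mul_of_nonneg_left h4 (show 0 ≤ 2 * (u n ^ 2)⁻¹ by positivity)
    refine le_trans (le_of_eq ?_) h5
    field_simp
    ring
  have lim : ∀ {Y : Set V}, Y.Nonempty →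
      Tendsto (fun n => ZZ s t J Y (F n)) atTop (𝓝 (ZZ s t J Y fun h => (li ρ h) ^ 2)) := by
    intro Y hY
    unfold ZZ
    refine tendsto_tsum_of_dominated_convergence (bound := fun h : V → ℤ =>
      |if ∀ v ∈ Y, h v = 0 then W (grd s t) J h * (li ρ h) ^ 2 else 0|)
      (summable_ZZ hc hJ hY ρ (sq_le' ρ)) (fun h => ?_) ?_
    · split_ifs
      · exact (Flim h).const_mul _
      · exact tendsto_const_nhds
    · filter_upwards with n h
      rw [Real.norm_eq_abs]
      split_ifs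
      · rw [abs_mul (W (grd s t) J h) (F n h), abs_mul (W (grd s t) J h) ((li ρ h) ^ 2),
          abs_of_nonneg (F0 n h), abs_of_nonneg (sq_nonneg (li ρ h))]
        exact mul_le_mul_of_nonneg_left (F1 n h) (abs_nonneg _)
      · exact le_rfl
  refine le_of_tendsto_of_tendsto' ((lim (hX.mono hXX)).mul_const _)
    ((lim hX).mul_const _) fun n => ?_
  have key := pin_mono_one_sub_cos hc hJ hX hXX (fun v => u n * ρ v)
  simp only [li_smul] at key
  have hpos : 0 ≤ 2 * (u n ^ 2)⁻¹ := by have := u0 n; positivity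
  have h1 := mul_le_mul_of_nonneg_left key hpos
  simp only [hF]
  rw [ZZ_mul, ZZ_mul]
  linarith

end sums

section cut

variable {V E A : Type} [Fintype V] [Fintype E] {s t : E → V} {l : A → V}

/-- **Pinning all vertices of `range l`**, general observable. -/
theorem cut_le (hc : Conn s t) {J : E → ℝ} (hJ : ∀ e, 0 ≤ J e) {X N : Set V}
    (hX : X.Nonempty) (ρ : V → ℝ) {f : (V → ℤ) → ℝ} {C : ℝ}
    (hf0 : ∀ h, 0 ≤ f h) (hf : ∀ h, |f h| ≤ C * Real.exp |li ρ h|)
    (hfN : ∀ h h' : V → ℤ, (∀ v, v ∉ N → h v = h' v) → f h = f h')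
    (hmono : ∀ Y : Set V, X ∪ Set.range l ⊆ Y →
      ZZ s t J Y f * ZZ s t J (X ∪ Set.range l) (fun _ => 1) ≤
        ZZ s t J (X ∪ Set.range l) f * ZZ s t J Y (fun _ => 1)) :
    ZE s t l J X N f * ZZ s t J (X ∪ Set.range l) (fun _ => 1) ≤
      ZZ s t J (X ∪ Set.range l) f * ZE s t l J X N (fun _ => 1) := by
  classical
  rw [ZE_eq hc hJ hX N ρ (one_le' ρ), ZE_eq hc hJ hX N ρ hf, Finset.sum_mul, Finset.mul_sum]
  refine Finset.sum_le_sum fun S _ => ?_
  by_cases hSN : ∀ v ∈ S, v ∈ N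
  · rw [if_pos hSN, if_pos hSN]
    by_cases hS : LC s t l S ∧ ∀ v ∈ X, v ∉ S
    · have hsub : X ∪ Set.range l ⊆ XS s t l X S := by
        rintro v (hv | hv)
        · exact Or.inl hv
        · by_cases hvS : v ∈ S
          · exact Or.inr (Or.inl hvS)
          · exact Or.inr (Or.inr ⟨hvS, Or.inl hv⟩)
      have hp := hmono _ hsub
      rw [TS_eq hc hJ hX hS.1 hS.2 ρ (fun _ => zero_le_one) (one_le' ρ) (fun _ _ _ => rfl),
        TS_eq hc hJ hX hS.1 hS.2 ρ hf0 hf (fun h h' hh => hfN h h' fun v hv =>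
          hh v fun hvS => hv (hSN v hvS))]
      have hU : 0 ≤ (W (grd s t) J 0)⁻¹ * ∑' h, US s t J S h :=
        mul_nonneg (inv_nonneg.2 (W_nonneg hJ _)) (tsum_nonneg fun h => US_nonneg hJ S h)
      have h5 := mul_le_mul_of_nonneg_left hp hU
      linarith
    · rw [TS_zero hS, TS_zero hS, zero_mul, mul_zero]
  · rw [if_neg hSN, if_neg hSN, zero_mul, mul_zero]

lemma li_congr {N : Set V} {ρ : V → ℝ} (hρ : ∀ v ∈ N, ρ v = 0) {h h' : V → ℤ}
    (hh : ∀ v, v ∉ N → h v = h' v) : li ρ h = li ρ h' := by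
  unfold li
  refine Finset.sum_congr rfl fun v _ => ?_
  by_cases hv : v ∈ N
  · rw [hρ v hv, zero_mul, zero_mul]
  · rw [hh v hv]

lemma ZE_le (hc : Conn s t) {J : E → ℝ} (hJ : ∀ e, 0 ≤ J e) {X : Set V} (hX : X.Nonempty)
    (N : Set V) (ρ : V → ℝ) {f : (V → ℤ) → ℝ} {C : ℝ} (hf0 : ∀ h, 0 ≤ f h)
    (hf : ∀ h, |f h| ≤ C * Real.exp |li ρ h|) : ZE s t l J X N f ≤ ZZ s t J X f := by
  classical
  have h1 := (summable_ZZ hc hJ hX ρ hf).of_abs
  unfold ZE ZZ
  refine Summable.tsum_le_tsum (fun h => ?_) (Summable.of_nonneg_of_le (fun h => ?_)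
    (fun h => ?_) h1) h1
  · by_cases h2 : ∀ v ∈ X, h v = 0
    · rw [if_pos h2]
      split_ifs
      · exact le_rfl
      · exact mul_nonneg (W_nonneg hJ _) (hf0 _)
    · rw [if_neg h2, if_neg (fun h3 => h2 h3.1)]
  · split_ifs
    · exact mul_nonneg (W_nonneg hJ _) (hf0 _)
    · exact le_rfl
  · by_cases h2 : ∀ v ∈ X, h v = 0
    · rw [if_pos h2]
      split_ifs
      · exact le_rfl
      · exact mul_nonneg (W_nonneg hJ _) (hf0 _)
    · rw [if_neg h2, if_neg (fun h3 => h2 h3.1)]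

lemma ZE_sub_one (hc : Conn s t) {J : E → ℝ} (hJ : ∀ e, 0 ≤ J e) {X : Set V} (hX : X.Nonempty)
    (N : Set V) (ρ : V → ℝ) {f g : (V → ℤ) → ℝ} {C C' : ℝ}
    (hf : ∀ h, |f h| ≤ C * Real.exp |li ρ h|) (hg : ∀ h, |g h| ≤ C' * Real.exp |li ρ h|) :
    ZE s t l J X N (fun h => f h - g h) = ZE s t l J X N f - ZE s t l J X N g := by
  classical
  have key : ∀ {f : (V → ℤ) → ℝ} {C : ℝ}, (∀ h, |f h| ≤ C * Real.exp |li ρ h|) →
      Summable fun h : V → ℤ => if (∀ v ∈ X, h v = 0) ∧ ∀ v ∈ Ex s t l h, v ∈ N then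
        W (grd s t) J h * f h else 0 := by
    intro f C hf
    refine Summable.of_norm_bounded (summable_ZZ hc hJ hX ρ hf) fun h => ?_
    rw [Real.norm_eq_abs]
    by_cases h2 : ∀ v ∈ X, h v = 0
    · rw [if_pos h2]
      split_ifs
      · exact le_rfl
      · rw [abs_zero]; exact abs_nonneg _
    · rw [if_neg h2, if_neg (fun h3 => h2 h3.1)]
  unfold ZE
  rw [← (key hf).tsum_sub (key hg)]
  refine tsum_congr fun h => ?_
  split_ifs <;> ring

/-- **Cosines**: `P(E) E_{X ∪ range l}[cos] ≤ E_X[cos ; E]`. -/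
theorem cos_cut (hc : Conn s t) {J : E → ℝ} (hJ : ∀ e, 0 ≤ J e) {X N : Set V}
    (hX : X.Nonempty) {ρ : V → ℝ} (hρ : ∀ v ∈ N, ρ v = 0) :
    ZE s t l J X N (fun _ => 1) * ZZ s t J (X ∪ Set.range l) (fun h => Real.cos (li ρ h)) ≤
      ZE s t l J X N (fun h => Real.cos (li ρ h)) *
        ZZ s t J (X ∪ Set.range l) (fun _ => 1) := by
  have hX' : (X ∪ Set.range l).Nonempty := hX.mono Set.subset_union_left
  have h1 := cut_le (l := l) (N := N) hc hJ hX ρ (f := fun h => 1 - Real.cos (li ρ h)) (C := 2)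
    (fun h => by have := Real.cos_le_one (li ρ h); linarith) (one_sub_cos_le ρ)
    (fun h h' hh => by simp only [li_congr hρ hh])
    (fun Y hY => pin_mono_one_sub_cos hc hJ hX' hY ρ)
  rw [ZE_sub_one hc hJ hX N ρ (one_le' ρ) (cos_le' ρ), ZZ_sub hc hJ hX' ρ (one_le' ρ)
    (cos_le' ρ)] at h1
  linarith [h1]

/-- **Second moments**: `E_X[(ρ.h)² ; E] ≤ P(E) E_{X ∪ range l}[(ρ.h)²]`. -/
theorem sq_cut (hc : Conn s t) {J : E → ℝ} (hJ : ∀ e, 0 ≤ J e) {X N : Set V}
    (hX : X.Nonempty) {ρ : V → ℝ} (hρ : ∀ v ∈ N, ρ v = 0) :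
    ZE s t l J X N (fun h => (li ρ h) ^ 2) * ZZ s t J (X ∪ Set.range l) (fun _ => 1) ≤
      ZZ s t J (X ∪ Set.range l) (fun h => (li ρ h) ^ 2) * ZE s t l J X N (fun _ => 1) :=
  cut_le (l := l) (N := N) hc hJ hX ρ (C := 2) (fun h => sq_nonneg _) (sq_le' ρ)
    (fun h h' hh => by simp only [li_congr hρ hh])
    (fun Y hY => pin_mono_sq hc hJ (hX.mono Set.subset_union_left) hY ρ)

/-- the characteristic function of the system pinned on `X ∪ range l`:
`E_{X ∪ range l}[cos] ≤ (E_X[cos] + P_X(Eᶜ)) / P_X(E)` -/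
theorem free_cos (hc : Conn s t) {J : E → ℝ} (hJ : ∀ e, 0 ≤ J e) {X N : Set V}
    (hX : X.Nonempty) {ρ : V → ℝ} (hρ : ∀ v ∈ N, ρ v = 0)
    (hE : 0 < ZE s t l J X N (fun _ => 1)) :
    ZZ s t J (X ∪ Set.range l) (fun h => Real.cos (li ρ h)) /
        ZZ s t J (X ∪ Set.range l) (fun _ => 1) ≤
      (ZZ s t J X (fun h => Real.cos (li ρ h)) +
        (ZZ s t J X (fun _ => 1) - ZE s t l J X N (fun _ => 1))) /
        ZE s t l J X N (fun _ => 1) := by
  have hX' : (X ∪ Set.range l).Nonempty := hX.mono Set.subset_union_left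
  have p1 := ZZ_pos (s := s) (t := t) hc hJ hX'
  have h1 := cos_cut (l := l) hc hJ hX hρ
  have h2 : ZE s t l J X N (fun h => Real.cos (li ρ h)) ≤ ZZ s t J X (fun h => Real.cos (li ρ h)) +
      (ZZ s t J X (fun _ => 1) - ZE s t l J X N (fun _ => 1)) := by
    have h3 := ZE_le (l := l) hc hJ hX N ρ (f := fun h => 1 + Real.cos (li ρ h)) (C := 2)
      (fun h => by have := Real.neg_one_le_cos (li ρ h); linarith) (fun h => by
        have h4 := Real.abs_cos_le_one (li ρ h)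
        have h5 : 1 ≤ Real.exp |li ρ h| := Real.one_le_exp (abs_nonneg _)
        rw [abs_le] at h4 ⊢
        constructor <;> linarith)
    have e1 : ZE s t l J X N (fun h => 1 + Real.cos (li ρ h)) =
        ZE s t l J X N (fun _ => 1) + ZE s t l J X N (fun h => Real.cos (li ρ h)) := by
      have := ZE_sub_one (l := l) hc hJ hX N ρ (f := fun h => 1 + Real.cos (li ρ h)) (C := 2)
        (g := fun h => Real.cos (li ρ h)) (C' := 1) (fun h => by
        have h4 := Real.abs_cos_le_one (li ρ h)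
        have h5 : 1 ≤ Real.exp |li ρ h| := Real.one_le_exp (abs_nonneg _)
        rw [abs_le] at h4 ⊢
        constructor <;> linarith) (cos_le' ρ)
      simp only [add_sub_cancel_right] at this
      linarith
    have e2 : ZZ s t J X (fun h => 1 + Real.cos (li ρ h)) =
        ZZ s t J X (fun _ => 1) + ZZ s t J X (fun h => Real.cos (li ρ h)) := by
      have := ZZ_sub hc hJ hX ρ (f := fun h => 1 + Real.cos (li ρ h)) (C := 2)
        (g := fun h => Real.cos (li ρ h)) (C' := 1) (fun h => by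
        have h4 := Real.abs_cos_le_one (li ρ h)
        have h5 : 1 ≤ Real.exp |li ρ h| := Real.one_le_exp (abs_nonneg _)
        rw [abs_le] at h4 ⊢
        constructor <;> linarith) (cos_le' ρ)
      simp only [add_sub_cancel_right] at this
      linarith
    rw [e1, e2] at h3
    linarith
  rw [div_le_div_iff₀ p1 hE]
  calc _ = ZE s t l J X N (fun _ => 1) *
        ZZ s t J (X ∪ Set.range l) (fun h => Real.cos (li ρ h)) := by ring
    _ ≤ _ := h1
    _ ≤ _ := mul_le_mul_of_nonneg_right h2 p1.le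

end cut

end Vale.Agent.P159.T1.H910
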