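import Vale.Agent.P159.T1.D.Defs

/-!
The rectangle with one wired side.
-/

namespace Vale.Agent.P159.T1.H910.R

open Vale.Agent.P159 Vale.Agent.P159.H353 Vale.Agent.P159.T1.D

/-- the faces of the rectangle -/
noncomputable def rc (w T : ℕ) : Finset Z2 := Finset.Ico (0 : ℤ) w ×ˢ Finset.Ico (0 : ℤ) T

lemma mem_rc {w T : ℕ} {f : Z2} : f ∈ rc w T ↔ (0 ≤ f.1 ∧ f.1 < w) ∧ 0 ≤ f.2 ∧ f.2 < T := by
  unfold rc
  rw [Finset.mem_product, Finset.mem_Ico, Finset.mem_Ico]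

/-- all the bonds of the rectangle, except the upper sides of the last row -/
noncomputable def S1 (w T : ℕ) : Finset Bnd := (bd (rc w T)).filter fun e => ¬ (e.2 = false ∧ e.1.2 = (T : ℤ))

/-- the couplings: `c` on the three sides, `b` inside -/
noncomputable def J1 (b c : ℝ) (w : ℕ) (e : Bnd) : ℝ :=
  if (e.2 = true ∧ (e.1.1 = 0 ∨ e.1.1 = (w : ℤ))) ∨ (e.2 = false ∧ e.1.2 = 0) then c else b

lemma J1_nonneg {b c : ℝ} (hb : 0 ≤ b) (hc : 0 ≤ c) (w : ℕ) (e : Bnd) : 0 ≤ J1 b c w e := by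
  unfold J1
  split_ifs
  · exact hc
  · exact hb

lemma J1_le {b c : ℝ} (hcb : c ≤ b) (w : ℕ) (e : Bnd) : J1 b c w e ≤ b := by
  unfold J1
  split_ifs
  · exact hcb
  · exact le_rfl

lemma le_J1 {b c : ℝ} (hcb : c ≤ b) (w : ℕ) (e : Bnd) : c ≤ J1 b c w e := by
  unfold J1
  split_ifs
  · exact le_rfl
  · exact hcb

end Vale.Agent.P159.T1.H910.R
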