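import Vale.Agent.P159.T1.H910.PinMono

/-!
The cost of a tilt for a cut at height `0` (P159, plan 108 (4.5), plan 110 (e)): if the clusters
of `{h ≠ 0}` of the set `range l` stay in `N`, and the charge `ρ` vanishes on `N`, then

  `P(E) E_{X'}[exp(ρ.h)] ≤ E[exp(ρ.h) ; E]`

for every set `X'` of pinned vertices which contains `P`, `range l`, `N` and the neighbours of `N`.
-/

open MeasureTheory Filter Topology

namespace Vale.Agent.P159.T1.H910

open Vale.Agent.P159 Vale.Agent.P159.H353 Vale.Agent.P159.R2.H254 Vale.Agent.P159.R2.H729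
  Vale.Agent.P159.T1.H934

section cut

variable {V E A : Type} [Fintype V] [Fintype E] {s t : E → V} {l : A → V}

open Classical in
/-- the sum over the heights with explored set `S` -/
noncomputable def TS (s t : E → V) (l : A → V) (J : E → ℝ) (X : Set V) (S : Finset V)
    (f : (V → ℤ) → ℝ) : ℝ :=
  ∑' h : V → ℤ, if Ex s t l h = S then (if ∀ v ∈ X, h v = 0 then W (grd s t) J h * f h else 0)
    else 0

open Classical in
/-- the sum over the heights whose explored set is contained in `N` -/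
noncomputable def ZE (s t : E → V) (l : A → V) (J : E → ℝ) (X N : Set V)
    (f : (V → ℤ) → ℝ) : ℝ :=
  ∑' h : V → ℤ, if (∀ v ∈ X, h v = 0) ∧ ∀ v ∈ Ex s t l h, v ∈ N then W (grd s t) J h * f h else 0

/-- the explored set, its outer boundary and `X` -/
def XS (s t : E → V) (l : A → V) (X : Set V) (S : Finset V) : Set V :=
  {v | v ∈ X ∨ v ∈ S ∨ Bd s t l S v}

open Classical in
lemma summable_TS (hc : Conn s t) {J : E → ℝ} (hJ : ∀ e, 0 ≤ J e) {X : Set V} (hX : X.Nonempty)
    (S : Finset V) (ρ : V → ℝ) {f : (V → ℤ) → ℝ} {C : ℝ} (hf : ∀ h, |f h| ≤ C * Real.exp |li ρ h|) :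
    Summable fun h : V → ℤ => if Ex s t l h = S then
      (if ∀ v ∈ X, h v = 0 then W (grd s t) J h * f h else 0) else 0 := by
  have h1 := summable_ZZ hc hJ hX ρ hf
  refine Summable.of_norm_bounded h1 fun h => ?_
  rw [Real.norm_eq_abs]
  split_ifs
  · exact le_rfl
  · exact le_rfl
  · rw [abs_zero]; exact abs_nonneg _
  · exact le_rfl

open Classical in
/-- domain Markov property -/
lemma TS_eq (hc : Conn s t) {J : E → ℝ} (hJ : ∀ e, 0 ≤ J e) {X : Set V} (hX : X.Nonempty)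
    {S : Finset V} (hS : LC s t l S) (hXS : ∀ v ∈ X, v ∉ S) (ρ : V → ℝ) {f : (V → ℤ) → ℝ} {C : ℝ}
    (hf0 : ∀ h, 0 ≤ f h) (hf : ∀ h, |f h| ≤ C * Real.exp |li ρ h|)
    (hfS : ∀ h h' : V → ℤ, (∀ v, v ∉ S → h v = h' v) → f h = f h') :
    TS s t l J X S f = ((W (grd s t) J 0)⁻¹ * ∑' h, US s t J S h) *
      ZZ s t J (XS s t l X S) f := by
  obtain ⟨x, hx⟩ := hX
  set G : (V → ℤ) → ℝ := fun h => if ∀ v ∈ X, h v = 0 then f h else 0 with hG
  have hXX : (XS s t l X S).Nonempty := ⟨x, Or.inl hx⟩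
  have e0 : ∀ h : V → ℤ, (if (∀ v ∈ S, h v = 0) ∧ ∀ v, Bd s t l S v → h v = 0 then
      W (grd s t) J h * G h else 0) =
      if ∀ v ∈ XS s t l X S, h v = 0 then W (grd s t) J h * f h else 0 := by
    intro h
    have h1 : (∀ v ∈ XS s t l X S, h v = 0) ↔
        (∀ v ∈ X, h v = 0) ∧ (∀ v ∈ S, h v = 0) ∧ ∀ v, Bd s t l S v → h v = 0 := by
      constructor
      · intro h2
        exact ⟨fun v hv => h2 v (Or.inl hv), fun v hv => h2 v (Or.inr (Or.inl hv)),
          fun v hv => h2 v (Or.inr (Or.inr hv))⟩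
      · rintro ⟨h2, h3, h4⟩ v (hv | hv | hv)
        · exact h2 v hv
        · exact h3 v hv
        · exact h4 v hv
    simp only [hG]
    by_cases h2 : ∀ v ∈ X, h v = 0
    · by_cases h3 : (∀ v ∈ S, h v = 0) ∧ ∀ v, Bd s t l S v → h v = 0
      · rw [if_pos h3, if_pos h2, if_pos (h1.2 ⟨h2, h3⟩)]
      · rw [if_neg h3, if_neg (fun h4 => h3 (h1.1 h4).2)]
    · rw [if_neg h2, mul_zero, if_neg (fun h3 => h2 (h1.1 h3).1)]
      split_ifs <;> rfl
  have hU : Summable fun h => US s t J S h * (fun _ : V → ℤ => (1 : ℝ)) h := by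
    simp only [mul_one]
    exact summable_US hc hJ (hXS x hx)
  have hV : Summable fun h : V → ℤ => if (∀ v ∈ S, h v = 0) ∧ ∀ v, Bd s t l S v → h v = 0 then
      W (grd s t) J h * G h else 0 :=
    (summable_ZZ hc hJ hXX ρ hf).of_abs.congr fun h => (e0 h).symm
  have hm := markovF hJ hS (F := fun _ => 1) (G := G) (fun _ => zero_le_one) (fun h => by
      simp only [hG]
      split_ifs
      · exact hf0 h
      · exact le_rfl) (fun _ _ _ => rfl) (fun h h' hh => by
      simp only [hG]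
      have h1 : (∀ v ∈ X, h v = 0) ↔ ∀ v ∈ X, h' v = 0 := by
        constructor
        · intro h2 v hv; rw [← hh v (hXS v hv)]; exact h2 v hv
        · intro h2 v hv; rw [hh v (hXS v hv)]; exact h2 v hv
      simp only [h1, hfS h h' hh]) hU hV
  unfold TS
  have e1 : ∀ h : V → ℤ, (if Ex s t l h = S then
      (if ∀ v ∈ X, h v = 0 then W (grd s t) J h * f h else 0) else 0) =
      if Ex s t l h = S then W (grd s t) J h * (1 * G h) else 0 := by
    intro h
    simp only [hG, one_mul, mul_ite, mul_zero]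
  rw [tsum_congr e1, hm.tsum_eq]
  unfold ZZ
  rw [tsum_congr e0]
  simp only [mul_one]
  ring

/-- no configuration has an explored set which is not reached or meets the pinned set -/
lemma TS_zero {J : E → ℝ} {X : Set V} {S : Finset V}
    (hS : ¬ (LC s t l S ∧ ∀ v ∈ X, v ∉ S)) (f : (V → ℤ) → ℝ) : TS s t l J X S f = 0 := by
  classical
  unfold TS
  refine (tsum_congr fun h => ?_).trans tsum_zero
  split_ifs with h1 h2
  · exfalso
    apply hS
    subst h1
    refine ⟨LC_Ex h, fun v hv hE => ?_⟩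
    exact ((Ex_eq_iff (LC_Ex h)).1 rfl).1 v hE (h2 v hv)
  · rfl
  · rfl

/-- the sum over the explored sets -/
lemma ZE_eq (hc : Conn s t) {J : E → ℝ} (hJ : ∀ e, 0 ≤ J e) {X : Set V} (hX : X.Nonempty)
    (N : Set V) (ρ : V → ℝ) {f : (V → ℤ) → ℝ} {C : ℝ} (hf : ∀ h, |f h| ≤ C * Real.exp |li ρ h|) :
    ZE s t l J X N f = ∑ S : Finset V, (open Classical in if ∀ v ∈ S, v ∈ N then
      TS s t l J X S f else 0) := by
  classical
  have h1 : HasSum (fun h : V → ℤ => ∑ S : Finset V, if ∀ v ∈ S, v ∈ N then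
      (if Ex s t l h = S then (if ∀ v ∈ X, h v = 0 then W (grd s t) J h * f h else 0)
        else 0) else 0)
      (∑ S : Finset V, if ∀ v ∈ S, v ∈ N then TS s t l J X S f else 0) := by
    refine hasSum_sum fun S _ => ?_
    split_ifs with hS
    · exact (summable_TS hc hJ hX S ρ hf).hasSum
    · exact hasSum_zero
  unfold ZE
  rw [← h1.tsum_eq]
  refine tsum_congr fun h => ?_
  rw [Finset.sum_eq_single (Ex s t l h)]
  · rw [if_pos rfl]
    by_cases h2 : ∀ v ∈ X, h v = 0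
    · by_cases h3 : ∀ v ∈ Ex s t l h, v ∈ N
      · rw [if_pos ⟨h2, h3⟩, if_pos h3, if_pos h2]
      · rw [if_neg (fun h4 => h3 h4.2), if_neg h3]
    · rw [if_neg (fun h4 => h2 h4.1)]
      split_ifs <;> rfl
  · intro S _ hne
    have hne' : ¬ Ex s t l h = S := fun h2 => hne h2.symm
    simp only [hne', if_false, ite_self]
  · intro h2
    exact absurd (Finset.mem_univ _) h2

/-- **The cost of a tilt for a cut at height `0`.** -/
theorem cut_tilt (hc : Conn s t) {J : E → ℝ} (hJ : ∀ e, 0 ≤ J e) {X X' N : Set V}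
    (hX : X.Nonempty) (h1 : X ⊆ X') (h2 : N ⊆ X') (h3 : Set.range l ⊆ X')
    (h4 : ∀ u ∈ N, ∀ v, adjG s t u v → v ∈ X') {ρ : V → ℝ} (hρ : ∀ v ∈ N, ρ v = 0) :
    ZE s t l J X N (fun _ => 1) * ZZ s t J X' (fun h => Real.exp (li ρ h)) ≤
      ZE s t l J X N (fun h => Real.exp (li ρ h)) * ZZ s t J X' (fun _ => 1) := by
  classical
  rw [ZE_eq hc hJ hX N ρ (one_le' ρ), ZE_eq hc hJ hX N ρ (exp_le' ρ), Finset.sum_mul,
    Finset.sum_mul]
  refine Finset.sum_le_sum fun S _ => ?_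
  by_cases hSN : ∀ v ∈ S, v ∈ N
  · rw [if_pos hSN, if_pos hSN]
    by_cases hS : LC s t l S ∧ ∀ v ∈ X, v ∉ S
    · have hsub : XS s t l X S ⊆ X' := by
        rintro v (hv | hv | ⟨_, hv | ⟨u, hu, huv⟩⟩)
        · exact h1 hv
        · exact h2 (hSN v hv)
        · exact h3 hv
        · exact h4 u (hSN u hu) v huv
      have hne : (XS s t l X S).Nonempty := hX.mono fun v hv => Or.inl hv
      have hp := pin_mono hc hJ hne hsub ρ
      rw [TS_eq hc hJ hX hS.1 hS.2 ρ (fun _ => zero_le_one) (one_le' ρ) (fun _ _ _ => rfl),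
        TS_eq hc hJ hX hS.1 hS.2 ρ (fun _ => (Real.exp_pos _).le) (exp_le' ρ) (fun h h' hh => by
          congr 1
          unfold li
          refine Finset.sum_congr rfl fun v _ => ?_
          by_cases hv : v ∈ S
          · rw [hρ v (hSN v hv), zero_mul, zero_mul]
          · rw [hh v hv])]
      have hU : 0 ≤ (W (grd s t) J 0)⁻¹ * ∑' h, US s t J S h :=
        mul_nonneg (inv_nonneg.2 (W_nonneg hJ _)) (tsum_nonneg fun h => US_nonneg hJ S h)
      have h5 := mul_le_mul_of_nonneg_left hp hU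
      linarith
    · rw [TS_zero hS, TS_zero hS, zero_mul, zero_mul]
  · rw [if_neg hSN, if_neg hSN, zero_mul, zero_mul]

/-- the same with quotients: `P^ρ(E) ≥ P(E) E_{X'}[exp(ρ.h)] / E_X[exp(ρ.h)]` -/
theorem cut_tilt_div (hc : Conn s t) {J : E → ℝ} (hJ : ∀ e, 0 ≤ J e) {X X' N : Set V}
    (hX : X.Nonempty) (h1 : X ⊆ X') (h2 : N ⊆ X') (h3 : Set.range l ⊆ X')
    (h4 : ∀ u ∈ N, ∀ v, adjG s t u v → v ∈ X') {ρ : V → ℝ} (hρ : ∀ v ∈ N, ρ v = 0) :
    (ZE s t l J X N (fun _ => 1) / ZZ s t J X (fun _ => 1)) *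
      ((ZZ s t J X' (fun h => Real.exp (li ρ h)) / ZZ s t J X' (fun _ => 1)) /
        (ZZ s t J X (fun h => Real.exp (li ρ h)) / ZZ s t J X (fun _ => 1))) ≤
      ZE s t l J X N (fun h => Real.exp (li ρ h)) / ZZ s t J X (fun h => Real.exp (li ρ h)) := by
  have p0 := ZZ_pos (s := s) (t := t) hc hJ hX
  have p1 := ZZ_pos (s := s) (t := t) hc hJ (hX.mono h1)
  have p2 : 0 < ZZ s t J X (fun h => Real.exp (li ρ h)) := by
    classical
    have h5 := (summable_ZZ hc hJ hX ρ (exp_le' ρ)).of_abs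
    refine h5.tsum_pos (fun h => ?_) 0 ?_
    · split_ifs
      · exact mul_nonneg (W_nonneg hJ _) (Real.exp_pos _).le
      · exact le_rfl
    · rw [if_pos (fun v _ => by simp)]
      exact mul_pos (W0_pos hJ) (Real.exp_pos _)
  have key := cut_tilt (l := l) hc hJ hX h1 h2 h3 h4 hρ
  rw [div_div_div_eq, div_mul_div_comm, div_le_div_iff₀ (by positivity) p2]
  have h6 := mul_le_mul_of_nonneg_right key (mul_nonneg p0.le p2.le)
  calc _ = ZE s t l J X N (fun _ => 1) * ZZ s t J X' (fun h => Real.exp (li ρ h)) *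
        (ZZ s t J X (fun _ => 1) * ZZ s t J X (fun h => Real.exp (li ρ h))) := by ring
    _ ≤ _ := h6
    _ = _ := by ring

end cut

end Vale.Agent.P159.T1.H910
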