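import Vale.Agent.P159.T1.H910.Far
import Vale.Agent.P159.T1.H112.FarLim
import Vale.Agent.P159.T1.H112.MS
import Vale.Agent.P159.R2.H729.Grid

/-!
The graph of a finite set of faces with two feet (left: outer faces with negative first coordinate).
-/

open MeasureTheory Filter Topology

namespace Vale.Agent.P159.T1.H910

open Vale.Agent.P159 Vale.Agent.P159.H353 Vale.Agent.P159.R2.H254 Vale.Agent.P159.R2.H729
  Vale.Agent.P159.T1.H934 Vale.Agent.P159.T1.D

/-- the vertices: the faces of `U`, the left foot `false` and the right foot `true` -/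
abbrev TV (U : Finset Z2) : Type := {f : Z2 // f ∈ U} ⊕ Bool

/-- the vertex of a face -/
def tv (U : Finset Z2) (f : Z2) : TV U :=
  if hf : f ∈ U then Sum.inl ⟨f, hf⟩ else Sum.inr (decide (0 ≤ f.1))

/-- first end point -/
def ts (S : Finset Bnd) (U : Finset Z2) (e : {e : Bnd // e ∈ S}) : TV U := tv U (D.rt e.1)

/-- second end point -/
def tt (S : Finset Bnd) (U : Finset Z2) (e : {e : Bnd // e ∈ S}) : TV U := tv U (D.lf e.1)

lemma tv_mem {U : Finset Z2} {f : Z2} (hf : f ∈ U) : tv U f = Sum.inl ⟨f, hf⟩ := dif_pos hf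

lemma tv_not {U : Finset Z2} {f : Z2} (hf : f ∉ U) : tv U f = Sum.inr (decide (0 ≤ f.1)) :=
  dif_neg hf

lemma tv_val {U : Finset Z2} (f : {f : Z2 // f ∈ U}) : tv U f.1 = Sum.inl f := tv_mem f.2

/-- the pinned vertices: all except the faces of `U'` -/
def pinT (U U' : Finset Z2) : Set (TV U) := {v | ∀ f ∈ U', v ≠ tv U f}

lemma inr_pinT {U U' : Finset Z2} (hU : U' ⊆ U) (c : Bool) : Sum.inr c ∈ pinT U U' :=
  fun f hf => by
    rw [tv_mem (hU hf)]
    exact fun h => by cases h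

/-- heights on the graph as heights on the plane -/
def extT (U : Finset Z2) (h : TV U → ℤ) : Z2 → ℤ := fun f => h (tv U f)

/-- heights on the plane as heights on the graph -/
def resT (U : Finset Z2) (h : Z2 → ℤ) : TV U → ℤ := fun v => v.elim (fun f => h f.1) fun _ => 0

lemma extT_resT {U : Finset Z2} {h : Z2 → ℤ} (hh : ∀ f, f ∉ U → h f = 0) :
    extT U (resT U h) = h := by
  funext f
  unfold extT resT
  by_cases hf : f ∈ U
  · rw [tv_mem hf]; rfl
  · rw [tv_not hf, hh f hf]; rfl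

lemma resT_extT {U : Finset Z2} {h : TV U → ℤ} (hh : ∀ c, h (Sum.inr c) = 0) :
    resT U (extT U h) = h := by
  funext v
  rcases v with f | c
  · show h (tv U f.1) = _
    rw [tv_val]
  · exact (hh c).symm

lemma extT_mem {U U' : Finset Z2} {h : TV U → ℤ} (hU : U' ⊆ U)
    (hh : ∀ v ∈ pinT U U', h v = 0) : ∀ f, f ∉ U' → extT U h f = 0 := by
  intro f hf
  apply hh
  intro g hg h1
  by_cases h2 : f ∈ U
  · rw [tv_mem h2, tv_mem (hU hg)] at h1
    have : f = g := congrArg Subtype.val (Sum.inl.inj h1)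
    exact hf (this ▸ hg)
  · rw [tv_not h2, tv_mem (hU hg)] at h1
    cases h1

lemma resT_mem {U U' : Finset Z2} {h : Z2 → ℤ} (hh : ∀ f, f ∉ U' → h f = 0) :
    ∀ v ∈ pinT U U', resT U h v = 0 := by
  rintro (f | c) hv
  · show h f.1 = 0
    refine hh _ fun h1 => hv f.1 h1 ?_
    rw [tv_val]
  · rfl

/-- heights on the graph and heights on the plane -/
def eqT {U U' : Finset Z2} (hU : U' ⊆ U) :
    {h : TV U → ℤ // ∀ v ∈ pinT U U', h v = 0} ≃ Ht U' where
  toFun h := ⟨extT U h.1, extT_mem hU h.2⟩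
  invFun h := ⟨resT U h.1, resT_mem h.2⟩
  left_inv h := Subtype.ext (resT_extT fun c => h.2 _ (inr_pinT hU c))
  right_inv h := Subtype.ext (extT_resT fun f hf => h.2 f fun h' => hf (hU h'))

lemma W_extT (J : Bnd → ℝ) (S : Finset Bnd) (U : Finset Z2) (h : TV U → ℤ) :
    W (grd (ts S U) (tt S U)) (fun e => J e.1) h = ∏ e ∈ S, wI (J e) (dh (extT U h) e) := by
  rw [← Finset.prod_coe_sort]
  rfl

/-- **dictionary** -/
theorem ZZ_eq_FT (J : Bnd → ℝ) (S : Finset Bnd) {U U' : Finset Z2} (hU : U' ⊆ U)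
    (F : (Z2 → ℤ) → ℝ) :
    ZZ (ts S U) (tt S U) (fun e => J e.1) (pinT U U') (fun h => F (extT U h)) =
      FF J S U' F := by
  classical
  unfold FF
  rw [← (eqT hU).tsum_eq]
  unfold ZZ
  have h1 : ∀ h : TV U → ℤ, (if ∀ v ∈ pinT U U', h v = 0 then
      W (grd (ts S U) (tt S U)) (fun e => J e.1) h * F (extT U h) else 0) =
      Set.indicator {h : TV U → ℤ | ∀ v ∈ pinT U U', h v = 0}
        (fun h => (∏ e ∈ S, wI (J e) (dh (extT U h) e)) * F (extT U h)) h := by
    intro h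
    by_cases h2 : ∀ v ∈ pinT U U', h v = 0
    · rw [if_pos h2, Set.indicator_of_mem (by exact h2), W_extT]
    · rw [if_neg h2, Set.indicator_of_notMem (by exact h2)]
  rw [tsum_congr h1, ← tsum_subtype]
  rfl

/-- linear functionals -/
def liT (U : Finset Z2) (ρ : Z2 → ℝ) (v : TV U) : ℝ := v.elim (fun f => ρ f.1) fun _ => 0

lemma li_extT {U : Finset Z2} (ρ : Z2 → ℝ) (h : TV U → ℤ) :
    li (liT U ρ) h = ch U ρ (extT U h) := by
  unfold li ch
  rw [Fintype.sum_sum_type, ← Finset.sum_coe_sort U]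
  have : ∑ c : Bool, liT U ρ (Sum.inr c) * ((h (Sum.inr c) : ℤ) : ℝ) = 0 :=
    Finset.sum_eq_zero fun c _ => by
      show (0 : ℝ) * _ = 0
      rw [zero_mul]
  rw [this, add_zero]
  refine Finset.sum_congr rfl fun f _ => ?_
  show ρ f.1 * (h (Sum.inl f) : ℝ) = ρ f.1 * (h (tv U f.1) : ℝ)
  rw [tv_val]

/-- the rectangle `[0, w) × [t, k + n)` -/
noncomputable def rcT (w : ℕ) (t k : ℤ) (n : ℕ) : Finset Z2 :=
  Finset.Ico (0 : ℤ) w ×ˢ Finset.Ico t (k + n)

lemma mem_rcT {w : ℕ} {t k : ℤ} {n : ℕ} {f : Z2} :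
    f ∈ rcT w t k n ↔ (0 ≤ f.1 ∧ f.1 < w) ∧ t ≤ f.2 ∧ f.2 < k + n := by
  unfold rcT
  rw [Finset.mem_product, Finset.mem_Ico, Finset.mem_Ico]

/-- the bonds of a rectangle whose upper side is wired -/
structure TopW (w : ℕ) (t k : ℤ) (n : ℕ) (S : Finset Bnd) : Prop where
  sub : S ⊆ bd (rcT w t k n)
  hor : ∀ e ∈ bd (rcT w t k n), e.2 = true → e ∈ S
  top : ∀ e ∈ S, e.2 = false → e.1.2 < k + n

section geo

variable {w : ℕ} {t k : ℤ} {n : ℕ} {S : Finset Bnd}

lemma walk_left (hT : TopW w t k n S) (P : Set (TV (rcT w t k n))) (m : ℕ) :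
    ∀ f : Z2, f ∈ rcT w t k n → f.1 = m →
      (∀ i : ℤ, 0 ≤ i → i ≤ f.1 → tv (rcT w t k n) (i, f.2) ∈ P) → Sum.inr false ∈ P →
      Relation.ReflTransGen (fun a b => adjG (ts S (rcT w t k n)) (tt S (rcT w t k n)) a b ∧
        a ∈ P ∧ b ∈ P) (Sum.inr false) (tv (rcT w t k n) f) := by
  have step : ∀ f : Z2, f ∈ rcT w t k n → ((f.1, f.2), true) ∈ S := fun f hf =>
    hT.hor _ (mem_bd.2 (Or.inl (by simpa [D.rt] using hf))) rfl
  induction m with
  | zero =>
    intro f hf hf0 hP h0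
    have hf0' : f.1 = 0 := by rw [hf0]; rfl
    have hout : ((f.1 - 1, f.2) : Z2) ∉ rcT w t k n := by
      rw [mem_rcT]
      simp only
      omega
    have h1 : tv (rcT w t k n) (f.1 - 1, f.2) = Sum.inr false := by
      rw [tv_not hout]
      congr 1
      simp only [decide_eq_false_iff_not]
      omega
    refine Relation.ReflTransGen.single ⟨⟨⟨((f.1, f.2), true), step f hf⟩, Or.inr ⟨rfl, h1⟩⟩,
      h0, ?_⟩
    have := hP f.1 (by omega) le_rfl
    exact this
  | succ m ih =>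
    intro f hf hfm hP h0
    have hf' := mem_rcT.1 hf
    have hg : ((f.1 - 1, f.2) : Z2) ∈ rcT w t k n := by
      rw [mem_rcT]
      simp only
      omega
    have h1 := ih (f.1 - 1, f.2) hg (by simp only; omega)
      (fun i hi hi' => hP i hi (by simp only at hi'; omega)) h0
    refine h1.tail ⟨⟨⟨((f.1, f.2), true), step f hf⟩, Or.inr ⟨rfl, rfl⟩⟩, ?_, ?_⟩
    · exact hP (f.1 - 1) (by omega) (by omega)
    · exact hP f.1 (by omega) le_rfl

/-- the deleted faces -/
noncomputable def dlT (w : ℕ) (t k : ℤ) (n : ℕ) : Finset (TV (rcT w t k n)) := by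
  classical
  exact Finset.univ.filter fun v => ∃ f : {f : Z2 // f ∈ rcT w t k n}, v = Sum.inl f ∧ f.1.2 < k

lemma mem_dlT {v : TV (rcT w t k n)} :
    v ∈ dlT w t k n ↔ ∃ f : {f : Z2 // f ∈ rcT w t k n}, v = Sum.inl f ∧ f.1.2 < k := by
  unfold dlT
  simp

lemma inr_dlT (c : Bool) : (Sum.inr c : TV (rcT w t k n)) ∉ dlT w t k n := by
  rw [mem_dlT]
  rintro ⟨f, hf, -⟩
  cases hf

lemma tv_dlT {f : Z2} (hf : f ∈ rcT w t k n) : tv (rcT w t k n) f ∈ dlT w t k n ↔ f.2 < k := by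
  rw [mem_dlT, tv_mem hf]
  constructor
  · rintro ⟨g, hg, h⟩
    rw [← Sum.inl.inj hg] at h
    exact h
  · intro h
    exact ⟨⟨f, hf⟩, rfl, h⟩

/-- the feet -/
def ftT (U : Finset Z2) : Set (TV U) := {v | ∃ c, v = Sum.inr c}

lemma ftT_eq (U : Finset Z2) : ftT U = pinT U U := by
  ext v
  constructor
  · rintro ⟨c, rfl⟩
    exact inr_pinT (Finset.Subset.refl U) c
  · intro hv
    rcases v with f | c
    · exact absurd (tv_val f).symm (hv f.1 f.2)
    · exact ⟨c, rfl⟩

lemma RS_T (hT : TopW w t k n S) (X : Finset (TV (rcT w t k n)))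
    (hX : ∀ c, Sum.inr c ∉ X) (hrow : ∀ f g : Z2, f ∈ rcT w t k n → g ∈ rcT w t k n →
      f.2 = g.2 → tv (rcT w t k n) f ∉ X → tv (rcT w t k n) g ∉ X) :
    H112.RS (ts S (rcT w t k n)) (tt S (rcT w t k n)) (ftT (rcT w t k n)) X := by
  intro v hv
  rcases v with f | c
  · refine ⟨Sum.inr false, ⟨false, rfl⟩, hX false, ?_⟩
    have hf := mem_rcT.1 f.2
    have h1 := walk_left hT {v | v ∉ X} f.1.1.toNat f.1 f.2 (by omega)
      (fun i hi hi' => hrow f.1 (i, f.1.2) f.2 (by
        rw [mem_rcT]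
        simp only
        omega) rfl (by rw [tv_val]; exact hv)) (hX false)
    rw [tv_val] at h1
    exact h1
  · exact ⟨Sum.inr c, ⟨c, rfl⟩, hv, .refl⟩

lemma adjG_symm' {V E : Type} {s t : E → V} {a b : V} (h : adjG s t a b) : adjG s t b a := by
  obtain ⟨e, h | h⟩ := h
  · exact ⟨e, Or.inr h⟩
  · exact ⟨e, Or.inl h⟩

lemma conn_T (hT : TopW w t k n S) (hw : 1 ≤ w) (hn : t < k + n) :
    Conn (ts S (rcT w t k n)) (tt S (rcT w t k n)) := by
  have key : ∀ v : TV (rcT w t k n),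
      Relation.ReflTransGen (adjG (ts S (rcT w t k n)) (tt S (rcT w t k n))) (Sum.inr false) v := by
    have hface : ∀ f : Z2, f ∈ rcT w t k n → Relation.ReflTransGen
        (adjG (ts S (rcT w t k n)) (tt S (rcT w t k n))) (Sum.inr false)
        (tv (rcT w t k n) f) := by
      intro f hf
      have hf' := mem_rcT.1 hf
      exact Relation.ReflTransGen.mono (fun _ _ h => h.1) _ _
        (walk_left hT Set.univ f.1.toNat f hf (by omega) (fun _ _ _ => Set.mem_univ _)
          (Set.mem_univ _))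
    rintro (f | c)
    · rw [← tv_val]
      exact hface f.1 f.2
    · cases c
      · exact .refl
      · have hc : (((w : ℤ) - 1, t) : Z2) ∈ rcT w t k n := by
          rw [mem_rcT]
          simp only
          omega
        refine (hface _ hc).tail ?_
        have he : ((((w : ℤ), t), true) : Bnd) ∈ S :=
          hT.hor _ (mem_bd.2 (Or.inr (by simpa [D.lf] using hc))) rfl
        refine ⟨⟨(((w : ℤ), t), true), he⟩, Or.inr ⟨?_, rfl⟩⟩
        have hout : (((w : ℤ), t) : Z2) ∉ rcT w t k n := by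
          rw [mem_rcT]
          simp only
          omega
        show tv (rcT w t k n) ((w : ℤ), t) = Sum.inr true
        rw [tv_not hout]
        simp
  have symm : ∀ a b : TV (rcT w t k n), Relation.ReflTransGen
      (adjG (ts S (rcT w t k n)) (tt S (rcT w t k n))) a b → Relation.ReflTransGen
      (adjG (ts S (rcT w t k n)) (tt S (rcT w t k n))) b a := by
    intro a b hab
    induction hab with
    | refl => exact .refl
    | tail _ h2 ih => exact Relation.ReflTransGen.head (adjG_symm' h2) ih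
  intro u v
  exact (symm _ _ (key u)).trans (key v)

end geo

end Vale.Agent.P159.T1.H910
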