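import Vale.Agent.P159.T1.H910.Far
import Vale.Agent.P159.T1.H112.SGeo

/-!
The strip with free lateral sides: wired ends and free ends.
-/

open MeasureTheory Filter Topology

namespace Vale.Agent.P159.T1.H910

open Vale.Agent.P159 Vale.Agent.P159.H353 Vale.Agent.P159.R2.H254 Vale.Agent.P159.R2.H729
  Vale.Agent.P159.T1.H934 Vale.Agent.P159.T1.D
open Vale.Agent.P159.T1.H112 (rc mem_rc SR mem_SR)

/-- the inequality for the ends of a strip -/
def StripCore (b : ℝ) : Prop :=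
  ∃ c : ℝ, 0 < c ∧ ∀ J : Bnd → ℝ, (∀ e, 0 ≤ J e) → (∀ e, J e ≤ b) →
    ∀ w T m : ℕ, 1 ≤ w → 1 ≤ m → 2 * m + 2 ≤ T → ∀ ρ : Z2 → ℝ,
      (∀ f, f ∉ rc w m (T - m) → ρ f = 0) →
      (FF J (SR w T) (rc w 0 T) fun h => ch (rc w 0 T) ρ h ^ 2) /
          (FF J (SR w T) (rc w 0 T) fun _ => 1) ≤
        (FF J (SR w T) (rc w 1 (T - 1)) fun h => ch (rc w 0 T) ρ h ^ 2) /
            (FF J (SR w T) (rc w 1 (T - 1)) fun _ => 1) +
          √((FF J (SR w T) (rc w 0 T) fun h => ch (rc w 0 T) ρ h ^ 4) /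
            (FF J (SR w T) (rc w 0 T) fun _ => 1) * (4 * Real.exp (-(c * m / w)))) +
          √((FF J (SR w T) (rc w 0 (T - 1)) fun h => ch (rc w 0 T) ρ h ^ 4) /
            (FF J (SR w T) (rc w 0 (T - 1)) fun _ => 1) * (4 * Real.exp (-(c * m / w))))

lemma rc_mono {w p q p' q' : ℕ} (hp : p' ≤ p) (hq : q ≤ q') : rc w p q ⊆ rc w p' q' := by
  intro f hf
  rw [mem_rc] at hf ⊢
  omega

lemma SR_side {w T p q : ℕ} (hq : q ≤ T) : ∀ f ∈ rc w p q, (f, true) ∈ SR w T := fun f hf => by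
  rw [mem_rc] at hf
  rw [mem_SR]
  left
  simp only [true_and]
  omega

lemma bd_SR {w T : ℕ} : bd (rc w 1 (T - 1)) ⊆ SR w T := by
  rintro ⟨⟨i, j⟩, d⟩ he
  rw [mem_bd, mem_rc, mem_rc] at he
  rw [mem_SR]
  cases d
  · simp only [D.rt, D.lf, Bool.false_eq_true, if_false] at he ⊢
    right
    simp only [true_and]
    omega
  · simp only [D.rt, D.lf, if_true] at he ⊢
    left
    simp only [true_and]
    omega

/-- the charges of a gradient field are supported near the field -/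
lemma dS_dr_strip {w T m : ℕ} {g : Z2 → ℝ} (hm : 1 ≤ m) (hg : ∀ f, f ∉ rc w m (T - m) → g f = 0)
    {f : Z2} (hf : f ∉ rc w (m - 1) (T - (m - 1))) (h0 : f ∈ rc w 0 T) :
    dS (SR w T) (dr g) f = 0 := by
  unfold dS
  refine Finset.sum_eq_zero fun e _ => ?_
  obtain ⟨i, j⟩ := f
  rw [mem_rc] at hf h0
  simp only at hf h0
  have far : ∀ k l : ℤ, (j - 1 ≤ l ∧ l ≤ j + 1) → g (k, l) = 0 := by
    intro k l h1
    apply hg
    rw [mem_rc]
    simp only
    omega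
  obtain ⟨⟨k, l⟩, d⟩ := e
  by_cases h1 : D.lf ((k, l), d) = (i, j)
  · have h2 : dr g ((k, l), d) = 0 := by
      unfold dr
      rw [h1, far i j ⟨by omega, by omega⟩]
      cases d
      · simp only [D.lf, D.rt, Bool.false_eq_true, if_false, Prod.mk.injEq] at h1 ⊢
        rw [far _ _ ⟨by omega, by omega⟩, sub_zero]
      · simp only [D.lf, D.rt, if_true, Prod.mk.injEq] at h1 ⊢
        rw [far _ _ ⟨by omega, by omega⟩, sub_zero]
    rw [h2, zero_mul]
  · by_cases h2 : D.rt ((k, l), d) = (i, j)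
    · have h3 : dr g ((k, l), d) = 0 := by
        unfold dr
        rw [h2, far i j ⟨by omega, by omega⟩]
        cases d
        · simp only [D.lf, D.rt, Bool.false_eq_true, if_false, Prod.mk.injEq] at h2 ⊢
          rw [far _ _ ⟨by omega, by omega⟩, sub_zero]
        · simp only [D.lf, D.rt, if_true, Prod.mk.injEq] at h2 ⊢
          rw [far _ _ ⟨by omega, by omega⟩, sub_zero]
      rw [h3, zero_mul]
    · rw [if_neg h1, if_neg h2, sub_zero, mul_zero]

/-- the fourth moment term -/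
lemma sqrt_term {M A j b X : ℝ} (hb : 0 ≤ b) (hj : 0 < j) (hA : 0 ≤ A) (hX : 0 ≤ X)
    (hM : M ≤ 144 * (b * A) ^ 2 / j ^ 2) :
    √(M * (4 * X ^ 2)) ≤ 24 * b / j * A * X := by
  have h1 : M * (4 * X ^ 2) ≤ (24 * b / j * A * X) ^ 2 := by
    have h2 := mul_le_mul_of_nonneg_right hM (show 0 ≤ 4 * X ^ 2 by positivity)
    refine h2.trans (le_of_eq ?_)
    ring
  refine (Real.sqrt_le_sqrt h1).trans (le_of_eq ?_)
  exact Real.sqrt_sq (by positivity)

/-- **free ends** -/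
theorem strip_le {b j0 : ℝ} (hb : 0 < b) (hj0 : 0 < j0) (hF : StripCore b) :
    ∃ C c : ℝ, 0 < C ∧ 0 < c ∧ ∀ J : Bnd → ℝ, (∀ e, 0 ≤ J e) → (∀ e, J e ≤ b) →
      ∀ w T m : ℕ, 1 ≤ w → 2 ≤ m → 2 * m + 2 ≤ T → (∀ e ∈ SR w T, j0 ≤ J e) → ∀ g : Z2 → ℝ,
        (∀ f, f ∉ rc w m (T - m) → g f = 0) →
        (FF J (SR w T) (rc w 0 T) fun h => (prS (SR w T) (dr g) h) ^ 2) /
            (FF J (SR w T) (rc w 0 T) fun _ => 1) ≤
          Vr b (rc w 0 T) (dr g) +
            C * (∑ e ∈ SR w T, dr g e ^ 2) * Real.exp (-(c * m / w)) := by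
  obtain ⟨c, hc, hmain⟩ := hF
  set j : ℝ := min j0 1 with hj
  have hjp : 0 < j := lt_min hj0 one_pos
  refine ⟨48 * b / j * Real.exp (c / 2), c / 2, by positivity, by positivity, ?_⟩
  intro J hJ hJb w T m hw hm hT hjJ g hg
  have hw0 : (0 : ℝ) < w := by exact_mod_cast hw
  have hw1 : (1 : ℝ) ≤ w := by exact_mod_cast hw
  set S := SR w T with hS
  set A : ℝ := ∑ e ∈ S, dr g e ^ 2 with hA
  have hA0 : 0 ≤ A := Finset.sum_nonneg fun e _ => sq_nonneg _
  rcases hA0.eq_or_lt with h0 | hApos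
  · have h1 : ∀ e ∈ S, dr g e = 0 := by
      intro e he
      have := (Finset.sum_eq_zero_iff_of_nonneg fun e _ => sq_nonneg (dr g e)).1
        (hA ▸ h0.symm) e he
      exact pow_eq_zero_iff (two_ne_zero) |>.1 this
    have h2 : ∀ h : Z2 → ℤ, prS S (dr g) h = 0 := fun h =>
      Finset.sum_eq_zero fun e he => by rw [h1 e he, zero_mul]
    have h3 : (FF J S (rc w 0 T) fun h => (prS S (dr g) h) ^ 2) = 0 := by
      unfold FF
      simp [h2]
    rw [h3, zero_div, ← h0]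
    simpa using Vr_nonneg hb.le (rc w 0 T) (dr g)
  classical
  set ρ : Z2 → ℝ := fun f => if f ∈ rc w (m - 1) (T - (m - 1)) then dS S (dr g) f else 0 with hρ
  have hch : ∀ U' : Finset Z2, U' ⊆ rc w 0 T → ∀ h : Ht U', ch (rc w 0 T) ρ h.1 =
      prS S (dr g) h.1 := by
    intro U' hU' h
    have h1 : ∀ f, f ∉ rc w 0 T → h.1 f = 0 := fun f hf => h.2 f fun hf' => hf (hU' hf')
    rw [show prS S (dr g) h.1 = ch (rc w 0 T) (dS S (dr g)) h.1 from sum_dh S (dr g) h1]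
    refine ch_congr (fun f hf => ?_) _
    simp only [hρ]
    split_ifs with hf'
    · rfl
    · exact (dS_dr_strip (by omega) hg hf' hf).symm
  have h1 := hmain J hJ hJb w T (m - 1) hw (by omega) (by omega) ρ
    fun f hf => by simp only [hρ]; rw [if_neg hf]
  have t0 : rc w 1 (T - 1) ⊆ rc w 0 T := rc_mono (by omega) (by omega)
  have t1 : rc w 0 (T - 1) ⊆ rc w 0 T := rc_mono le_rfl (by omega)
  rw [FF_congr (F := fun h => ch (rc w 0 T) ρ h ^ 2) (G := fun h => (prS S (dr g) h) ^ 2)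
      fun h : Ht (rc w 0 T) => by rw [hch _ (Finset.Subset.refl _) h],
    FF_congr (F := fun h => ch (rc w 0 T) ρ h ^ 4) (G := fun h => (prS S (dr g) h) ^ 4)
      fun h : Ht (rc w 0 T) => by rw [hch _ (Finset.Subset.refl _) h],
    FF_congr (F := fun h => ch (rc w 0 T) ρ h ^ 4) (G := fun h => (prS S (dr g) h) ^ 4)
      fun h : Ht (rc w 0 (T - 1)) => by rw [hch _ t1 h],
    FF_congr (F := fun h => ch (rc w 0 T) ρ h ^ 2)
      (G := fun h => (ch (rc w 1 (T - 1)) (dv (dr g)) h) ^ 2)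
      fun h : Ht (rc w 1 (T - 1)) => by
        rw [hch _ t0 h, prS_bd bd_SR, pr_eq_ch _ h.2]] at h1
  have h2 : (FF J S (rc w 1 (T - 1)) fun h => (ch (rc w 1 (T - 1)) (dv (dr g)) h) ^ 2) /
      (FF J S (rc w 1 (T - 1)) fun _ => 1) ≤ Vr b (rc w 0 T) (dr g) := by
    rw [FF_ratio hJ bd_SR]
    refine le_trans ?_ (Vr_mono hb.le t0 (dr g))
    rw [Vr_eq]
    exact FF_mono_sq hJ hJb bd_side (Finset.Subset.refl _) _
  have hB : ∑ e ∈ S, J e * dr g e ^ 2 ≤ b * A := by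
    rw [hA, Finset.mul_sum]
    exact Finset.sum_le_sum fun e _ => mul_le_mul_of_nonneg_right (hJb e) (sq_nonneg _)
  have h3 : (FF J S (rc w 0 T) fun h => (prS S (dr g) h) ^ 4) /
      (FF J S (rc w 0 T) fun _ => 1) ≤ 144 * (b * A) ^ 2 / j ^ 2 :=
    FF_four hJ (SR_side le_rfl) hjp (min_le_right _ _)
      (fun e he => (min_le_left _ _).trans (hjJ e he)) (mul_pos hb hApos) hB
  have h4 : (FF J S (rc w 0 (T - 1)) fun h => (prS S (dr g) h) ^ 4) /
      (FF J S (rc w 0 (T - 1)) fun _ => 1) ≤ 144 * (b * A) ^ 2 / j ^ 2 :=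
    FF_four hJ (SR_side (by omega)) hjp (min_le_right _ _)
      (fun e he => (min_le_left _ _).trans (hjJ e he)) (mul_pos hb hApos) hB
  set X : ℝ := Real.exp (-(c / 2 * ((m - 1 : ℕ) : ℝ) / w)) with hX
  have hX0 : 0 ≤ X := (Real.exp_pos _).le
  have hX2 : Real.exp (-(c * ((m - 1 : ℕ) : ℝ) / w)) = X ^ 2 := by
    rw [hX, ← Real.exp_nat_mul]
    congr 1
    push_cast
    ring
  rw [hX2] at h1
  have h5 := sqrt_term hb.le hjp hA0 hX0 h3
  have h6 := sqrt_term hb.le hjp hA0 hX0 h4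
  have h7 : X ≤ Real.exp (c / 2) * Real.exp (-(c / 2 * m / w)) := by
    rw [hX, ← Real.exp_add]
    apply Real.exp_le_exp.2
    have e1 : ((m - 1 : ℕ) : ℝ) = m - 1 := by
      rw [Nat.cast_sub (by omega)]
      simp
    rw [e1]
    have e2 : c / 2 * ((m : ℝ) - 1) / w = c / 2 * m / w - c / 2 * (1 / w) := by ring
    rw [e2]
    have e3 : c / 2 * (1 / (w : ℝ)) ≤ c / 2 * 1 :=
      mul_le_mul_of_nonneg_left ((div_le_one hw0).2 hw1) (by positivity)
    linarith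
  have h8 : 48 * b / j * A * X ≤
      48 * b / j * Real.exp (c / 2) * A * Real.exp (-(c / 2 * m / w)) := by
    calc 48 * b / j * A * X ≤ 48 * b / j * A * (Real.exp (c / 2) * Real.exp (-(c / 2 * m / w))) :=
          mul_le_mul_of_nonneg_left h7 (by positivity)
      _ = _ := by ring
  have h9 : 24 * b / j * A * X + 24 * b / j * A * X = 48 * b / j * A * X := by ring
  linarith

end Vale.Agent.P159.T1.H910
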