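import Vale.Agent.P159.T1.H910.FarTop
import Vale.Agent.P159.T1.H910.RDefs
import Vale.Agent.P159.T1.H910.Strip

/-!
The rectangle with one wired side: the wired side is not seen from far away.
-/

open MeasureTheory Filter Topology

namespace Vale.Agent.P159.T1.H910.R

open Vale.Agent.P159 Vale.Agent.P159.H353 Vale.Agent.P159.R2.H254 Vale.Agent.P159.R2.H729
  Vale.Agent.P159.T1.H934 Vale.Agent.P159.T1.D Vale.Agent.P159.T1.H910

section mom

variable {J : Bnd → ℝ} {S : Finset Bnd} {U : Finset Z2}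

lemma summable_two (hJ : ∀ e, 0 ≤ J e) (hS : ∀ f ∈ U, (f, true) ∈ S) (B : Bnd → ℝ) :
    Summable fun h : Ht U => (∏ e ∈ S, wI (J e) (dh h.1 e)) * (prS S B h.1) ^ 2 := by
  refine FF_summable (C := 2) hJ hS (dS S B) (F := fun h => (prS S B h) ^ 2) fun h => ?_
  show |(prS S B h.1) ^ 2| ≤ _
  rw [prS_eq S B h]
  have := Real.pow_div_factorial_le_exp |ch U (dS S B) h.1| (abs_nonneg _) 2
  have e : ((2).factorial : ℝ) = 2 := by norm_num [Nat.factorial]
  rw [e] at this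
  rw [abs_pow]
  linarith

lemma summable_cst (hJ : ∀ e, 0 ≤ J e) (hS : ∀ f ∈ U, (f, true) ∈ S) :
    Summable fun h : Ht U => (∏ e ∈ S, wI (J e) (dh h.1 e)) * (1 : ℝ) := by
  refine FF_summable (C := 1) hJ hS (fun _ => 0) (F := fun _ => 1) fun h => ?_
  rw [abs_one, one_mul]
  exact Real.one_le_exp (abs_nonneg _)

/-- **second moments** -/
theorem FF_two (hJ : ∀ e, 0 ≤ J e) (hS : ∀ f ∈ U, (f, true) ∈ S) {j A : ℝ} (hj : 0 < j)
    (hj1 : j ≤ 1) (hjJ : ∀ e ∈ S, j ≤ J e) (hA : 0 < A) {B : Bnd → ℝ}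
    (hB : ∑ e ∈ S, J e * B e ^ 2 ≤ A) :
    (FF J S U fun h => (prS S B h) ^ 2) / (FF J S U fun _ => 1) ≤ 12 * A / j := by
  have hZ := FF_pos (J := J) hJ hS (Finset.Subset.refl U)
  have h4 := FF_four hJ hS hj hj1 hjJ hA hB
  have s4 := summable_four hJ hS B
  have s2 := summable_two hJ hS B
  have s1 := summable_cst hJ hS
  obtain ⟨x, hx⟩ : ∃ x : ℝ, x = 12 * A / j := ⟨_, rfl⟩
  have hx0 : 0 < x := by rw [hx]; positivity
  rw [← hx]
  have h4' : (FF J S U fun h => (prS S B h) ^ 4) ≤ x ^ 2 * FF J S U fun _ => 1 := by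
    rw [div_le_iff₀ hZ] at h4
    refine h4.trans (le_of_eq ?_)
    rw [hx]
    ring
  have key : 2 * x * (FF J S U fun h => (prS S B h) ^ 2) ≤
      (FF J S U fun h => (prS S B h) ^ 4) + x ^ 2 * FF J S U fun _ => 1 := by
    have e2 : 2 * x * (FF J S U fun h => (prS S B h) ^ 2) =
        ∑' h : Ht U, 2 * x * ((∏ e ∈ S, wI (J e) (dh h.1 e)) * (prS S B h.1) ^ 2) :=
      tsum_mul_left.symm
    have e1 : x ^ 2 * (FF J S U fun _ => 1) =
        ∑' h : Ht U, x ^ 2 * ((∏ e ∈ S, wI (J e) (dh h.1 e)) * 1) := tsum_mul_left.symm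
    have e4 : (FF J S U fun h => (prS S B h) ^ 4) =
        ∑' h : Ht U, (∏ e ∈ S, wI (J e) (dh h.1 e)) * (prS S B h.1) ^ 4 := rfl
    rw [e2, e1, e4, ← s4.tsum_add (s1.mul_left (x ^ 2))]
    refine (s2.mul_left (2 * x)).tsum_le_tsum (fun h => ?_) (s4.add (s1.mul_left (x ^ 2)))
    have hp := Finset.prod_nonneg fun e (_ : e ∈ S) => wI_nonneg (hJ e) (dh h.1 e)
    nlinarith [mul_nonneg hp (sq_nonneg ((prS S B h.1) ^ 2 - x))]
  rw [div_le_iff₀ hZ]
  have h5 : 2 * x * (FF J S U fun h => (prS S B h) ^ 2) ≤ 2 * x * (x * FF J S U fun _ => 1) := by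
    refine key.trans ((add_le_add h4' le_rfl).trans (le_of_eq ?_))
    ring
  exact le_of_mul_le_mul_left h5 (by positivity)

end mom

/-- the charges of a gradient field are supported near the field -/
lemma dS_dr_row (S : Finset Bnd) {g : Z2 → ℝ} {k : ℤ} (hg : ∀ f : Z2, k ≤ f.2 → g f = 0) {f : Z2}
    (hf : k < f.2) : dS S (dr g) f = 0 := by
  unfold dS
  refine Finset.sum_eq_zero fun e _ => ?_
  obtain ⟨i, j⟩ := f
  simp only at hf
  obtain ⟨⟨a, l⟩, d⟩ := e
  by_cases h1 : D.lf ((a, l), d) = (i, j)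
  · have h2 : dr g ((a, l), d) = 0 := by
      unfold dr
      rw [h1, hg (i, j) (by simp only; omega)]
      cases d
      · simp only [D.lf, D.rt, Bool.false_eq_true, if_false, Prod.mk.injEq] at h1 ⊢
        rw [hg _ (by simp only; omega), sub_zero]
      · simp only [D.lf, D.rt, if_true, Prod.mk.injEq] at h1 ⊢
        rw [hg _ (by simp only; omega), sub_zero]
    rw [h2, zero_mul]
  · by_cases h2 : D.rt ((a, l), d) = (i, j)
    · have h3 : dr g ((a, l), d) = 0 := by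
        unfold dr
        rw [h2, hg (i, j) (by simp only; omega)]
        cases d
        · simp only [D.lf, D.rt, Bool.false_eq_true, if_false, Prod.mk.injEq] at h2 ⊢
          rw [hg _ (by simp only; omega), sub_zero]
        · simp only [D.lf, D.rt, if_true, Prod.mk.injEq] at h2 ⊢
          rw [hg _ (by simp only; omega), sub_zero]
      rw [h3, zero_mul]
    · rw [if_neg h1, if_neg h2, sub_zero, mul_zero]

section geo

variable {w T m : ℕ}

lemma rcT_eq : rcT w 0 ((T : ℤ) - m) m = rc w T := by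
  unfold rcT rc
  rw [sub_add_cancel]

lemma topW : TopW w 0 ((T : ℤ) - m) m (S1 w T) where
  sub := by
    rw [rcT_eq]
    exact Finset.filter_subset _ _
  hor := by
    intro e he h
    rw [rcT_eq] at he
    unfold S1
    rw [Finset.mem_filter]
    refine ⟨he, fun h' => ?_⟩
    rw [h] at h'
    exact Bool.noConfusion h'.1
  top := by
    intro e he h
    unfold S1 at he
    rw [Finset.mem_filter, mem_bd, mem_rc, mem_rc] at he
    obtain ⟨⟨⟨i, j⟩, d⟩, h1⟩ : ∃ e' : Bnd, e' = e := ⟨e, rfl⟩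
    subst h1
    simp only at h
    subst h
    simp only [D.rt, D.lf, Bool.false_eq_true, if_false, true_and] at he ⊢
    omega

lemma S1_side : ∀ f ∈ rc w T, (f, true) ∈ S1 w T := fun f hf => by
  unfold S1
  rw [Finset.mem_filter]
  exact ⟨bd_side f hf, fun h => Bool.noConfusion h.1⟩

lemma bd_S1 (hm : 1 ≤ m) : bd (rcT w 0 ((T : ℤ) - m) (m - 1)) ⊆ S1 w T := by
  rintro ⟨⟨i, j⟩, d⟩ he
  unfold S1
  rw [Finset.mem_filter, mem_bd, mem_rc, mem_rc]
  rw [mem_bd, mem_rcT, mem_rcT] at he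
  cases d
  · simp only [D.rt, D.lf, Bool.false_eq_true, if_false, true_and] at he ⊢
    omega
  · simp only [D.rt, D.lf, if_true] at he ⊢
    refine ⟨?_, fun h => Bool.noConfusion h.1⟩
    omega

end geo

/-- **one wired side** -/
theorem far_strip_J {b c : ℝ} (hc : 0 < c) (hcb : c ≤ b) :
    ∃ C κ : ℝ, 0 < C ∧ 0 < κ ∧ ∀ J : Bnd → ℝ, (∀ e, c ≤ J e) → (∀ e, J e ≤ b) →
      ∀ m w T : ℕ, 1 ≤ m → 1 ≤ w → m ≤ T → ∀ g : Z2 → ℝ,
        (∀ f, ¬ (f ∈ rc w T ∧ f.2 < (T : ℤ) - m) → g f = 0) →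
        (FF J (S1 w T) (rc w T) fun h => prS (S1 w T) (dr g) h ^ 2) /
            (FF J (S1 w T) (rc w T) fun _ => 1) ≤
          Vr b (rc w T) (dr g) +
            C * (∑ e ∈ S1 w T, dr g e ^ 2) * Real.exp (-(κ * m / w)) := by
  have hb : 0 < b := hc.trans_le hcb
  set j : ℝ := min c 1 with hj
  have hjp : 0 < j := lt_min hc one_pos
  set κ : ℝ := 1 / (1 + 4 * b) / 2 with hκ
  have hκ0 : 0 < κ := by positivity
  refine ⟨24 * b / j * Real.exp κ, κ, by positivity, hκ0, ?_⟩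
  intro J hcJ hJb m w T hm hw hmT g hg
  have hJ : ∀ e, 0 ≤ J e := fun e => hc.le.trans (hcJ e)
  have hw0 : (0 : ℝ) < w := by exact_mod_cast hw
  have hw1 : (1 : ℝ) ≤ w := by exact_mod_cast hw
  obtain ⟨S, hS⟩ : ∃ S : Finset Bnd, S = S1 w T := ⟨_, rfl⟩
  rw [← hS]
  obtain ⟨A, hA⟩ : ∃ A : ℝ, A = ∑ e ∈ S, dr g e ^ 2 := ⟨_, rfl⟩
  rw [← hA]
  have hA0 : 0 ≤ A := hA ▸ Finset.sum_nonneg fun e _ => sq_nonneg _
  rcases hA0.eq_or_lt with h0 | hApos
  · have h1 : ∀ e ∈ S, dr g e = 0 := by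
      intro e he
      have := (Finset.sum_eq_zero_iff_of_nonneg fun e _ => sq_nonneg (dr g e)).1
        (hA ▸ h0.symm) e he
      exact pow_eq_zero_iff (two_ne_zero) |>.1 this
    have h2 : ∀ h : Z2 → ℤ, prS S (dr g) h = 0 := fun h =>
      Finset.sum_eq_zero fun e he => by rw [h1 e he, zero_mul]
    have h3 : (FF J S (rc w T) fun h => (prS S (dr g) h) ^ 2) = 0 := by
      unfold FF
      simp [h2]
    rw [h3, zero_div, ← h0]
    simpa using Vr_nonneg hb.le (rc w T) (dr g)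
  have hside : ∀ f ∈ rc w T, (f, true) ∈ S := hS ▸ S1_side
  have hB : ∑ e ∈ S, J e * dr g e ^ 2 ≤ b * A := by
    rw [hA, Finset.mul_sum]
    exact Finset.sum_le_sum fun e _ => mul_le_mul_of_nonneg_right (hJb e) (sq_nonneg _)
  have hj1 : j ≤ 1 := min_le_right _ _
  have hjJ : ∀ e ∈ S, j ≤ J e := fun e _ => (min_le_left _ _).trans (hcJ e)
  have hbA : 0 < b * A := mul_pos hb hApos
  have hX1 : Real.exp (-(κ * m / w)) * Real.exp κ ≥ 0 := by positivity
  -- one row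
  rcases hm.eq_or_lt with hm1 | hm2
  · have h1 := FF_two hJ hside hjp hj1 hjJ hbA hB
    have h2 : 1 ≤ Real.exp κ * Real.exp (-(κ * m / w)) := by
      rw [← Real.exp_add]
      apply Real.one_le_exp
      rw [← hm1]
      have : κ * ((1 : ℕ) : ℝ) / w ≤ κ := by
        rw [Nat.cast_one, mul_one]
        exact div_le_self hκ0.le hw1
      linarith
    have h3 := Vr_nonneg hb.le (rc w T) (dr g)
    have h4 : 12 * (b * A) / j ≤
        24 * b / j * Real.exp κ * A * Real.exp (-(κ * m / w)) := by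
      have h5 : 0 ≤ 12 * (b * A) / j := by positivity
      have h6 := mul_le_mul_of_nonneg_left h2 h5
      have h7 : 24 * b / j * Real.exp κ * A * Real.exp (-(κ * m / w)) =
          2 * (12 * (b * A) / j * (Real.exp κ * Real.exp (-(κ * m / w)))) := by ring
      rw [h7]
      linarith
    linarith
  -- no charge
  rcases hmT.eq_or_lt with hmT' | hmT'
  · exfalso
    have hg0 : ∀ f, g f = 0 := by
      intro f
      apply hg
      rintro ⟨h1, h2⟩
      rw [mem_rc] at h1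
      omega
    have : A = 0 := by
      rw [hA]
      refine Finset.sum_eq_zero fun e _ => ?_
      unfold dr
      rw [hg0, hg0]
      ring
    linarith
  -- the main case
  have hgrow : ∀ f : Z2, (T : ℤ) - m ≤ f.2 → g f = 0 := fun f hf => hg f fun h => by
    have := h.2
    omega
  classical
  obtain ⟨ρ, hρ⟩ : ∃ ρ : Z2 → ℝ, ρ = fun f => if f.2 ≤ (T : ℤ) - m then dS S (dr g) f else 0 :=
    ⟨_, rfl⟩
  have hρ' : ρ = dS S (dr g) := by
    rw [hρ]
    funext f
    split_ifs with hf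
    · rfl
    · exact (dS_dr_row S hgrow (not_le.1 hf)).symm
  have h1 := far_T (J := J) (topW (w := w) (T := T) (m := m)) hb.le hJ hJb (by omega) hw
    (by omega) (ρ := ρ) (fun f hf => by
      rw [hρ]
      simp only
      rw [if_neg (not_le.2 hf)])
  rw [rcT_eq, ← hS] at h1
  obtain ⟨U1, hU1⟩ : ∃ U1 : Finset Z2, U1 = rcT w 0 ((T : ℤ) - m) (m - 1) := ⟨_, rfl⟩
  rw [← hU1] at h1
  have hsub : U1 ⊆ rc w T := by
    rw [hU1]
    intro f hf
    rw [mem_rcT] at hf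
    rw [mem_rc]
    omega
  have hbd : bd U1 ⊆ S := by
    rw [hU1, hS]
    exact bd_S1 hm
  have hch : ∀ U' : Finset Z2, U' ⊆ rc w T → ∀ h : Ht U', ch (rc w T) ρ h.1 =
      prS S (dr g) h.1 := by
    intro U' hU' h
    have h1 : ∀ f, f ∉ rc w T → h.1 f = 0 := fun f hf => h.2 f fun hf' => hf (hU' hf')
    rw [show prS S (dr g) h.1 = ch (rc w T) (dS S (dr g)) h.1 from sum_dh S (dr g) h1, hρ']
  rw [FF_congr (F := fun h => ch (rc w T) ρ h ^ 2) (G := fun h => (prS S (dr g) h) ^ 2)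
      fun h : Ht (rc w T) => by rw [hch _ (Finset.Subset.refl _) h],
    FF_congr (F := fun h => ch (rc w T) ρ h ^ 4) (G := fun h => (prS S (dr g) h) ^ 4)
      fun h : Ht (rc w T) => by rw [hch _ (Finset.Subset.refl _) h],
    FF_congr (F := fun h => ch (rc w T) ρ h ^ 2)
      (G := fun h => (ch U1 (dv (dr g)) h) ^ 2)
      fun h : Ht U1 => by
        rw [hch _ hsub h, prS_bd hbd, pr_eq_ch _ h.2]] at h1
  have h2 : (FF J S U1 fun h => (ch U1 (dv (dr g)) h) ^ 2) /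
      (FF J S U1 fun _ => 1) ≤ Vr b (rc w T) (dr g) := by
    rw [FF_ratio hJ hbd]
    refine le_trans ?_ (Vr_mono hb.le hsub (dr g))
    rw [Vr_eq]
    exact FF_mono_sq hJ hJb bd_side (Finset.Subset.refl _) _
  have h3 : (FF J S (rc w T) fun h => (prS S (dr g) h) ^ 4) /
      (FF J S (rc w T) fun _ => 1) ≤ 144 * (b * A) ^ 2 / j ^ 2 :=
    FF_four hJ hside hjp hj1 hjJ hbA hB
  set X : ℝ := Real.exp (-(κ * m / w)) with hX
  have hX0 : 0 < X := Real.exp_pos _
  have hX2 : Real.exp (-((m : ℝ) / (1 + 2 * b * ((w : ℝ) + 1)))) ≤ X ^ 2 := by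
    rw [hX, ← Real.exp_nat_mul]
    apply Real.exp_le_exp.2
    refine (H568.sfl_rate hb.le hw (m := m)).trans (le_of_eq ?_)
    rw [hκ]
    push_cast
    ring
  have h5 := sqrt_term hb.le hjp hA0 hX0.le h3
  have h0' : 0 ≤ (FF J S (rc w T) fun h => (prS S (dr g) h) ^ 4) /
      (FF J S (rc w T) fun _ => 1) :=
    div_nonneg (FF_nonneg hJ fun h => by positivity) (FF_nonneg hJ fun h => zero_le_one)
  have h6 := Real.sqrt_le_sqrt (mul_le_mul_of_nonneg_left
    (show 2 * Real.exp (-((m : ℝ) / (1 + 2 * b * ((w : ℝ) + 1)))) ≤ 4 * X ^ 2 by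
      nlinarith [sq_nonneg X]) h0')
  have h7 : 24 * b / j * A * X ≤ 24 * b / j * Real.exp κ * A * X := by
    have h8 : 1 ≤ Real.exp κ := Real.one_le_exp hκ0.le
    have h9 : 0 ≤ 24 * b / j * A * X := by positivity
    have h10 := mul_le_mul_of_nonneg_left h8 h9
    calc _ = 24 * b / j * A * X * 1 := by ring
      _ ≤ _ := h10
      _ = _ := by ring
  linarith

/-- **one wired side**, the couplings `J1` -/
theorem far_strip {b c : ℝ} (hc : 0 < c) (hcb : c ≤ b) :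
    ∃ C κ : ℝ, 0 < C ∧ 0 < κ ∧ ∀ m w T : ℕ, 1 ≤ m → 1 ≤ w → m ≤ T → ∀ g : Z2 → ℝ,
        (∀ f, ¬ (f ∈ rc w T ∧ f.2 < (T : ℤ) - m) → g f = 0) →
        (FF (J1 b c w) (S1 w T) (rc w T) fun h => prS (S1 w T) (dr g) h ^ 2) /
            (FF (J1 b c w) (S1 w T) (rc w T) fun _ => 1) ≤
          Vr b (rc w T) (dr g) +
            C * (∑ e ∈ S1 w T, dr g e ^ 2) * Real.exp (-(κ * m / w)) := by
  obtain ⟨C, κ, hC, hκ, h⟩ := far_strip_J hc hcb
  exact ⟨C, κ, hC, hκ, fun m w T hm hw hmT g hg =>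
    h (J1 b c w) (le_J1 hcb w) (J1_le hcb w) m w T hm hw hmT g hg⟩

end Vale.Agent.P159.T1.H910.R
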