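import Vale.Agent.P159.T1.H910.FarGen

/-!
The strip: crossing property and flow.
-/

open MeasureTheory Filter Topology

namespace Vale.Agent.P159.T1.H910

open Vale.Agent.P159 Vale.Agent.P159.H353 Vale.Agent.P159.R2.H254 Vale.Agent.P159.R2.H729
  Vale.Agent.P159.T1.H934 Vale.Agent.P159.T1.D

/-! ### the board -/

/-- the face of a cell of the board -/
def ps (k : ℤ) {a b : ℕ} (c : Fin a × Fin b) : Z2 := (((c.1 : ℕ) : ℤ) - 1, k + ((c.2 : ℕ) : ℤ))

lemma ps_adj {k : ℤ} {a b : ℕ} {c c' : Fin a × Fin b}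
    (h : |(ps k c).1 - (ps k c').1| + |(ps k c).2 - (ps k c').2| = 1) : adj4 c c' := by
  unfold ps at h
  unfold adj4
  simp only at h
  rw [← h]
  congr 2 <;> ring

lemma adj4_symm' {a b : ℕ} {c c' : Fin a × Fin b} (h : adj4 c c') : adj4 c' c := by
  unfold adj4 at h ⊢
  rw [abs_sub_comm, abs_sub_comm (((c'.2 : ℕ) : ℤ))]
  exact h

/-- the cells of a column are joined in the column -/
lemma col_chain {a b : ℕ} {P : Set (Fin a × Fin b)} (i : Fin a) (h : ∀ j, (i, j) ∈ P)
    (j j' : Fin b) :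
    Relation.ReflTransGen (fun x y => adj4 x y ∧ x ∈ P ∧ y ∈ P) (i, j) (i, j') := by
  have key : ∀ (m : ℕ) (j j' : Fin b), (j : ℕ) + m = j' →
      Relation.ReflTransGen (fun x y => adj4 x y ∧ x ∈ P ∧ y ∈ P) (i, j) (i, j') := by
    intro m
    induction m with
    | zero =>
      intro j j' hj
      have : j = j' := Fin.ext hj
      rw [this]
    | succ m ih =>
      intro j j' hj
      have hlt : (j : ℕ) + m < b := by have := j'.2; omega
      refine (ih j ⟨(j : ℕ) + m, hlt⟩ rfl).tail ⟨?_, h _, h _⟩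
      unfold adj4
      simp only [sub_self, abs_zero, zero_add]
      rw [← hj]
      push_cast
      rw [show (j : ℤ) + m - (j + (m + 1)) = -1 by ring]
      norm_num
  rcases le_total (j : ℕ) j' with h1 | h1
  · exact key (j' - j) j j' (by omega)
  · have h2 := key (j - j') j' j (by omega)
    have symm : ∀ x y, Relation.ReflTransGen (fun x y => adj4 x y ∧ x ∈ P ∧ y ∈ P) x y →
        Relation.ReflTransGen (fun x y => adj4 x y ∧ x ∈ P ∧ y ∈ P) y x := by
      intro x y hxy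
      induction hxy with
      | refl => exact .refl
      | tail _ h3 ih => exact Relation.ReflTransGen.head ⟨adj4_symm' h3.1, h3.2.2, h3.2.1⟩ ih
    exact symm _ _ h2

section cross

variable {w : ℕ} {t k : ℤ} {n : ℕ} {S : Finset Bnd}

/-- the two faces of a bond which is not deleted -/
lemma bond_geo (hT : TopW w t k n S) (htk : t < k) {e : Bnd} (he : e ∈ S)
    (h1 : tv (rcT w t k n) (D.rt e) ∉ dlT w t k n) (h2 : tv (rcT w t k n) (D.lf e) ∉ dlT w t k n) :
    ∃ c c' : Fin (w + 2) × Fin n, ps k c = D.rt e ∧ ps k c' = D.lf e ∧ adj4 c c' := by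
  have hbd := hT.sub he
  rw [mem_bd] at hbd
  have r1 : D.rt e ∈ rcT w t k n → k ≤ (D.rt e).2 := fun h => by
    by_contra hlt
    exact h1 ((tv_dlT h).2 (not_le.1 hlt))
  have r2 : D.lf e ∈ rcT w t k n → k ≤ (D.lf e).2 := fun h => by
    by_contra hlt
    exact h2 ((tv_dlT h).2 (not_le.1 hlt))
  have htop := hT.top e he
  obtain ⟨⟨i, j⟩, d⟩ := e
  rw [mem_rcT, mem_rcT] at hbd
  rw [mem_rcT] at r1 r2
  have mk : ∀ x y : ℤ, -1 ≤ x → x ≤ w → k ≤ y → y < k + n →
      ∃ c : Fin (w + 2) × Fin n, ps k c = (x, y) := by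
    intro x y h3 h4 h5 h6
    refine ⟨(⟨(x + 1).toNat, by omega⟩, ⟨(y - k).toNat, by omega⟩), ?_⟩
    unfold ps
    refine Prod.ext ?_ ?_
    · simp only
      omega
    · simp only
      omega
  cases d
  · simp only [D.rt, D.lf, Bool.false_eq_true, if_false] at hbd r1 r2 ⊢
    simp only [forall_const] at htop
    obtain ⟨c, hc⟩ := mk i (j - 1) (by omega) (by omega) (by omega) (by omega)
    obtain ⟨c', hc'⟩ := mk i j (by omega) (by omega) (by omega) (by omega)
    refine ⟨c, c', hc, hc', ps_adj (k := k) ?_⟩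
    rw [hc, hc']
    simp
  · simp only [D.rt, D.lf, if_true] at hbd r1 r2 ⊢
    obtain ⟨c, hc⟩ := mk i j (by omega) (by omega) (by omega) (by omega)
    obtain ⟨c', hc'⟩ := mk (i - 1) j (by omega) (by omega) (by omega) (by omega)
    refine ⟨c, c', hc, hc', ps_adj (k := k) ?_⟩
    rw [hc, hc']
    simp

/-- the fibres of the map from the board to the graph -/
lemma fibre {c c' : Fin (w + 2) × Fin n} (htk : t < k)
    (h : tv (rcT w t k n) (ps k c) = tv (rcT w t k n) (ps k c')) :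
    c = c' ∨ (c.1 = c'.1 ∧ ∀ j : Fin n, tv (rcT w t k n) (ps k (c.1, j)) = tv (rcT w t k n) (ps k c)) := by
  have m1 : ∀ x : Fin (w + 2) × Fin n, ps k x ∈ rcT w t k n ↔ 1 ≤ (x.1 : ℕ) ∧ (x.1 : ℕ) ≤ w := by
    intro x
    have h2 := x.1.2
    have h3 := x.2.2
    rw [mem_rcT]
    unfold ps
    simp only
    omega
  by_cases hc : ps k c ∈ rcT w t k n
  · by_cases hc' : ps k c' ∈ rcT w t k n
    · left
      rw [tv_mem hc, tv_mem hc'] at h
      have h2 : ps k c = ps k c' := congrArg Subtype.val (Sum.inl.inj h)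
      unfold ps at h2
      simp only [Prod.mk.injEq] at h2
      exact Prod.ext (Fin.ext (by omega)) (Fin.ext (by omega))
    · rw [tv_mem hc, tv_not hc'] at h
      cases h
  · by_cases hc' : ps k c' ∈ rcT w t k n
    · rw [tv_not hc, tv_mem hc'] at h
      cases h
    · right
      rw [tv_not hc, tv_not hc'] at h
      have h2 : decide (0 ≤ (ps k c).1) = decide (0 ≤ (ps k c').1) := Sum.inr.inj h
      have h3 : (0 ≤ (ps k c).1 ↔ 0 ≤ (ps k c').1) := by
        simpa using h2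
      rw [m1] at hc hc'
      have l1 := c.1.2
      have l2 := c'.1.2
      unfold ps at h3
      simp only at h3
      refine ⟨Fin.ext (by omega), fun j => ?_⟩
      have hcj : ps k (c.1, j) ∉ rcT w t k n := by
        rw [m1]
        exact hc
      rw [tv_not hcj, tv_not (by rw [m1]; exact hc)]
      rfl

/-- **the crossing property of the strip** -/
theorem cross_T (hT : TopW w t k n S) (htk : t < k) (hn : 1 ≤ n) :
    Cross (adjG (H112.s1 (ts S (rcT w t k n)) (tt S (rcT w t k n)) (dlT w t k n))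
        (H112.t1 (ts S (rcT w t k n)) (tt S (rcT w t k n)) (dlT w t k n)))
      {v | ∃ f : {f : Z2 // f ∈ rcT w t k n}, v = Sum.inl f ∧ f.1.2 = k + n - 1}
      {v | (∃ f : {f : Z2 // f ∈ rcT w t k n}, v = Sum.inl f ∧ f.1.2 ≤ k) ∨ ∃ c, v = Sum.inr c}
      {Sum.inr false} {Sum.inr true} := by
  set U := rcT w t k n with hU
  set X := dlT w t k n with hX
  rintro M M' ⟨x, ⟨hxM, fx, rfl, hfx⟩, y, ⟨hyM, hyB⟩, hxy⟩ ⟨l, ⟨hlM, rfl⟩, r, ⟨hrM, rfl⟩, hlr⟩
  by_cases hf0 : Sum.inr false ∈ M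
  · exact ⟨_, hf0, hlM⟩
  by_cases hf1 : Sum.inr true ∈ M
  · exact ⟨_, hf1, hrM⟩
  have hM : ∀ c : Bool, Sum.inr c ∉ M := fun c => by cases c <;> assumption
  -- edges
  have hedge : ∀ u v : TV U, adjG (H112.s1 (ts S U) (tt S U) X) (H112.t1 (ts S U) (tt S U) X) u v →
      u ∉ X ∧ v ∉ X ∧ ∃ c c' : Fin (w + 2) × Fin n, tv U (ps k c) = u ∧ tv U (ps k c') = v ∧
        adj4 c c' := by
    rintro u v ⟨⟨⟨e, he⟩, h1, h2⟩, h | h⟩
    · obtain ⟨rfl, rfl⟩ := h
      obtain ⟨c, c', hc, hc', hcc⟩ := bond_geo hT htk he h1 h2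
      refine ⟨h1, h2, c, c', ?_, ?_, hcc⟩
      · rw [hc]; rfl
      · rw [hc']; rfl
    · obtain ⟨rfl, rfl⟩ := h
      obtain ⟨c, c', hc, hc', hcc⟩ := bond_geo hT htk he h1 h2
      refine ⟨h2, h1, c', c, ?_, ?_, adj4_symm' hcc⟩
      · rw [hc']; rfl
      · rw [hc]; rfl
  -- transport of chains
  have trans : ∀ (P : Set (TV U)) (u v : TV U), Relation.ReflTransGen (fun a b =>
      adjG (H112.s1 (ts S U) (tt S U) X) (H112.t1 (ts S U) (tt S U) X) a b ∧ a ∈ P ∧ b ∈ P) u v →
      ∀ c c' : Fin (w + 2) × Fin n, u ∈ P → tv U (ps k c) = u → tv U (ps k c') = v →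
      Relation.ReflTransGen (fun x y => adj4 x y ∧ x ∈ {c | tv U (ps k c) ∈ P} ∧
        y ∈ {c | tv U (ps k c) ∈ P}) c c' := by
    intro P u v huv
    -- moving inside a fibre
    have fib : ∀ c c' : Fin (w + 2) × Fin n, tv U (ps k c) ∈ P → tv U (ps k c) = tv U (ps k c') →
        Relation.ReflTransGen (fun x y => adj4 x y ∧ x ∈ {c | tv U (ps k c) ∈ P} ∧
          y ∈ {c | tv U (ps k c) ∈ P}) c c' := by
      intro c c' hc h
      rcases fibre htk h with rfl | ⟨h1, h2⟩
      · exact .refl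
      · have h3 := col_chain (P := {c : Fin (w + 2) × Fin n | tv U (ps k c) ∈ P}) c.1
          (fun j => by
            show tv U (ps k (c.1, j)) ∈ P
            rw [h2 j]
            exact hc) c.2 c'.2
        have e1 : (c.1, c'.2) = c' := Prod.ext h1 rfl
        rw [e1] at h3
        exact h3
    induction huv with
    | refl =>
      intro c c' hu hc hc'
      exact fib c c' (hc ▸ hu) (hc.trans hc'.symm)
    | @tail a b _ hab ih =>
      intro c c' hu hc hc'
      obtain ⟨hadj, haP, hbP⟩ := hab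
      obtain ⟨-, -, d, d', hd, hd', hdd⟩ := hedge a b hadj
      have h1 := ih c d hu hc hd
      have h2 : Relation.ReflTransGen (fun x y => adj4 x y ∧ x ∈ {c | tv U (ps k c) ∈ P} ∧
        y ∈ {c | tv U (ps k c) ∈ P}) c d' :=
        h1.tail ⟨hdd, by show tv U (ps k d) ∈ P; rw [hd]; exact haP,
          by show tv U (ps k d') ∈ P; rw [hd']; exact hbP⟩
      exact h2.trans (fib d' c' (by rw [hd']; exact hbP) (hd'.trans hc'.symm))
  -- the end point of the first chain
  have hyX : y ∉ X := by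
    rcases Relation.ReflTransGen.cases_tail hxy with h | ⟨z, -, hz⟩
    · rw [h]
      intro h'
      obtain ⟨g, hg, hgk⟩ := mem_dlT.1 h'
      rw [← Sum.inl.inj hg] at hgk
      omega
    · exact (hedge z y hz.1).2.1
  obtain ⟨fy, rfl, hfy⟩ : ∃ f : {f : Z2 // f ∈ U}, y = Sum.inl f ∧ f.1.2 ≤ k := by
    rcases hyB with h | ⟨c, rfl⟩
    · exact h
    · exact absurd hyM (hM c)
  have hfyk : fy.1.2 = k := by
    refine le_antisymm hfy ?_
    by_contra hlt
    exact hyX (mem_dlT.2 ⟨fy, rfl, not_le.1 hlt⟩)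
  have cell : ∀ f : {f : Z2 // f ∈ U}, k ≤ f.1.2 → ∃ c : Fin (w + 2) × Fin n, ps k c = f.1 := by
    intro f hf
    have hf' := mem_rcT.1 f.2
    refine ⟨(⟨(f.1.1 + 1).toNat, by omega⟩, ⟨(f.1.2 - k).toNat, by omega⟩), ?_⟩
    unfold ps
    refine Prod.ext ?_ ?_
    · simp only
      omega
    · simp only
      omega
  obtain ⟨cx, hcx⟩ := cell fx (by omega)
  obtain ⟨cy, hcy⟩ := cell fy (by omega)
  have c1 : Cn adj4 {c : Fin (w + 2) × Fin n | tv U (ps k c) ∈ M} P198.PlanarTop.top'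
      P198.PlanarTop.bot := by
    refine ⟨cx, ⟨?_, ?_⟩, cy, ⟨?_, ?_⟩, trans M _ _ hxy cx cy hxM ?_ ?_⟩
    · show tv U (ps k cx) ∈ M
      rw [hcx, tv_val]; exact hxM
    · show (cx.2 : ℕ) + 1 = n
      have := congrArg Prod.snd hcx
      unfold ps at this
      simp only at this
      omega
    · show tv U (ps k cy) ∈ M
      rw [hcy, tv_val]; exact hyM
    · show (cy.2 : ℕ) = 0
      have := congrArg Prod.snd hcy
      unfold ps at this
      simp only at this
      omega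
    · rw [hcx, tv_val]
    · rw [hcy, tv_val]
  -- the chain between the feet
  have out : ∀ c : Fin (w + 2) × Fin n, (c.1 : ℕ) = 0 → tv U (ps k c) = Sum.inr false := by
    intro c hc
    have h1 : ps k c ∉ U := by
      rw [hU, mem_rcT]
      unfold ps
      simp only
      omega
    rw [tv_not h1]
    congr 1
    unfold ps
    simp only [decide_eq_false_iff_not]
    omega
  have out' : ∀ c : Fin (w + 2) × Fin n, (c.1 : ℕ) + 1 = w + 2 →
      tv U (ps k c) = Sum.inr true := by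
    intro c hc
    have h1 : ps k c ∉ U := by
      rw [hU, mem_rcT]
      unfold ps
      simp only
      omega
    rw [tv_not h1]
    congr 1
    unfold ps
    simp only [decide_eq_true_eq]
    omega
  have c2 : Cn adj4 {c : Fin (w + 2) × Fin n | tv U (ps k c) ∈ M'} P198.PlanarTop.lft
      P198.PlanarTop.rgt := by
    have e0 := out (⟨0, by omega⟩, ⟨0, by omega⟩) rfl
    have e1 := out' (⟨w + 1, by omega⟩, ⟨0, by omega⟩) rfl
    refine ⟨(⟨0, by omega⟩, ⟨0, by omega⟩), ⟨?_, rfl⟩, (⟨w + 1, by omega⟩, ⟨0, by omega⟩), ⟨?_, rfl⟩,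
      trans M' _ _ hlr _ _ hlM e0 e1⟩
    · show tv U _ ∈ M'
      rw [e0]; exact hlM
    · show tv U _ ∈ M'
      rw [e1]; exact hrM
  have c1' : Cn adj4 {c : Fin (w + 2) × Fin n | tv U (ps k c) ∈ M} P198.PlanarTop.bot
      P198.PlanarTop.top' := by
    obtain ⟨a, ha, b, hb, hab⟩ := c1
    refine ⟨b, hb, a, ha, ?_⟩
    have symm : ∀ x y, Relation.ReflTransGen (fun x y => adj4 x y ∧
        x ∈ {c : Fin (w + 2) × Fin n | tv U (ps k c) ∈ M} ∧ y ∈ {c | tv U (ps k c) ∈ M}) x y →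
        Relation.ReflTransGen (fun x y => adj4 x y ∧
        x ∈ {c : Fin (w + 2) × Fin n | tv U (ps k c) ∈ M} ∧ y ∈ {c | tv U (ps k c) ∈ M}) y x := by
      intro x y hxy
      induction hxy with
      | refl => exact .refl
      | tail _ h3 ih => exact Relation.ReflTransGen.head ⟨adj4_symm' h3.1, h3.2.2, h3.2.1⟩ ih
    exact symm _ _ hab
  obtain ⟨c, hc1, hc2⟩ := cross4 (w + 2) n _ _ c2 c1'
  exact ⟨tv U (ps k c), hc2, hc1⟩

end cross

end Vale.Agent.P159.T1.H910
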