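import Vale.Agent.P159.T1.H910.FarStrip
import Vale.Agent.P159.T1.H568.StripFlow

/-!
One wired end of a strip with free lateral sides.
-/

open MeasureTheory Filter Topology

namespace Vale.Agent.P159.T1.H910

open Vale.Agent.P159 Vale.Agent.P159.H353 Vale.Agent.P159.R2.H254 Vale.Agent.P159.R2.H729
  Vale.Agent.P159.T1.H934 Vale.Agent.P159.T1.D

section far

variable {w : ℕ} {t k : ℤ} {n : ℕ} {S : Finset Bnd}

/-- the last row -/
def AT (w : ℕ) (t k : ℤ) (n : ℕ) : Set (TV (rcT w t k n)) :=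
  {v | ∃ f : {f : Z2 // f ∈ rcT w t k n}, v = Sum.inl f ∧ f.1.2 = k + n - 1}

/-- the region of the charges -/
def BT (w : ℕ) (t k : ℤ) (n : ℕ) : Set (TV (rcT w t k n)) :=
  {v | (∃ f : {f : Z2 // f ∈ rcT w t k n}, v = Sum.inl f ∧ f.1.2 ≤ k) ∨ ∃ c, v = Sum.inr c}

lemma AB_T (hn : 2 ≤ n) : Disjoint (AT w t k n) (BT w t k n) := by
  rw [Set.disjoint_left]
  rintro v ⟨f, rfl, hf⟩ (⟨g, hg, hg2⟩ | ⟨c, hc⟩)
  · rw [← Sum.inl.inj hg] at hg2
    omega
  · cases hc

lemma nb_T : ∀ v ∈ dlT w t k n, v ∈ BT w t k n ∧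
    ∀ u, adjG (ts S (rcT w t k n)) (tt S (rcT w t k n)) u v → u ∈ BT w t k n := by
  intro v hv
  obtain ⟨f, rfl, hf⟩ := mem_dlT.1 hv
  refine ⟨Or.inl ⟨f, rfl, hf.le⟩, fun u hu => ?_⟩
  rcases u with g | c
  · left
    refine ⟨g, rfl, ?_⟩
    -- neighbouring faces
    have key : ∀ e : {e : Bnd // e ∈ S}, ∀ a b : {f : Z2 // f ∈ rcT w t k n},
        ts S (rcT w t k n) e = Sum.inl a → tt S (rcT w t k n) e = Sum.inl b →
        a.1 = D.rt e.1 ∧ b.1 = D.lf e.1 := by
      intro e a b h1 h2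
      constructor
      · unfold ts at h1
        by_cases h3 : D.rt e.1 ∈ rcT w t k n
        · rw [tv_mem h3] at h1
          rw [← Sum.inl.inj h1]
        · rw [tv_not h3] at h1
          cases h1
      · unfold tt at h2
        by_cases h3 : D.lf e.1 ∈ rcT w t k n
        · rw [tv_mem h3] at h2
          rw [← Sum.inl.inj h2]
        · rw [tv_not h3] at h2
          cases h2
    obtain ⟨e, ⟨h1, h2⟩ | ⟨h1, h2⟩⟩ := hu
    · obtain ⟨h3, h4⟩ := key e g f h1 h2
      obtain ⟨⟨⟨i, j⟩, d⟩, he⟩ := e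
      rw [h3]
      rw [h4] at hf
      cases d
      · simp only [D.rt, D.lf, Bool.false_eq_true, if_false] at hf ⊢
        omega
      · simp only [D.rt, D.lf, if_true] at hf ⊢
        omega
    · obtain ⟨h3, h4⟩ := key e f g h1 h2
      obtain ⟨⟨⟨i, j⟩, d⟩, he⟩ := e
      rw [h4]
      rw [h3] at hf
      cases d
      · simp only [D.rt, D.lf, Bool.false_eq_true, if_false] at hf ⊢
        omega
      · simp only [D.rt, D.lf, if_true] at hf ⊢
        omega
  · exact Or.inr ⟨c, rfl⟩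

lemma Z1_T : H112.Z1 (ftT (rcT w t k n)) (dlT w t k n) =
    {Sum.inr false} ∪ {Sum.inr true} ∪ {v | v ∈ dlT w t k n} := by
  ext v
  constructor
  · rintro (⟨c, rfl⟩ | h)
    · left
      cases c
      · left; rfl
      · right; rfl
    · right; exact h
  · rintro ((h | h) | h)
    · left; exact ⟨false, h⟩
    · left; exact ⟨true, h⟩
    · right; exact h

lemma RSd_T : Disjoint ({Sum.inr true} : Set (TV (rcT w t k n))) {v | v ∈ dlT w t k n} := by
  rw [Set.disjoint_left]
  rintro v rfl h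
  exact inr_dlT true h

lemma pinT_succ (hn : 1 ≤ n) :
    ftT (rcT w t k n) ∪ AT w t k n = pinT (rcT w t k n) (rcT w t k (n - 1)) := by
  have hsub : rcT w t k (n - 1) ⊆ rcT w t k n := by
    intro f hf
    rw [mem_rcT] at hf ⊢
    omega
  ext v
  constructor
  · rintro (⟨c, rfl⟩ | ⟨f, rfl, hf⟩)
    · exact inr_pinT hsub c
    · intro g hg h
      rw [tv_mem (hsub hg)] at h
      rw [Sum.inl.inj h] at hf
      rw [mem_rcT] at hg
      simp only at hf
      omega
  · intro hv
    rcases v with f | c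
    · right
      refine ⟨f, rfl, ?_⟩
      by_contra hne
      have hf := mem_rcT.1 f.2
      refine hv f.1 ?_ (tv_val f).symm
      rw [mem_rcT]
      omega
    · exact Or.inl ⟨c, rfl⟩

/-- **The ratio `Z(0|2) / Z(0|0)` of the strip.** -/
theorem ratio_T (hT : TopW w t k n S) {b : ℝ} (hb : 0 ≤ b) {J : Bnd → ℝ} (hJ : ∀ e, 0 ≤ J e)
    (hJb : ∀ e, J e ≤ b) (htk : t < k) (hw : 1 ≤ w) :
    H112.N02 (ts S (rcT w t k n)) (tt S (rcT w t k n)) (fun e => J e.1) {Sum.inr false}
        {Sum.inr true} (dlT w t k n) /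
      H112.ZD (ts S (rcT w t k n)) (tt S (rcT w t k n)) (fun e => J e.1) (ftT (rcT w t k n))
        (dlT w t k n) (fun _ => True) ≤
      Real.exp (-((n : ℝ) / (1 + 2 * b * ((w : ℝ) + 1)))) := by
  set U := rcT w t k n with hU
  set δ := H568.sfd b w with hδ
  have hkn : k ≤ k + n := by omega
  have hn' : (((k + n : ℤ)) : ℝ) - (k : ℝ) = n := by push_cast; ring
  have hfaces : ∀ e : Bnd, e.2 = true → 0 ≤ e.1.1 → e.1.1 ≤ (w : ℤ) → k ≤ e.1.2 →
      e.1.2 < k + n → e ∈ S := by
    rintro ⟨⟨i, j⟩, d⟩ h1 h2 h3 h4 h5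
    refine hT.hor _ ?_ h1
    rw [mem_bd, mem_rcT, mem_rcT]
    simp only at h1 h2 h3 h4 h5
    subst h1
    simp only [D.rt, D.lf, if_true]
    omega
  have hRS := RS_T hT (dlT w t k n) inr_dlT (by
    intro f g hf hg hfg h
    rw [tv_dlT hf] at h
    rw [tv_dlT hg]
    omega)
  have h1 := H112.N02_le (s := ts S U) (t := tt S U) (J := fun e => J e.1)
    (fun e => hJ e.1) hRS Z1_T (fun e => H568.sfl w k (k + n) δ e.1) ?_ (Φ := 2 * δ * n) ?_
  · refine h1.trans (Real.exp_le_exp.2 ?_)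
    have h2 := H568.sfl_exp (w := w) hkn hb (S := S) (J := J) fun e _ => hJb e
    rw [hn'] at h2
    refine le_trans (le_of_eq ?_) h2
    congr 1
    exact Finset.sum_coe_sort S fun e => J e * (Real.cosh (H568.sfl w k (k + n) δ e) - 1)
  · -- the flow avoids the deleted faces
    rintro ⟨⟨⟨i, j⟩, d⟩, he⟩ h
    show H568.sfl w k (k + n) δ ((i, j), d) = 0
    apply H568.sfl_out
    intro h2
    obtain ⟨h3, h4, h5, h6⟩ := H568.mem_sfS.1 h2
    simp only at h3 h4 h5 h6
    subst h3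
    rcases h with h | h
    · obtain ⟨f, hf, hfk⟩ := mem_dlT.1 h
      have h7 : tv U (i, j) = Sum.inl f := hf
      by_cases h8 : ((i, j) : Z2) ∈ U
      · rw [tv_mem h8] at h7
        rw [← Sum.inl.inj h7] at hfk
        simp only at hfk
        omega
      · rw [tv_not h8] at h7
        cases h7
    · obtain ⟨f, hf, hfk⟩ := mem_dlT.1 h
      have h7 : tv U (i - 1, j) = Sum.inl f := hf
      by_cases h8 : ((i - 1, j) : Z2) ∈ U
      · rw [tv_mem h8] at h7
        rw [← Sum.inl.inj h7] at hfk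
        simp only at hfk
        omega
      · rw [tv_not h8] at h7
        cases h7
  · -- the flux
    intro h a1 a2 _
    have e1 := H568.sfl_flux (w := w) hkn δ (S := S) hfaces (extT U h)
      (fun y hy hy' => by
        have hout : ((-1, y) : Z2) ∉ U := by
          rw [hU, mem_rcT]
          simp only
          omega
        show h (tv U (-1, y)) = 0
        rw [tv_not hout]
        exact a1 _ rfl)
      (fun y hy hy' => by
        have hout : (((w : ℤ), y) : Z2) ∉ U := by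
          rw [hU, mem_rcT]
          simp only
          omega
        show h (tv U ((w : ℤ), y)) = 2
        rw [tv_not hout]
        exact a2 _ (by simp))
    rw [hn'] at e1
    rw [← e1]
    exact Finset.sum_coe_sort S fun e => H568.sfl w k (k + n) δ e *
      ((extT U h (D.lf e) - extT U h (D.rt e) : ℤ) : ℝ)

/-- **one end of a strip** -/
theorem far_T (hT : TopW w t k n S) {b : ℝ} (hb : 0 ≤ b) {J : Bnd → ℝ} (hJ : ∀ e, 0 ≤ J e)
    (hJb : ∀ e, J e ≤ b) (htk : t < k) (hw : 1 ≤ w) (hn : 2 ≤ n) {ρ : Z2 → ℝ}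
    (hρ : ∀ f, k < f.2 → ρ f = 0) :
    (FF J S (rcT w t k n) fun h => ch (rcT w t k n) ρ h ^ 2) /
        (FF J S (rcT w t k n) fun _ => 1) ≤
      (FF J S (rcT w t k (n - 1)) fun h => ch (rcT w t k n) ρ h ^ 2) /
          (FF J S (rcT w t k (n - 1)) fun _ => 1) +
        √((FF J S (rcT w t k n) fun h => ch (rcT w t k n) ρ h ^ 4) /
          (FF J S (rcT w t k n) fun _ => 1) *
            (2 * Real.exp (-((n : ℝ) / (1 + 2 * b * ((w : ℝ) + 1)))))) := by
  have hRS := RS_T hT (dlT w t k n) inr_dlT (by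
    intro f g hf hg hfg h
    rw [tv_dlT hf] at h
    rw [tv_dlT hg]
    omega)
  have hRS0 := RS_T hT (∅ : Finset (TV (rcT w t k n))) (by simp) (by
    intro f g hf hg hfg h
    simp)
  have h1 := H112.far (s := ts S (rcT w t k n)) (t := tt S (rcT w t k n))
    (conn_T hT hw (by omega))
    (J := fun e => J e.1) (fun e => hJ e.1) (Z := ftT (rcT w t k n)) (A := AT w t k n)
    (B := BT w t k n)
    (L := {Sum.inr false}) (R := {Sum.inr true}) (S := dlT w t k n) ⟨Sum.inr false, false, rfl⟩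
    (AB_T hn) hRS0 hRS nb_T Z1_T RSd_T (cross_T hT htk (by omega))
    (ρ := liT (rcT w t k n) ρ) ?_
  · have h2 := ratio_T hT hb hJ hJb htk hw (n := n)
    have hsub : rcT w t k (n - 1) ⊆ rcT w t k n := by
      intro f hf
      rw [mem_rcT] at hf ⊢
      omega
    have d1 : ∀ (U' : Finset Z2) (_ : U' ⊆ rcT w t k n) (p : ℕ),
        ZZ (ts S (rcT w t k n)) (tt S (rcT w t k n)) (fun e => J e.1) (pinT (rcT w t k n) U')
          (fun h => (li (liT (rcT w t k n) ρ) h) ^ p) =
        FF J S U' fun h => ch (rcT w t k n) ρ h ^ p := by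
      intro U' hU' p
      simp only [li_extT]
      exact ZZ_eq_FT J S hU' fun h => ch (rcT w t k n) ρ h ^ p
    have d0 : ∀ (U' : Finset Z2) (_ : U' ⊆ rcT w t k n),
        ZZ (ts S (rcT w t k n)) (tt S (rcT w t k n)) (fun e => J e.1) (pinT (rcT w t k n) U')
          (fun _ => 1) =
        FF J S U' fun _ => 1 := fun U' hU' => ZZ_eq_FT J S hU' fun _ => 1
    rw [pinT_succ (by omega)] at h1
    rw [ftT_eq] at h1 h2
    rw [d1 _ (Finset.Subset.refl _) 2, d1 _ (Finset.Subset.refl _) 4, d1 _ hsub 2,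
      d0 _ (Finset.Subset.refl _), d0 _ hsub] at h1
    refine h1.trans (add_le_add le_rfl (Real.sqrt_le_sqrt ?_))
    refine mul_le_mul_of_nonneg_left ?_ ?_
    · exact mul_le_mul_of_nonneg_left h2 zero_le_two
    · exact div_nonneg (FF_nonneg hJ fun h => by positivity) (FF_nonneg hJ fun h => zero_le_one)
  · intro v hv
    rcases v with f | c
    · show ρ f.1 = 0
      apply hρ
      by_contra hle
      exact hv (Or.inl ⟨f, rfl, not_lt.1 hle⟩)
    · rfl

end far

end Vale.Agent.P159.T1.H910
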