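import Vale.Agent.P159.T1.H910.Gauss

/-!
From characteristic functions to Gaussian weights: `E exp(-v X²/2)` is small if
`E cos (x X) ≤ exp (C - A x²/2)` eventually for every `x ≠ 0`, with `A` large.
-/

open MeasureTheory Filter Topology

namespace Vale.Agent.P159.T1.H910

open ProbabilityTheory

lemma gauss_interval {v : NNReal} (hv : v ≠ 0) {τ : ℝ} (hτ : 0 ≤ τ) :
    (gaussianReal 0 v).real (Set.Icc (-τ) τ) ≤ 2 * τ * (√(2 * Real.pi * v))⁻¹ := by
  have h1 : (gaussianReal 0 v) (Set.Icc (-τ) τ) ≤
      ENNReal.ofReal (2 * τ * (√(2 * Real.pi * v))⁻¹) := by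
    rw [gaussianReal_apply 0 hv]
    calc ∫⁻ x in Set.Icc (-τ) τ, gaussianPDF 0 v x
        ≤ ∫⁻ _ in Set.Icc (-τ) τ, ENNReal.ofReal (√(2 * Real.pi * v))⁻¹ := by
          refine lintegral_mono fun x => ?_
          unfold gaussianPDF
          refine ENNReal.ofReal_le_ofReal ?_
          rw [gaussianPDFReal_def]
          refine mul_le_of_le_one_right (by positivity) ?_
          rw [Real.exp_le_one_iff]
          have : 0 ≤ (x - 0) ^ 2 / (2 * (v : ℝ)) := by positivity
          rw [neg_div]
          linarith
      _ = ENNReal.ofReal (2 * τ * (√(2 * Real.pi * v))⁻¹) := by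
          rw [setLIntegral_const, Real.volume_Icc, ← ENNReal.ofReal_mul (by positivity)]
          congr 1
          ring
  unfold Measure.real
  exact ENNReal.toReal_le_of_le_ofReal (by positivity) h1

/-- **Reverse Fatou lemma for characteristic functions.** -/
theorem eventually_gauss {F : ℕ → ℝ → ℝ} (hcont : ∀ n, Continuous (F n))
    (hb : ∀ n x, F n x ≤ 1) (hb' : ∀ n x, -1 ≤ F n x) {C A : ℝ} (hA : 0 ≤ A)
    (hlim : ∀ x : ℝ, x ≠ 0 → ∀ᶠ n in atTop, F n x ≤ Real.exp (C - A * x ^ 2 / 2))
    {v : NNReal} (hv : v ≠ 0) {τ ε : ℝ} (hτ : 0 < τ) (hε : 0 < ε) :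
    ∀ᶠ n in atTop, ∫ x, F n x ∂(gaussianReal 0 v) ≤
      2 * τ * (√(2 * Real.pi * v))⁻¹ + Real.exp (C - A * τ ^ 2 / 2) + ε := by
  set m : ℝ → ℝ := fun x => (Set.Icc (-τ) τ).indicator (fun _ => (1 : ℝ)) x +
    Real.exp (C - A * τ ^ 2 / 2) with hm
  set G : ℕ → ℝ → ℝ := fun n x => max (F n x - m x) 0 with hG
  have hmm : Measurable m := (measurable_const.indicator measurableSet_Icc).add_const _
  have hm0 : ∀ x, 0 ≤ m x := fun x => by
    simp only [hm]
    have : 0 ≤ (Set.Icc (-τ) τ).indicator (fun _ => (1 : ℝ)) x :=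
      Set.indicator_nonneg (fun _ _ => zero_le_one) x
    have := Real.exp_pos (C - A * τ ^ 2 / 2)
    linarith
  have hG0 : ∀ n x, 0 ≤ G n x := fun n x => le_max_right _ _
  have hG1 : ∀ n x, G n x ≤ 1 := fun n x => max_le (by linarith [hb n x, hm0 x]) zero_le_one
  have hGm : ∀ n, AEStronglyMeasurable (G n) (gaussianReal 0 v) := fun n =>
    (((hcont n).measurable.sub hmm).max measurable_const).aestronglyMeasurable
  have hGlim : ∀ x, Tendsto (fun n => G n x) atTop (𝓝 0) := by
    intro x
    have : ∀ᶠ n in atTop, G n x = 0 := by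
      by_cases hx : x ∈ Set.Icc (-τ) τ
      · refine Eventually.of_forall fun n => ?_
        have h1 : 1 ≤ m x := by
          simp only [hm, Set.indicator_of_mem hx]
          have := Real.exp_pos (C - A * τ ^ 2 / 2)
          linarith
        exact max_eq_right (by linarith [hb n x])
      · have hx0 : x ≠ 0 := by
          rintro rfl
          exact hx ⟨by linarith, hτ.le⟩
        have hx2 : τ ^ 2 ≤ x ^ 2 := by
          rw [Set.mem_Icc, not_and_or, not_le, not_le] at hx
          rcases hx with h | h <;> nlinarith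
        filter_upwards [hlim x hx0] with n hn
        refine max_eq_right ?_
        have h1 : Real.exp (C - A * x ^ 2 / 2) ≤ m x := by
          simp only [hm, Set.indicator_of_notMem hx, zero_add]
          apply Real.exp_le_exp.2
          nlinarith
        linarith
    exact (tendsto_congr' this).2 tendsto_const_nhds
  have hGi : Tendsto (fun n => ∫ x, G n x ∂(gaussianReal 0 v)) atTop (𝓝 0) := by
    have := tendsto_integral_of_dominated_convergence (μ := gaussianReal 0 v) (F := G)
      (f := fun _ => 0) (fun _ => 1) hGm (integrable_const _) (fun n =>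
        Eventually.of_forall fun x => by
          rw [Real.norm_eq_abs, abs_of_nonneg (hG0 n x)]; exact hG1 n x)
      (Eventually.of_forall hGlim)
    simpa using this
  have hmi : Integrable m (gaussianReal 0 v) :=
    ((integrable_const (1 : ℝ)).indicator measurableSet_Icc).add (integrable_const _)
  have hmI : ∫ x, m x ∂(gaussianReal 0 v) ≤
      2 * τ * (√(2 * Real.pi * v))⁻¹ + Real.exp (C - A * τ ^ 2 / 2) := by
    simp only [hm]
    rw [integral_add ((integrable_const (1 : ℝ)).indicator measurableSet_Icc)
      (integrable_const _), integral_indicator measurableSet_Icc]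
    simp only [integral_const, smul_eq_mul, mul_one, measureReal_restrict_apply_univ,
      probReal_univ, one_mul]
    linarith [gauss_interval hv hτ.le]
  filter_upwards [hGi.eventually (gt_mem_nhds hε)] with n hn
  have hGint : Integrable (G n) (gaussianReal 0 v) :=
    Integrable.of_bound (C := 1) (hGm n) (Eventually.of_forall fun x => by
      rw [Real.norm_eq_abs, abs_of_nonneg (hG0 n x)]; exact hG1 n x)
  have hFint : Integrable (F n) (gaussianReal 0 v) :=
    Integrable.of_bound (C := 1) (hcont n).aestronglyMeasurable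
      (Eventually.of_forall fun x => by
        rw [Real.norm_eq_abs, abs_le]; exact ⟨hb' n x, hb n x⟩)
  calc ∫ x, F n x ∂(gaussianReal 0 v) ≤ ∫ x, (m x + G n x) ∂(gaussianReal 0 v) :=
        integral_mono hFint (hmi.add hGint) fun x => by
          have := le_max_left (F n x - m x) 0
          simp only [hG]
          linarith
    _ = ∫ x, m x ∂(gaussianReal 0 v) + ∫ x, G n x ∂(gaussianReal 0 v) :=
        integral_add hmi hGint
    _ ≤ _ := by linarith

end Vale.Agent.P159.T1.H910
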