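import Vale.Agent.P159.T1.H910.CosCut
import Mathlib.Probability.Distributions.Gaussian.Real

/-!
Gaussian mixtures: `exp(-v x²/2)` instead of `cos (t x)`.
-/

open MeasureTheory Filter Topology

namespace Vale.Agent.P159.T1.H910

open Vale.Agent.P159 Vale.Agent.P159.H353 Vale.Agent.P159.R2.H254 Vale.Agent.P159.R2.H729
  Vale.Agent.P159.T1.H934 ProbabilityTheory

/-- `exp(-v x²/2)` is the Gaussian mean of `cos (t x)` -/
lemma gauss_cos (v : NNReal) (x : ℝ) :
    ∫ t, Real.cos (t * x) ∂(gaussianReal 0 v) = Real.exp (-(v * x ^ 2 / 2)) := by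
  have h1 := charFun_gaussianReal (μ := 0) (v := v) x
  rw [charFun_apply_real] at h1
  have h2 : Integrable (fun t : ℝ => Complex.exp (x * t * Complex.I)) (gaussianReal 0 v) := by
    refine Integrable.of_bound (C := 1) (by fun_prop) (Eventually.of_forall fun t => ?_)
    have : (x * t * Complex.I : ℂ) = ((x * t : ℝ) : ℂ) * Complex.I := by push_cast; ring
    rw [this, Complex.norm_exp_ofReal_mul_I]
  have h3 := congrArg Complex.re h1
  have h4 : (∫ t : ℝ, Complex.exp (x * t * Complex.I) ∂(gaussianReal 0 v)).re =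
      ∫ t : ℝ, (Complex.exp (x * t * Complex.I)).re ∂(gaussianReal 0 v) :=
    (integral_re h2).symm
  rw [h4] at h3
  have h5 : ∀ t : ℝ, (Complex.exp (x * t * Complex.I)).re = Real.cos (t * x) := by
    intro t
    have : (x * t * Complex.I : ℂ) = ((t * x : ℝ) : ℂ) * Complex.I := by push_cast; ring
    rw [this, Complex.exp_ofReal_mul_I_re]
  simp only [h5] at h3
  rw [h3]
  have h6 : (x * (0 : ℝ) * Complex.I - v * x ^ 2 / 2 : ℂ) = ((-(v * x ^ 2 / 2) : ℝ) : ℂ) := by
    push_cast; ring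
  rw [h6, ← Complex.ofReal_exp, Complex.ofReal_re]

section mix

variable {V E A : Type} [Fintype V] [Fintype E] {s t : E → V} {l : A → V}

lemma measurable_cont {f : ℝ → (V → ℤ) → ℝ} (hf : ∀ h, Continuous fun x => f x h)
    (hc : Conn s t) {J : E → ℝ} (hJ : ∀ e, 0 ≤ J e) {X : Set V} (hX : X.Nonempty) {C : ℝ}
    (hC : ∀ x h, |f x h| ≤ C) : Continuous fun x => ZZ s t J X (f x) := by
  classical
  have hs := (summable_ZZ hc hJ hX 0 (f := fun _ => C) (C := |C|) (fun h => by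
    have : 1 ≤ Real.exp |li (0 : V → ℝ) h| := Real.one_le_exp (abs_nonneg _)
    exact le_mul_of_one_le_right (abs_nonneg _) this))
  unfold ZZ
  refine continuous_tsum (fun h => ?_) hs fun h x => ?_
  · split_ifs
    · exact continuous_const.mul (hf h)
    · exact continuous_const
  · rw [Real.norm_eq_abs]
    split_ifs
    · rw [abs_mul, abs_mul]
      exact mul_le_mul_of_nonneg_left ((hC x h).trans (le_abs_self _)) (abs_nonneg _)
    · exact le_rfl

lemma ZZ_integral (μ : Measure ℝ) [IsProbabilityMeasure μ] {f : ℝ → (V → ℤ) → ℝ}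
    (hf : ∀ h, Continuous fun x => f x h)
    (hc : Conn s t) {J : E → ℝ} (hJ : ∀ e, 0 ≤ J e) {X : Set V} (hX : X.Nonempty) {C : ℝ}
    (hC : ∀ x h, |f x h| ≤ C) :
    ∫ x, ZZ s t J X (f x) ∂μ = ZZ s t J X fun h => ∫ x, f x h ∂μ := by
  classical
  have hs := (summable_ZZ hc hJ hX 0 (f := fun _ => C) (C := |C|) (fun h => by
    have : 1 ≤ Real.exp |li (0 : V → ℝ) h| := Real.one_le_exp (abs_nonneg _)
    exact le_mul_of_one_le_right (abs_nonneg _) this))
  have hb : ∀ h x, ‖(if ∀ v ∈ X, h v = 0 then W (grd s t) J h * f x h else 0 : ℝ)‖ ≤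
      |if ∀ v ∈ X, h v = 0 then W (grd s t) J h * C else 0| := by
    intro h x
    rw [Real.norm_eq_abs]
    split_ifs
    · rw [abs_mul, abs_mul]
      exact mul_le_mul_of_nonneg_left ((hC x h).trans (le_abs_self _)) (abs_nonneg _)
    · exact le_rfl
  have hi : ∀ h : V → ℤ, Integrable (fun x => (if ∀ v ∈ X, h v = 0 then
      W (grd s t) J h * f x h else 0 : ℝ)) μ := by
    intro h
    refine Integrable.of_bound (C := |if ∀ v ∈ X, h v = 0 then W (grd s t) J h * C else 0|) ?_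
      (Eventually.of_forall (hb h))
    refine Continuous.aestronglyMeasurable ?_
    split_ifs
    · exact continuous_const.mul (hf h)
    · exact continuous_const
  unfold ZZ
  rw [← integral_tsum_of_summable_integral_norm hi ?_]
  · refine tsum_congr fun h => ?_
    split_ifs
    · rw [integral_const_mul]
    · simp
  · refine Summable.of_nonneg_of_le (fun h => integral_nonneg fun x => norm_nonneg _)
      (fun h => ?_) hs
    calc ∫ x, ‖(if ∀ v ∈ X, h v = 0 then W (grd s t) J h * f x h else 0 : ℝ)‖ ∂μ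
        ≤ ∫ _, |if ∀ v ∈ X, h v = 0 then W (grd s t) J h * C else 0| ∂μ :=
          integral_mono (hi h).norm (integrable_const _) (hb h)
      _ = _ := by simp

/-- the Gaussian weight of `ρ.h` -/
noncomputable def gw (v : NNReal) (ρ : V → ℝ) (h : V → ℤ) : ℝ :=
  Real.exp (-(v * (li ρ h) ^ 2 / 2))

lemma gw_le (v : NNReal) (ρ : V → ℝ) (h : V → ℤ) : gw v ρ h ≤ 1 := by
  unfold gw
  rw [Real.exp_le_one_iff]
  have : 0 ≤ (v : ℝ) * (li ρ h) ^ 2 / 2 := by positivity
  linarith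

lemma gw_pos (v : NNReal) (ρ : V → ℝ) (h : V → ℤ) : 0 < gw v ρ h := Real.exp_pos _

/-- Gaussian weights as mixtures of cosines -/
lemma ZZ_gw (hc : Conn s t) {J : E → ℝ} (hJ : ∀ e, 0 ≤ J e) {X : Set V} (hX : X.Nonempty)
    (v : NNReal) (ρ : V → ℝ) : ZZ s t J X (gw v ρ) =
      ∫ x, ZZ s t J X (fun h => Real.cos (x * li ρ h)) ∂(gaussianReal 0 v) := by
  rw [ZZ_integral (gaussianReal 0 v) (f := fun x h => Real.cos (x * li ρ h)) (C := 1)
    (fun h => by fun_prop) hc hJ hX (fun x h => Real.abs_cos_le_one _)]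
  congr 1
  funext h
  exact (gauss_cos v (li ρ h)).symm

/-- **Gaussian weights increase if more vertices are pinned.** -/
theorem pin_mono_gw (hc : Conn s t) {J : E → ℝ} (hJ : ∀ e, 0 ≤ J e) {X X' : Set V}
    (hX : X.Nonempty) (hXX : X ⊆ X') (v : NNReal) (ρ : V → ℝ) :
    ZZ s t J X (gw v ρ) * ZZ s t J X' (fun _ => 1) ≤
      ZZ s t J X' (gw v ρ) * ZZ s t J X (fun _ => 1) := by
  rw [ZZ_gw hc hJ hX, ZZ_gw hc hJ (hX.mono hXX), ← integral_mul_const, ← integral_mul_const]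
  have hi : ∀ {Y : Set V}, Y.Nonempty → ∀ c : ℝ, Integrable (fun x =>
      ZZ s t J Y (fun h => Real.cos (x * li ρ h)) * c) (gaussianReal 0 v) := by
    intro Y hY c
    have hcont := measurable_cont (f := fun x h => Real.cos (x * li ρ h)) (C := 1)
      (fun h => by fun_prop) hc hJ hY (fun x h => Real.abs_cos_le_one _)
    refine Integrable.mul_const ?_ c
    refine Integrable.of_bound (C := ZZ s t J Y fun _ => 1) hcont.aestronglyMeasurable
      (Eventually.of_forall fun x => ?_)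
    classical
    have h1 := (summable_ZZ hc hJ hY 0 (f := fun _ => 1) (one_le' 0)).of_abs
    unfold ZZ
    refine tsum_of_norm_bounded h1.hasSum fun h => ?_
    rw [Real.norm_eq_abs]
    split_ifs
    · rw [abs_mul, abs_of_nonneg (W_nonneg hJ h)]
      exact mul_le_mul_of_nonneg_left (Real.abs_cos_le_one _) (W_nonneg hJ h)
    · rw [abs_zero]
  refine integral_mono (hi hX _) (hi (hX.mono hXX) _) fun x => ?_
  have := pin_mono_cos hc hJ hX hXX (fun u => x * ρ u)
  simpa only [li_smul] using this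

/-- **Gaussian weights**: `P(E) E_{X ∪ range l}[gw] ≤ E_X[gw ; E]`. -/
theorem gw_cut (hc : Conn s t) {J : E → ℝ} (hJ : ∀ e, 0 ≤ J e) {X N : Set V}
    (hX : X.Nonempty) {ρ : V → ℝ} (hρ : ∀ v ∈ N, ρ v = 0) (v : NNReal) :
    ZE s t l J X N (fun _ => 1) * ZZ s t J (X ∪ Set.range l) (gw v ρ) ≤
      ZE s t l J X N (gw v ρ) * ZZ s t J (X ∪ Set.range l) (fun _ => 1) := by
  have hX' : (X ∪ Set.range l).Nonempty := hX.mono Set.subset_union_left
  have b1 : ∀ h : V → ℤ, |gw v ρ h| ≤ 1 * Real.exp |li ρ h| := fun h => by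
    rw [abs_of_pos (gw_pos v ρ h), one_mul]
    exact (gw_le v ρ h).trans (Real.one_le_exp (abs_nonneg _))
  have b2 : ∀ h : V → ℤ, |1 - gw v ρ h| ≤ 1 * Real.exp |li ρ h| := fun h => by
    rw [abs_of_nonneg (by linarith [gw_le v ρ h]), one_mul]
    have := gw_pos v ρ h
    have h2 : 1 ≤ Real.exp |li ρ h| := Real.one_le_exp (abs_nonneg _)
    linarith
  have h1 := cut_le (l := l) (N := N) hc hJ hX ρ (f := fun h => 1 - gw v ρ h) (C := 1)
    (fun h => by linarith [gw_le v ρ h]) b2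
    (fun h h' hh => by simp only [gw, li_congr hρ hh])
    (fun Y hY => by
      rw [ZZ_sub hc hJ hX' ρ (one_le' ρ) b1, ZZ_sub hc hJ (hX'.mono hY) ρ (one_le' ρ) b1]
      have := pin_mono_gw hc hJ hX' hY v ρ
      linarith [this])
  rw [ZE_sub_one hc hJ hX N ρ (one_le' ρ) b1, ZZ_sub hc hJ hX' ρ (one_le' ρ) b1] at h1
  linarith [h1]

/-- `E_{X ∪ range l}[gw] ≤ (E_X[gw] + P_X(Eᶜ)) / P_X(E)` is implied by
`E_{X ∪ range l}[gw] ≤ E_X[gw] / P_X(E)`, which is what is proved here -/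
theorem free_gw (hc : Conn s t) {J : E → ℝ} (hJ : ∀ e, 0 ≤ J e) {X N : Set V}
    (hX : X.Nonempty) {ρ : V → ℝ} (hρ : ∀ v ∈ N, ρ v = 0) (v : NNReal)
    (hE : 0 < ZE s t l J X N (fun _ => 1)) :
    ZZ s t J (X ∪ Set.range l) (gw v ρ) / ZZ s t J (X ∪ Set.range l) (fun _ => 1) ≤
      ZZ s t J X (gw v ρ) / ZE s t l J X N (fun _ => 1) := by
  have hX' : (X ∪ Set.range l).Nonempty := hX.mono Set.subset_union_left
  have p1 := ZZ_pos (s := s) (t := t) hc hJ hX'
  have h1 := gw_cut (l := l) hc hJ hX hρ v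
  have b1 : ∀ h : V → ℤ, |gw v ρ h| ≤ 1 * Real.exp |li ρ h| := fun h => by
    rw [abs_of_pos (gw_pos v ρ h), one_mul]
    exact (gw_le v ρ h).trans (Real.one_le_exp (abs_nonneg _))
  have h2 : ZE s t l J X N (gw v ρ) ≤ ZZ s t J X (gw v ρ) :=
    ZE_le hc hJ hX N ρ (fun h => (gw_pos v ρ h).le) b1
  rw [div_le_div_iff₀ p1 hE]
  calc _ = ZE s t l J X N (fun _ => 1) * ZZ s t J (X ∪ Set.range l) (gw v ρ) := by ring
    _ ≤ _ := h1
    _ ≤ _ := mul_le_mul_of_nonneg_right h2 p1.le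

end mix

end Vale.Agent.P159.T1.H910
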