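import Vale.Agent.P159.T1.H934.Amp
import Vale.Agent.P159.T1.H532.Bes

/-!
Integer heights on a finite connected graph with the weights `wI (J e)`, pinned to `0` on a set
`X`: exponential moments decrease if more vertices are pinned.
-/

open MeasureTheory Filter Topology

namespace Vale.Agent.P159.T1.H910

open Vale.Agent.P159 Vale.Agent.P159.H353 Vale.Agent.P159.R2.H254 Vale.Agent.P159.R2.H729
  Vale.Agent.P159.T1.H934

/-! ### the limit of large couplings -/

lemma wI_diff {b : ℝ} (hb : 0 ≤ b) (n : ℕ) :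
    b * (wI b 0 - wI b n) ≤ (n : ℝ) * (n + 1) * wI b 0 := by
  induction n with
  | zero => simp
  | succ n ih =>
    have h1 := H532.wI_rec hb ((n : ℤ) + 1)
    have h2 : wI b ((n : ℤ) + 1 + 1) ≤ wI b ((n : ℤ) + 1) := wI_anti hb (by
      rw [abs_of_nonneg (by omega), abs_of_nonneg (by omega)]; omega)
    have h3 : wI b ((n : ℤ) + 1) ≤ wI b 0 := wI_anti hb (by
      rw [abs_zero]; exact abs_nonneg _)
    rw [show (n : ℤ) + 1 - 1 = n by ring] at h1
    push_cast at h1 ⊢
    have h4 := mul_le_mul_of_nonneg_left h2 hb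
    have h5 : ((n : ℝ) + 1) * wI b ((n : ℤ) + 1) ≤ ((n : ℝ) + 1) * wI b 0 :=
      mul_le_mul_of_nonneg_left h3 (by positivity)
    nlinarith

lemma wI_ratio (n : ℤ) : Tendsto (fun m : ℕ => wI m n / wI m 0) atTop (𝓝 1) := by
  have hz : ∀ m : ℕ, 0 < wI m 0 := fun m => wI_zero_pos (Nat.cast_nonneg m)
  have hn : ∀ m : ℕ, wI m n = wI m (n.natAbs : ℤ) := by
    intro m
    rcases Int.natAbs_eq n with h | h
    · rw [← h]
    · conv_lhs => rw [h, wI_neg]
  have hlow : Tendsto (fun m : ℕ => 1 - (n.natAbs : ℝ) * (n.natAbs + 1) / (m : ℝ)) atTop (𝓝 1) := by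
    have h1 := tendsto_const_div_atTop_nhds_zero_nat ((n.natAbs : ℝ) * (n.natAbs + 1))
    simpa using (tendsto_const_nhds (x := (1 : ℝ))).sub h1
  refine tendsto_of_tendsto_of_tendsto_of_le_of_le' hlow tendsto_const_nhds ?_ ?_
  · filter_upwards [eventually_gt_atTop 0] with m hm
    have hm' : (0 : ℝ) < m := by exact_mod_cast hm
    have h1 := wI_diff hm'.le n.natAbs
    rw [le_div_iff₀ (hz m), hn m]
    have h2 : (n.natAbs : ℝ) * (n.natAbs + 1) / (m : ℝ) * wI m 0 =
        ((n.natAbs : ℝ) * (n.natAbs + 1) * wI m 0) / m := by ring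
    have h3 : wI m 0 - wI m (n.natAbs : ℤ) ≤ ((n.natAbs : ℝ) * (n.natAbs + 1) * wI m 0) / m := by
      rw [le_div_iff₀ hm']
      linarith
    rw [sub_mul, one_mul, h2]
    linarith
  · filter_upwards with m
    rw [div_le_one (hz m)]
    exact wI_anti (Nat.cast_nonneg m) (by rw [abs_zero]; exact abs_nonneg _)

section pin

variable {V E : Type} [Fintype V] [Fintype E] {s t : E → V}

open Classical in
/-- sum over the heights which vanish on `X` -/
noncomputable def ZZ (s t : E → V) (J : E → ℝ) (X : Set V) (f : (V → ℤ) → ℝ) : ℝ :=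
  ∑' h : V → ℤ, if ∀ v ∈ X, h v = 0 then W (grd s t) J h * f h else 0

/-- the linear functional `ρ.h` -/
noncomputable def li (ρ : V → ℝ) (h : V → ℤ) : ℝ := ∑ v, ρ v * (h v : ℝ)

/-- linear functional of the heights in terms of the gradient and the values at the `l y` -/
lemma exists_lnA {A : Type} [Fintype A] (hc : Conn s t) (l : A → V) (y0 : A) (ρ : V → ℝ) :
    ∃ a : E ⊕ A → ℝ, ∀ h : V → ℤ, li ρ h = ln (grdL s t l) a h := by
  classical
  choose f hf using fun v => exists_flow hc (l y0) v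
  refine ⟨Sum.elim (fun e => ∑ v, ρ v * f v e) (fun y => if y = y0 then ∑ v, ρ v else 0),
    fun h => ?_⟩
  unfold ln li
  rw [Fintype.sum_sum_type]
  simp only [Sum.elim_inl, Sum.elim_inr]
  have h1 : ∑ e, (∑ v, ρ v * f v e) * ((grdL s t l h (Sum.inl e) : ℤ) : ℝ) =
      ∑ v, ρ v * ((h v - h (l y0) : ℤ) : ℝ) := by
    simp only [Finset.sum_mul]
    rw [Finset.sum_comm]
    refine Finset.sum_congr rfl fun v _ => ?_
    rw [hf v h, Finset.mul_sum]
    exact Finset.sum_congr rfl fun e _ => by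
      show ρ v * f v e * (grd s t h e : ℝ) = _
      ring
  have h2 : ∑ y, (if y = y0 then ∑ v, ρ v else 0) * ((grdL s t l h (Sum.inr y) : ℤ) : ℝ) =
      (∑ v, ρ v) * (h (l y0) : ℝ) := by
    simp only [ite_mul, zero_mul, Finset.sum_ite_eq', Finset.mem_univ, if_true]
    rfl
  rw [h1, h2, Finset.sum_mul, ← Finset.sum_add_distrib]
  refine Finset.sum_congr rfl fun v _ => ?_
  push_cast
  ring

open Classical in
/-- summability of functions of exponential growth -/
lemma summable_ZZ (hc : Conn s t) {J : E → ℝ} (hJ : ∀ e, 0 ≤ J e) {X : Set V} (hX : X.Nonempty)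
    (ρ : V → ℝ) {f : (V → ℤ) → ℝ} {C : ℝ} (hf : ∀ h, |f h| ≤ C * Real.exp |li ρ h|) :
    Summable fun h : V → ℤ => |if ∀ v ∈ X, h v = 0 then W (grd s t) J h * f h else 0| := by
  obtain ⟨x, hx⟩ := hX
  obtain ⟨a, ha⟩ := exists_lnA hc (px x) () ρ
  have h1 := summable_growth (grdL_inj (l := px x) hc ⟨()⟩) (J := Sum.elim J 0)
    (by rintro (e | y) <;> simp [hJ]) a (f := f) (C := C) (fun h => by rw [← ha h]; exact hf h)
  refine Summable.of_nonneg_of_le (fun _ => abs_nonneg _) (fun h => ?_) h1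
  rw [W_px]
  by_cases h2 : ∀ v ∈ X, h v = 0
  · rw [if_pos h2, if_pos (h2 x hx)]
  · rw [if_neg h2, abs_zero]
    exact abs_nonneg _

lemma cosh_le (ρ : V → ℝ) (h : V → ℤ) : |Real.cosh (li ρ h)| ≤ 1 * Real.exp |li ρ h| := by
  rw [abs_of_pos (Real.cosh_pos _), one_mul, ← Real.cosh_abs, Real.cosh_eq]
  have : Real.exp (-|li ρ h|) ≤ Real.exp |li ρ h| :=
    Real.exp_le_exp.2 (by linarith [abs_nonneg (li ρ h)])
  linarith

lemma exp_le' (ρ : V → ℝ) (h : V → ℤ) : |Real.exp (li ρ h)| ≤ 1 * Real.exp |li ρ h| := by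
  rw [abs_of_pos (Real.exp_pos _), one_mul]
  exact Real.exp_le_exp.2 (le_abs_self _)

lemma one_le' (ρ : V → ℝ) (h : V → ℤ) : |(1 : ℝ)| ≤ 1 * Real.exp |li ρ h| := by
  rw [abs_one, one_mul]
  exact Real.one_le_exp (abs_nonneg _)

lemma li_neg (ρ : V → ℝ) (h : V → ℤ) : li ρ (-h) = -li ρ h := by
  unfold li
  rw [← Finset.sum_neg_distrib]
  refine Finset.sum_congr rfl fun v _ => ?_
  rw [Pi.neg_apply]
  push_cast
  ring

lemma ZZ_nonneg {J : E → ℝ} (hJ : ∀ e, 0 ≤ J e) (X : Set V) {f : (V → ℤ) → ℝ}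
    (hf : ∀ h, 0 ≤ f h) : 0 ≤ ZZ s t J X f := tsum_nonneg fun h => by
  split_ifs
  · exact mul_nonneg (W_nonneg hJ _) (hf _)
  · exact le_rfl

/-- the partition function is positive -/
lemma ZZ_pos (hc : Conn s t) {J : E → ℝ} (hJ : ∀ e, 0 ≤ J e) {X : Set V} (hX : X.Nonempty) :
    0 < ZZ s t J X fun _ => 1 := by
  classical
  have h1 := (summable_ZZ hc hJ hX 0 (f := fun _ => 1) (one_le' 0)).of_abs
  refine h1.tsum_pos (fun h => ?_) 0 ?_
  · split_ifs
    · exact mul_nonneg (W_nonneg hJ _) zero_le_one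
    · exact le_rfl
  · rw [if_pos (fun v _ => by simp), mul_one]
    exact W0_pos hJ

/-- symmetry -/
lemma ZZ_exp (hc : Conn s t) {J : E → ℝ} (hJ : ∀ e, 0 ≤ J e) {X : Set V} (hX : X.Nonempty)
    (ρ : V → ℝ) : ZZ s t J X (fun h => Real.exp (li ρ h)) =
      ZZ s t J X fun h => Real.cosh (li ρ h) := by
  classical
  have h1 := (summable_ZZ hc hJ hX ρ (exp_le' ρ)).of_abs
  have h2 := (summable_ZZ hc hJ hX ρ (f := fun h => Real.exp (-li ρ h)) (C := 1) (fun h => by
    rw [abs_of_pos (Real.exp_pos _), one_mul]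
    exact Real.exp_le_exp.2 (neg_le_abs _))).of_abs
  have e1 : ZZ s t J X (fun h => Real.exp (li ρ h)) =
      ZZ s t J X fun h => Real.exp (-li ρ h) := by
    unfold ZZ
    rw [← tsum_neg_arg]
    refine tsum_congr fun h => ?_
    have : (∀ v ∈ X, (-h) v = 0) ↔ ∀ v ∈ X, h v = 0 := by
      simp only [Pi.neg_apply, neg_eq_zero]
    simp only [this, W_neg, li_neg]
  have e2 : 2 * ZZ s t J X (fun h => Real.cosh (li ρ h)) =
      ZZ s t J X (fun h => Real.exp (li ρ h)) + ZZ s t J X fun h => Real.exp (-li ρ h) := by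
    unfold ZZ
    rw [← h1.tsum_add h2, ← tsum_mul_left]
    refine tsum_congr fun h => ?_
    split_ifs
    · simp only [Real.cosh_eq]; ring
    · ring
  linarith

/-- **Exponential moments decrease if more vertices are pinned.** -/
theorem pin_mono (hc : Conn s t) {J : E → ℝ} (hJ : ∀ e, 0 ≤ J e) {X X' : Set V}
    (hX : X.Nonempty) (hXX : X ⊆ X') (ρ : V → ℝ) :
    ZZ s t J X' (fun h => Real.exp (li ρ h)) * ZZ s t J X (fun _ => 1) ≤
      ZZ s t J X (fun h => Real.exp (li ρ h)) * ZZ s t J X' (fun _ => 1) := by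
  classical
  rw [ZZ_exp hc hJ hX, ZZ_exp hc hJ (hX.mono hXX)]
  obtain ⟨x0, hx0⟩ := hX
  set A : Type := {v : V // v ∈ X'} with hA
  set l : A → V := Subtype.val with hl
  obtain ⟨a, ha⟩ := exists_lnA hc l ⟨x0, hXX hx0⟩ ρ
  have hinj := grdL_inj (l := l) hc ⟨⟨x0, hXX hx0⟩⟩
  set J' : E ⊕ A → ℝ := Sum.elim J 0 with hJ'
  set K' : ℕ → E ⊕ A → ℝ := fun m => Sum.elim 0 (fun y => if y.1 ∈ X then 0 else (m : ℝ)) with hK'
  have hJ'0 : ∀ x, 0 ≤ J' x := by rintro (e | y) <;> simp [hJ', hJ]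
  have hK'0 : ∀ m x, 0 ≤ K' m x := by
    rintro m (e | y)
    · simp [hK']
    · simp only [hK', Sum.elim_inr]; split_ifs <;> simp
  have hm : ∀ m : ℕ, _ := fun m => mono_cosh hinj hJ'0 (hK'0 m) a
  -- weights
  have hadd : ∀ m, J' + K' m = Sum.elim J (fun y : A => if y.1 ∈ X then 0 else (m : ℝ)) := by
    intro m
    funext x
    rcases x with e | y <;> simp [hJ', hK']
  have w1 : ∀ h : V → ℤ, W (grdL s t l) J' h = if ∀ v ∈ X', h v = 0 then
      W (grd s t) J h else 0 := by
    intro h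
    rw [hJ', W_grdL]
    unfold Psi vals
    simp only [Pi.zero_apply, AddMonoidHom.coe_mk, ZeroHom.coe_mk, sub_zero, wI_zero_left]
    by_cases h1 : ∀ v ∈ X', h v = 0
    · rw [if_pos h1, Finset.prod_eq_one fun y _ => if_pos (h1 y.1 y.2), mul_one]
    · rw [if_neg h1]
      push Not at h1
      obtain ⟨v, hv, hne⟩ := h1
      rw [Finset.prod_eq_zero (Finset.mem_univ (⟨v, hv⟩ : A)) (if_neg hne), mul_zero]
  set c : ℕ → ℝ := fun m => ∏ y : A, if y.1 ∈ X then 1 else wI m 0 with hcm
  have c0 : ∀ m, 0 < c m := fun m => Finset.prod_pos fun y _ => by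
    split_ifs
    · exact one_pos
    · exact wI_zero_pos (Nat.cast_nonneg m)
  set R : ℕ → (V → ℤ) → ℝ := fun m h => ∏ y : A, if y.1 ∈ X then (if h y.1 = 0 then 1 else 0)
    else wI m (h y.1) / wI m 0 with hR
  have w2 : ∀ m (h : V → ℤ), W (grdL s t l) (J' + K' m) h = c m * (W (grd s t) J h * R m h) := by
    intro m h
    rw [hadd, W_grdL]
    have : Psi (vals l) (fun y : A => if y.1 ∈ X then 0 else (m : ℝ)) h 0 = c m * R m h := by
      unfold Psi vals
      simp only [hcm, hR, AddMonoidHom.coe_mk, ZeroHom.coe_mk, sub_zero]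
      rw [← Finset.prod_mul_distrib]
      refine Finset.prod_congr rfl fun y _ => ?_
      by_cases hy : y.1 ∈ X
      · simp only [hy, if_true, one_mul, wI_zero_left]
        rfl
      · simp only [hy, if_false]
        rw [mul_div_cancel₀ _ (wI_zero_pos (Nat.cast_nonneg m)).ne']
    rw [this]
    ring
  have R0 : ∀ m h, 0 ≤ R m h := fun m h => Finset.prod_nonneg fun y _ => by
    split_ifs
    · exact zero_le_one
    · exact le_rfl
    · exact div_nonneg (wI_nonneg (Nat.cast_nonneg m) _) (wI_nonneg (Nat.cast_nonneg m) _)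
  have R1 : ∀ m h, R m h ≤ if h x0 = 0 then 1 else 0 := by
    intro m h
    by_cases h1 : h x0 = 0
    · rw [if_pos h1]
      refine Finset.prod_le_one (fun y _ => ?_) fun y _ => ?_
      · split_ifs
        · exact zero_le_one
        · exact le_rfl
        · exact div_nonneg (wI_nonneg (Nat.cast_nonneg m) _) (wI_nonneg (Nat.cast_nonneg m) _)
      · split_ifs
        · exact le_rfl
        · exact zero_le_one
        · rw [div_le_one (wI_zero_pos (Nat.cast_nonneg m))]
          exact wI_anti (Nat.cast_nonneg m) (by rw [abs_zero]; exact abs_nonneg _)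
    · rw [if_neg h1]
      refine (Finset.prod_eq_zero (Finset.mem_univ (⟨x0, hXX hx0⟩ : A)) ?_).le
      simp only [hx0, if_true]
      exact if_neg h1
  have Rlim : ∀ h, Tendsto (fun m => R m h) atTop (𝓝 (if ∀ v ∈ X, h v = 0 then 1 else 0)) := by
    intro h
    have h1 : Tendsto (fun m => R m h) atTop (𝓝 (∏ y : A, if y.1 ∈ X then
        (if h y.1 = 0 then 1 else 0) else (1 : ℝ))) := by
      refine tendsto_finsetProd _ fun y _ => ?_
      by_cases hy : y.1 ∈ X
      · simp only [hy, if_true]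
        exact tendsto_const_nhds
      · simp only [hy, if_false]
        exact wI_ratio _
    have h2 : (∏ y : A, if y.1 ∈ X then (if h y.1 = 0 then 1 else 0) else (1 : ℝ)) =
        if ∀ v ∈ X, h v = 0 then 1 else 0 := by
      by_cases h3 : ∀ v ∈ X, h v = 0
      · rw [if_pos h3]
        refine Finset.prod_eq_one fun y _ => ?_
        by_cases hy : y.1 ∈ X
        · rw [if_pos hy, if_pos (h3 _ hy)]
        · rw [if_neg hy]
      · rw [if_neg h3]
        push Not at h3
        obtain ⟨v, hv, hne⟩ := h3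
        refine Finset.prod_eq_zero (Finset.mem_univ (⟨v, hXX hv⟩ : A)) ?_
        simp only [hv, if_true]
        exact if_neg hne
    rw [h2] at h1
    exact h1
  have lim : ∀ f : (V → ℤ) → ℝ, (∀ h, 0 ≤ f h) → (∀ h, |f h| ≤ 1 * Real.exp |li ρ h|) →
      Tendsto (fun m => ∑' h, W (grd s t) J h * R m h * f h) atTop (𝓝 (ZZ s t J X f)) := by
    intro f f0 hf
    have hs := (summable_ZZ hc hJ (X := {x0}) ⟨x0, rfl⟩ ρ hf).of_abs
    refine tendsto_tsum_of_dominated_convergence (bound := fun h : V → ℤ =>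
      if ∀ v ∈ ({x0} : Set V), h v = 0 then W (grd s t) J h * f h else 0) hs (fun h => ?_) ?_
    · have h1 := ((Rlim h).const_mul (W (grd s t) J h)).mul_const (f h)
      have h2 : (W (grd s t) J h * if ∀ v ∈ X, h v = 0 then 1 else 0) * f h =
          if ∀ v ∈ X, h v = 0 then W (grd s t) J h * f h else 0 := by
        split_ifs <;> ring
      rw [h2] at h1
      exact h1
    · filter_upwards with m h
      rw [Real.norm_eq_abs, abs_of_nonneg (mul_nonneg (mul_nonneg (W_nonneg hJ _) (R0 m h)) (f0 h))]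
      have h1 := R1 m h
      simp only [Set.mem_singleton_iff, forall_eq]
      by_cases h2 : h x0 = 0
      · rw [if_pos h2] at h1 ⊢
        refine mul_le_mul_of_nonneg_right ?_ (f0 h)
        exact mul_le_of_le_one_right (W_nonneg hJ _) h1
      · rw [if_neg h2] at h1 ⊢
        have : R m h = 0 := le_antisymm h1 (R0 m h)
        rw [this]
        simp
  have l1 := lim (fun h => Real.cosh (li ρ h)) (fun h => (Real.cosh_pos _).le) (cosh_le ρ)
  have l2 := lim (fun _ => 1) (fun _ => zero_le_one) (one_le' ρ)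
  have e1 : ∑' h, W (grdL s t l) J' h * Real.cosh (ln (grdL s t l) a h) =
      ZZ s t J X' fun h => Real.cosh (li ρ h) := by
    unfold ZZ
    refine tsum_congr fun h => ?_
    rw [w1, ← ha h]
    split_ifs
    · rfl
    · rw [zero_mul]
  have e2 : ∑' h, W (grdL s t l) J' h = ZZ s t J X' fun _ => 1 := by
    unfold ZZ
    refine tsum_congr fun h => ?_
    rw [w1]
    split_ifs
    · rw [mul_one]
    · rfl
  have key : ∀ m, ZZ s t J X' (fun h => Real.cosh (li ρ h)) *
      (∑' h, W (grd s t) J h * R m h * 1) ≤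
      (∑' h, W (grd s t) J h * R m h * Real.cosh (li ρ h)) * ZZ s t J X' fun _ => 1 := by
    intro m
    have h1 := hm m
    rw [e1, e2] at h1
    have e3 : ∑' h, W (grdL s t l) (J' + K' m) h =
        c m * ∑' h, W (grd s t) J h * R m h * 1 := by
      rw [← tsum_mul_left]
      exact tsum_congr fun h => by rw [w2, mul_one]
    have e4 : ∑' h, W (grdL s t l) (J' + K' m) h * Real.cosh (ln (grdL s t l) a h) =
        c m * ∑' h, W (grd s t) J h * R m h * Real.cosh (li ρ h) := by
      rw [← tsum_mul_left]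
      exact tsum_congr fun h => by rw [w2, ← ha h]; ring
    rw [e3, e4] at h1
    refine le_of_mul_le_mul_left ?_ (c0 m)
    linarith
  exact le_of_tendsto_of_tendsto' (l2.const_mul _) (l1.mul_const _) key

end pin

end Vale.Agent.P159.T1.H910
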