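import Vale.Agent.P159.T1.H910.CutTilt

/-!
Pinning as a limit of couplings, and its consequences: expectations of cosines increase, second
moments decrease if more vertices are pinned to `0`.
-/

open MeasureTheory Filter Topology

namespace Vale.Agent.P159.T1.H910

open Vale.Agent.P159 Vale.Agent.P159.H353 Vale.Agent.P159.R2.H254 Vale.Agent.P159.R2.H729
  Vale.Agent.P159.T1.H934

section pin

variable {V E : Type} [Fintype V] [Fintype E] {s t : E → V}

/-- the system pinned on `X` is the limit of systems whose couplings are larger than those of the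
system pinned on `X'` -/
theorem pin_seq (hc : Conn s t) {J : E → ℝ} (hJ : ∀ e, 0 ≤ J e) {X X' : Set V}
    (hX : X.Nonempty) (hXX : X ⊆ X') :
    ∃ (A : Type) (_ : Fintype A) (l : A → V) (J' : E ⊕ A → ℝ) (K' : ℕ → E ⊕ A → ℝ) (c : ℕ → ℝ),
      Nonempty A ∧ (∀ x, 0 ≤ J' x) ∧ (∀ m x, 0 ≤ K' m x) ∧ (∀ m, 0 < c m) ∧
      (∀ f : (V → ℤ) → ℝ, ∑' h, W (grdL s t l) J' h * f h = ZZ s t J X' f) ∧
      ∀ (ρ : V → ℝ) (f : (V → ℤ) → ℝ) (C : ℝ), (∀ h, |f h| ≤ C * Real.exp |li ρ h|) →
        Tendsto (fun m => (c m)⁻¹ * ∑' h, W (grdL s t l) (J' + K' m) h * f h) atTop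
          (𝓝 (ZZ s t J X f)) := by
  classical
  obtain ⟨x0, hx0⟩ := hX
  set A : Type := {v : V // v ∈ X'} with hA
  set l : A → V := Subtype.val with hl
  set J' : E ⊕ A → ℝ := Sum.elim J 0 with hJ'
  set K' : ℕ → E ⊕ A → ℝ := fun m => Sum.elim 0 (fun y => if y.1 ∈ X then 0 else (m : ℝ)) with hK'
  have hJ'0 : ∀ x, 0 ≤ J' x := by rintro (e | y) <;> simp [hJ', hJ]
  have hK'0 : ∀ m x, 0 ≤ K' m x := by
    rintro m (e | y)
    · simp [hK']
    · simp only [hK', Sum.elim_inr]; split_ifs <;> simp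
  have hadd : ∀ m, J' + K' m = Sum.elim J (fun y : A => if y.1 ∈ X then 0 else (m : ℝ)) := by
    intro m
    funext x
    rcases x with e | y <;> simp [hJ', hK']
  have w1 : ∀ h : V → ℤ, W (grdL s t l) J' h = if ∀ v ∈ X', h v = 0 then
      W (grd s t) J h else 0 := by
    intro h
    rw [hJ', W_grdL]
    unfold Psi vals
    simp only [Pi.zero_apply, AddMonoidHom.coe_mk, ZeroHom.coe_mk, sub_zero, wI_zero_left]
    by_cases h1 : ∀ v ∈ X', h v = 0
    · rw [if_pos h1, Finset.prod_eq_one fun y _ => if_pos (h1 y.1 y.2), mul_one]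
    · rw [if_neg h1]
      push Not at h1
      obtain ⟨v, hv, hne⟩ := h1
      rw [Finset.prod_eq_zero (Finset.mem_univ (⟨v, hv⟩ : A)) (if_neg hne), mul_zero]
  set c : ℕ → ℝ := fun m => ∏ y : A, if y.1 ∈ X then 1 else wI m 0 with hcm
  have c0 : ∀ m, 0 < c m := fun m => Finset.prod_pos fun y _ => by
    split_ifs
    · exact one_pos
    · exact wI_zero_pos (Nat.cast_nonneg m)
  set R : ℕ → (V → ℤ) → ℝ := fun m h => ∏ y : A, if y.1 ∈ X then (if h y.1 = 0 then 1 else 0)
    else wI m (h y.1) / wI m 0 with hR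
  have w2 : ∀ m (h : V → ℤ), W (grdL s t l) (J' + K' m) h = c m * (W (grd s t) J h * R m h) := by
    intro m h
    rw [hadd, W_grdL]
    have : Psi (vals l) (fun y : A => if y.1 ∈ X then 0 else (m : ℝ)) h 0 = c m * R m h := by
      unfold Psi vals
      simp only [hcm, hR, AddMonoidHom.coe_mk, ZeroHom.coe_mk, sub_zero]
      rw [← Finset.prod_mul_distrib]
      refine Finset.prod_congr rfl fun y _ => ?_
      by_cases hy : y.1 ∈ X
      · simp only [hy, if_true, one_mul, wI_zero_left]
        rfl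
      · simp only [hy, if_false]
        rw [mul_div_cancel₀ _ (wI_zero_pos (Nat.cast_nonneg m)).ne']
    rw [this]
    ring
  have R0 : ∀ m h, 0 ≤ R m h := fun m h => Finset.prod_nonneg fun y _ => by
    split_ifs
    · exact zero_le_one
    · exact le_rfl
    · exact div_nonneg (wI_nonneg (Nat.cast_nonneg m) _) (wI_nonneg (Nat.cast_nonneg m) _)
  have R1 : ∀ m h, R m h ≤ if h x0 = 0 then 1 else 0 := by
    intro m h
    by_cases h1 : h x0 = 0
    · rw [if_pos h1]
      refine Finset.prod_le_one (fun y _ => ?_) fun y _ => ?_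
      · split_ifs
        · exact zero_le_one
        · exact le_rfl
        · exact div_nonneg (wI_nonneg (Nat.cast_nonneg m) _) (wI_nonneg (Nat.cast_nonneg m) _)
      · split_ifs
        · exact le_rfl
        · exact zero_le_one
        · rw [div_le_one (wI_zero_pos (Nat.cast_nonneg m))]
          exact wI_anti (Nat.cast_nonneg m) (by rw [abs_zero]; exact abs_nonneg _)
    · rw [if_neg h1]
      refine (Finset.prod_eq_zero (Finset.mem_univ (⟨x0, hXX hx0⟩ : A)) ?_).le
      simp only [hx0, if_true]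
      exact if_neg h1
  have Rlim : ∀ h, Tendsto (fun m => R m h) atTop (𝓝 (if ∀ v ∈ X, h v = 0 then 1 else 0)) := by
    intro h
    have h1 : Tendsto (fun m => R m h) atTop (𝓝 (∏ y : A, if y.1 ∈ X then
        (if h y.1 = 0 then 1 else 0) else (1 : ℝ))) := by
      refine tendsto_finsetProd _ fun y _ => ?_
      by_cases hy : y.1 ∈ X
      · simp only [hy, if_true]
        exact tendsto_const_nhds
      · simp only [hy, if_false]
        exact wI_ratio _
    have h2 : (∏ y : A, if y.1 ∈ X then (if h y.1 = 0 then 1 else 0) else (1 : ℝ)) =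
        if ∀ v ∈ X, h v = 0 then 1 else 0 := by
      by_cases h3 : ∀ v ∈ X, h v = 0
      · rw [if_pos h3]
        refine Finset.prod_eq_one fun y _ => ?_
        by_cases hy : y.1 ∈ X
        · rw [if_pos hy, if_pos (h3 _ hy)]
        · rw [if_neg hy]
      · rw [if_neg h3]
        push Not at h3
        obtain ⟨v, hv, hne⟩ := h3
        refine Finset.prod_eq_zero (Finset.mem_univ (⟨v, hXX hv⟩ : A)) ?_
        simp only [hv, if_true]
        exact if_neg hne
    rw [h2] at h1
    exact h1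
  refine ⟨A, inferInstance, l, J', K', c, ⟨⟨x0, hXX hx0⟩⟩, hJ'0, hK'0, c0, fun f => ?_,
    fun ρ f C hf => ?_⟩
  · unfold ZZ
    refine tsum_congr fun h => ?_
    rw [w1]
    split_ifs
    · rfl
    · rw [zero_mul]
  · have e1 : ∀ m, (c m)⁻¹ * ∑' h, W (grdL s t l) (J' + K' m) h * f h =
        ∑' h, W (grd s t) J h * R m h * f h := by
      intro m
      rw [← tsum_mul_left]
      refine tsum_congr fun h => ?_
      rw [w2]
      have := (c0 m).ne'
      field_simp
    simp only [e1]
    have hs := summable_ZZ hc hJ (X := {x0}) ⟨x0, rfl⟩ ρ hf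
    refine tendsto_tsum_of_dominated_convergence (bound := fun h : V → ℤ =>
      |if ∀ v ∈ ({x0} : Set V), h v = 0 then W (grd s t) J h * f h else 0|) hs (fun h => ?_) ?_
    · have h1 := ((Rlim h).const_mul (W (grd s t) J h)).mul_const (f h)
      have h2 : (W (grd s t) J h * if ∀ v ∈ X, h v = 0 then 1 else 0) * f h =
          if ∀ v ∈ X, h v = 0 then W (grd s t) J h * f h else 0 := by
        split_ifs <;> ring
      rw [h2] at h1
      exact h1
    · filter_upwards with m h
      have h1 := R1 m h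
      simp only [Set.mem_singleton_iff, forall_eq]
      rw [Real.norm_eq_abs, abs_mul, abs_mul, abs_of_nonneg (R0 m h),
        abs_of_nonneg (W_nonneg hJ h)]
      by_cases h2 : h x0 = 0
      · rw [if_pos h2] at h1
        rw [if_pos h2, abs_mul, abs_of_nonneg (W_nonneg hJ h)]
        refine mul_le_mul_of_nonneg_right ?_ (abs_nonneg _)
        exact mul_le_of_le_one_right (W_nonneg hJ _) h1
      · rw [if_neg h2] at h1
        have : R m h = 0 := le_antisymm h1 (R0 m h)
        rw [if_neg h2, this]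
        simp

/-- `li` as a homomorphism -/
noncomputable def liH (ρ : V → ℝ) : (V → ℤ) →+ ℝ where
  toFun h := li ρ h
  map_zero' := by unfold li; simp
  map_add' h k := by
    unfold li
    rw [← Finset.sum_add_distrib]
    refine Finset.sum_congr rfl fun v _ => ?_
    rw [Pi.add_apply]
    push_cast
    ring

lemma cos_le' (ρ : V → ℝ) (h : V → ℤ) : |Real.cos (li ρ h)| ≤ 1 * Real.exp |li ρ h| := by
  rw [one_mul]
  exact (Real.abs_cos_le_one _).trans (Real.one_le_exp (abs_nonneg _))

lemma sq_le' (ρ : V → ℝ) (h : V → ℤ) : |(li ρ h) ^ 2| ≤ 2 * Real.exp |li ρ h| := by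
  rw [abs_of_nonneg (sq_nonneg _), ← sq_abs]
  have h1 := Real.quadratic_le_exp_of_nonneg (abs_nonneg (li ρ h))
  nlinarith [abs_nonneg (li ρ h)]

/-- **Expectations of cosines increase if more vertices are pinned.** -/
theorem pin_mono_cos (hc : Conn s t) {J : E → ℝ} (hJ : ∀ e, 0 ≤ J e) {X X' : Set V}
    (hX : X.Nonempty) (hXX : X ⊆ X') (ρ : V → ℝ) :
    ZZ s t J X (fun h => Real.cos (li ρ h)) * ZZ s t J X' (fun _ => 1) ≤
      ZZ s t J X' (fun h => Real.cos (li ρ h)) * ZZ s t J X (fun _ => 1) := by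
  obtain ⟨A, _, l, J', K', c, hA, hJ', hK', c0, e, lim⟩ := pin_seq hc hJ hX hXX
  have hinj := grdL_inj (l := l) hc hA
  have l1 := lim ρ _ 1 (cos_le' ρ)
  have l2 := lim ρ (fun _ => 1) 1 (one_le' ρ)
  refine le_of_tendsto_of_tendsto' (l1.mul_const _) (l2.const_mul _) fun m => ?_
  have h1 := mono_cos hinj hJ' (hK' m) (liH ρ)
  have h2 : ∑' h, W (grdL s t l) (J' + K' m) h * Real.cos (liH ρ h) =
      ∑' h, W (grdL s t l) (J' + K' m) h * Real.cos (li ρ h) := rfl
  have h3 : ∑' h, W (grdL s t l) J' h * Real.cos (liH ρ h) =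
      ZZ s t J X' (fun h => Real.cos (li ρ h)) := e _
  have h4 : ∑' h, W (grdL s t l) J' h = ZZ s t J X' (fun _ => 1) := by
    rw [← e]
    exact tsum_congr fun h => (mul_one _).symm
  have h5 : ∑' h, W (grdL s t l) (J' + K' m) h =
      ∑' h, W (grdL s t l) (J' + K' m) h * (fun _ : V → ℤ => (1 : ℝ)) h :=
    tsum_congr fun h => (mul_one _).symm
  rw [h2, h3, h4, h5] at h1
  have h6 := mul_le_mul_of_nonneg_left h1 (inv_nonneg.2 (c0 m).le)
  calc _ = (c m)⁻¹ * ((∑' h, W (grdL s t l) (J' + K' m) h * Real.cos (li ρ h)) *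
        ZZ s t J X' (fun _ => 1)) := by ring
    _ ≤ _ := h6
    _ = _ := by ring

end pin

end Vale.Agent.P159.T1.H910
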