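import Vale.Agent.P159.T1.H910.Far

/-!
An explicit flow in the quadrant box from the left side to the lower side.
-/

open MeasureTheory Filter Topology

namespace Vale.Agent.P159.T1.H910

open Vale.Agent.P159 Vale.Agent.P159.H353 Vale.Agent.P159.R2.H254 Vale.Agent.P159.R2.H729
  Vale.Agent.P159.T1.H934 Vale.Agent.P159.T1.D
open Vale.Agent.P159.T1.H532 (bxQ mem_bxQ SQ mem_SQ JQ)

/-- the flow `κ / k` along the path `(-1,k), (0,k), …, (k,k), (k,k-1), …, (k,-1)`, for all
`k ≥ a` -/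
noncomputable def βq (κ : ℝ) (a : ℕ) (e : Bnd) : ℝ :=
  if e.2 then (if (a : ℤ) ≤ e.1.2 ∧ e.1.1 ≤ e.1.2 then κ / (e.1.2 : ℝ) else 0)
  else (if (a : ℤ) ≤ e.1.1 ∧ e.1.2 ≤ e.1.1 then κ / (e.1.1 : ℝ) else 0)

/-- the flow avoids the faces of the inner box -/
lemma βq_zero (κ : ℝ) {a : ℕ} {e : Bnd} (he : D.lf e ∈ bxQ a ∨ D.rt e ∈ bxQ a) :
    βq κ a e = 0 := by
  obtain ⟨⟨i, j⟩, d⟩ := e
  rw [mem_bxQ, mem_bxQ] at he
  unfold βq
  cases d
  · simp only [D.lf, D.rt, Bool.false_eq_true, if_false] at he ⊢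
    rw [if_neg (by omega)]
  · simp only [D.lf, D.rt, if_true] at he ⊢
    rw [if_neg (by omega)]

lemma sum_SQ (L : ℕ) (F : Bnd → ℝ) :
    ∑ e ∈ SQ L, F e = ∑ i ∈ Finset.range L, ∑ j ∈ Finset.range L,
      (F (((i : ℤ), (j : ℤ)), true) + F (((i : ℤ), (j : ℤ)), false)) := by
  classical
  have h1 : ∀ G : Z2 → ℝ, ∑ f ∈ bxQ L, G f =
      ∑ i ∈ Finset.range L, ∑ j ∈ Finset.range L, G ((i : ℤ), (j : ℤ)) := by
    intro G
    unfold H532.bxQ
    rw [Finset.sum_product]
    have e1 : ∀ K : ℤ → ℝ, ∑ i ∈ Finset.Ico (0 : ℤ) L, K i = ∑ i ∈ Finset.range L, K i := by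
      intro K
      symm
      refine Finset.sum_bij (fun i _ => (i : ℤ)) (fun i hi => ?_) (fun i _ j _ h => ?_)
        (fun i hi => ?_) (fun i _ => rfl)
      · rw [Finset.mem_range] at hi
        rw [Finset.mem_Ico]
        omega
      · exact_mod_cast h
      · rw [Finset.mem_Ico] at hi
        exact ⟨i.toNat, by rw [Finset.mem_range]; omega, by omega⟩
    rw [e1]
    exact Finset.sum_congr rfl fun i _ => e1 _
  unfold H532.SQ
  rw [Finset.sum_product, h1]
  refine Finset.sum_congr rfl fun i _ => Finset.sum_congr rfl fun j _ => ?_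
  rw [Fintype.sum_bool]

/-- **flux** -/
theorem βq_flux (κ : ℝ) (a L : ℕ) (h : Z2 → ℤ) :
    ∑ e ∈ SQ L, βq κ a e * ((dh h e : ℤ) : ℝ) =
      ∑ k ∈ Finset.Ico a L, κ / (k : ℝ) * ((h (-1, (k : ℤ)) - h ((k : ℤ), -1) : ℤ) : ℝ) := by
  rw [sum_SQ]
  simp only [Finset.sum_add_distrib]
  -- the horizontal parts
  have h1 : ∑ i ∈ Finset.range L, ∑ j ∈ Finset.range L,
      βq κ a (((i : ℤ), (j : ℤ)), true) * ((dh h (((i : ℤ), (j : ℤ)), true) : ℤ) : ℝ) =
      ∑ k ∈ Finset.Ico a L, κ / (k : ℝ) *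
        ((h (-1, (k : ℤ)) - h ((k : ℤ), (k : ℤ)) : ℤ) : ℝ) := by
    rw [Finset.sum_comm]
    have e1 : ∑ k ∈ Finset.Ico a L, κ / (k : ℝ) *
        ((h (-1, (k : ℤ)) - h ((k : ℤ), (k : ℤ)) : ℤ) : ℝ) =
        ∑ k ∈ Finset.range L, if a ≤ k then κ / (k : ℝ) *
          ((h (-1, (k : ℤ)) - h ((k : ℤ), (k : ℤ)) : ℤ) : ℝ) else 0 := by
      rw [← Finset.sum_filter]
      refine Finset.sum_congr ?_ fun _ _ => rfl
      ext k
      simp only [Finset.mem_Ico, Finset.mem_filter, Finset.mem_range]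
      tauto
    rw [e1]
    refine Finset.sum_congr rfl fun k hk => ?_
    rw [Finset.mem_range] at hk
    by_cases hak : a ≤ k
    · rw [if_pos hak]
      have e2 : ∀ i ∈ Finset.range L,
          βq κ a (((i : ℤ), (k : ℤ)), true) * ((dh h (((i : ℤ), (k : ℤ)), true) : ℤ) : ℝ) =
          if i < k + 1 then κ / (k : ℝ) *
            ((h ((i : ℤ) - 1, (k : ℤ)) - h ((i : ℤ), (k : ℤ)) : ℤ) : ℝ) else 0 := by
        intro i _
        unfold βq dh
        simp only [D.lf, D.rt, if_true]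
        by_cases hik : i < k + 1
        · rw [if_pos hik, if_pos ⟨by exact_mod_cast hak, by omega⟩]
          push_cast
          ring
        · rw [if_neg hik, if_neg (by omega), zero_mul]
      rw [Finset.sum_congr rfl e2, ← Finset.sum_filter]
      have e3 : (Finset.range L).filter (fun i => i < k + 1) = Finset.range (k + 1) := by
        ext i
        simp only [Finset.mem_filter, Finset.mem_range]
        omega
      rw [e3, ← Finset.mul_sum]
      congr 1
      rw [← Int.cast_sum]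
      congr 1
      have e4 := Finset.sum_range_sub' (fun i : ℕ => h ((i : ℤ) - 1, (k : ℤ))) (k + 1)
      simp only [Nat.cast_add, Nat.cast_one, add_sub_cancel_right, Nat.cast_zero, zero_sub] at e4
      exact e4
    · rw [if_neg hak]
      refine Finset.sum_eq_zero fun i _ => ?_
      unfold βq
      simp only [if_true]
      rw [if_neg (by omega), zero_mul]
  -- the vertical parts
  have h2 : ∑ i ∈ Finset.range L, ∑ j ∈ Finset.range L,
      βq κ a (((i : ℤ), (j : ℤ)), false) * ((dh h (((i : ℤ), (j : ℤ)), false) : ℤ) : ℝ) =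
      ∑ k ∈ Finset.Ico a L, κ / (k : ℝ) *
        ((h ((k : ℤ), (k : ℤ)) - h ((k : ℤ), -1) : ℤ) : ℝ) := by
    have e1 : ∑ k ∈ Finset.Ico a L, κ / (k : ℝ) *
        ((h ((k : ℤ), (k : ℤ)) - h ((k : ℤ), -1) : ℤ) : ℝ) =
        ∑ k ∈ Finset.range L, if a ≤ k then κ / (k : ℝ) *
          ((h ((k : ℤ), (k : ℤ)) - h ((k : ℤ), -1) : ℤ) : ℝ) else 0 := by
      rw [← Finset.sum_filter]
      refine Finset.sum_congr ?_ fun _ _ => rfl
      ext k
      simp only [Finset.mem_Ico, Finset.mem_filter, Finset.mem_range]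
      tauto
    rw [e1]
    refine Finset.sum_congr rfl fun k hk => ?_
    rw [Finset.mem_range] at hk
    by_cases hak : a ≤ k
    · rw [if_pos hak]
      have e2 : ∀ j ∈ Finset.range L,
          βq κ a (((k : ℤ), (j : ℤ)), false) * ((dh h (((k : ℤ), (j : ℤ)), false) : ℤ) : ℝ) =
          if j < k + 1 then κ / (k : ℝ) *
            ((h ((k : ℤ), (j : ℤ)) - h ((k : ℤ), (j : ℤ) - 1) : ℤ) : ℝ) else 0 := by
        intro j _
        unfold βq dh
        simp only [D.lf, D.rt, Bool.false_eq_true, if_false]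
        by_cases hjk : j < k + 1
        · rw [if_pos hjk, if_pos ⟨by exact_mod_cast hak, by omega⟩]
          push_cast
          ring
        · rw [if_neg hjk, if_neg (by omega), zero_mul]
      rw [Finset.sum_congr rfl e2, ← Finset.sum_filter]
      have e3 : (Finset.range L).filter (fun j => j < k + 1) = Finset.range (k + 1) := by
        ext i
        simp only [Finset.mem_filter, Finset.mem_range]
        omega
      rw [e3, ← Finset.mul_sum]
      congr 1
      rw [← Int.cast_sum]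
      congr 1
      have e4 := Finset.sum_range_sub (fun j : ℕ => h ((k : ℤ), (j : ℤ) - 1)) (k + 1)
      simp only [Nat.cast_add, Nat.cast_one, add_sub_cancel_right, Nat.cast_zero, zero_sub] at e4
      exact e4
    · rw [if_neg hak]
      refine Finset.sum_eq_zero fun i _ => ?_
      unfold βq
      simp only [Bool.false_eq_true, if_false]
      rw [if_neg (by omega), zero_mul]
  rw [h1, h2, ← Finset.sum_add_distrib]
  refine Finset.sum_congr rfl fun k _ => ?_
  push_cast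
  ring

/-- **energy** -/
theorem βq_energy {κ b : ℝ} (hκ : 0 ≤ κ) (hκ1 : κ ≤ 1) {a : ℕ} (ha : 1 ≤ a) (L : ℕ)
    {J : Bnd → ℝ} (hJ : ∀ e, 0 ≤ J e) (hJb : ∀ e, J e ≤ b) :
    ∑ e ∈ SQ L, J e * (Real.cosh (βq κ a e) - 1) ≤
      4 * b * κ ^ 2 * ∑ k ∈ Finset.Ico a L, 1 / (k : ℝ) := by
  have hb : 0 ≤ b := (hJ ((0, 0), true)).trans (hJb _)
  -- one bond
  have h1 : ∀ e, J e * (Real.cosh (βq κ a e) - 1) ≤ b * βq κ a e ^ 2 := by
    intro e
    have h2 : |βq κ a e| ≤ 1 := by
      have h3 : ∀ m : ℤ, (a : ℤ) ≤ m → |κ / (m : ℝ)| ≤ 1 := by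
        intro m hm
        have h4 : (1 : ℝ) ≤ m := by
          have : (1 : ℤ) ≤ m := le_trans (by exact_mod_cast ha) hm
          exact_mod_cast this
        rw [abs_of_nonneg (by positivity), div_le_one (by linarith)]
        linarith
      unfold βq
      split_ifs with h5 h6 h7
      · exact h3 _ h6.1
      · simp
      · exact h3 _ h7.1
      · simp
    have h3 := cosh_sub_one_le h2
    have h4 : 0 ≤ Real.cosh (βq κ a e) - 1 := by linarith [Real.one_le_cosh (βq κ a e)]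
    calc J e * (Real.cosh (βq κ a e) - 1) ≤ b * (Real.cosh (βq κ a e) - 1) :=
          mul_le_mul_of_nonneg_right (hJb e) h4
      _ ≤ _ := mul_le_mul_of_nonneg_left h3 hb
  refine (Finset.sum_le_sum fun e _ => h1 e).trans ?_
  rw [← Finset.mul_sum, sum_SQ]
  simp only [Finset.sum_add_distrib]
  -- rows and columns
  have key : ∀ k ∈ Finset.range L, (∑ i ∈ Finset.range L,
      if (a : ℤ) ≤ (k : ℤ) ∧ (i : ℤ) ≤ (k : ℤ) then (κ / ((k : ℤ) : ℝ)) ^ 2 else 0) ≤
      if a ≤ k then 2 * κ ^ 2 * (1 / (k : ℝ)) else 0 := by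
    intro k hk
    rw [Finset.mem_range] at hk
    by_cases hak : a ≤ k
    · rw [if_pos hak]
      have hk1 : (1 : ℝ) ≤ k := by exact_mod_cast ha.trans hak
      have e1 : (∑ i ∈ Finset.range L,
          if (a : ℤ) ≤ (k : ℤ) ∧ (i : ℤ) ≤ (k : ℤ) then (κ / ((k : ℤ) : ℝ)) ^ 2 else 0) =
          ((k : ℝ) + 1) * (κ / k) ^ 2 := by
        rw [← Finset.sum_filter]
        have e3 : (Finset.range L).filter
            (fun i : ℕ => (a : ℤ) ≤ (k : ℤ) ∧ (i : ℤ) ≤ (k : ℤ)) = Finset.range (k + 1) := by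
          ext i
          simp only [Finset.mem_filter, Finset.mem_range]
          omega
        rw [e3, Finset.sum_const, Finset.card_range, nsmul_eq_mul]
        push_cast
        ring
      rw [e1, div_pow, ← mul_div_assoc, mul_one_div, div_le_div_iff₀ (by positivity) (by positivity)]
      have h2 : 0 ≤ κ ^ 2 * (k * (k - 1)) := by
        have : 0 ≤ (k : ℝ) - 1 := by linarith
        positivity
      nlinarith [h2]
    · rw [if_neg hak]
      refine (Finset.sum_eq_zero fun i _ => ?_).le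
      rw [if_neg (by omega)]
  have hfil : ∀ F : ℕ → ℝ, ∑ k ∈ Finset.range L, (if a ≤ k then F k else 0) =
      ∑ k ∈ Finset.Ico a L, F k := by
    intro F
    rw [← Finset.sum_filter]
    refine Finset.sum_congr ?_ fun _ _ => rfl
    ext k
    simp only [Finset.mem_Ico, Finset.mem_filter, Finset.mem_range]
    tauto
  have r1 : ∑ i ∈ Finset.range L, ∑ j ∈ Finset.range L,
      βq κ a (((i : ℤ), (j : ℤ)), true) ^ 2 ≤
      2 * κ ^ 2 * ∑ k ∈ Finset.Ico a L, 1 / (k : ℝ) := by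
    rw [Finset.sum_comm, Finset.mul_sum, ← hfil]
    refine Finset.sum_le_sum fun k hk => le_trans (le_of_eq ?_) (key k hk)
    refine Finset.sum_congr rfl fun i _ => ?_
    unfold βq
    simp only [if_true]
    split_ifs <;> simp
  have r2 : ∑ i ∈ Finset.range L, ∑ j ∈ Finset.range L,
      βq κ a (((i : ℤ), (j : ℤ)), false) ^ 2 ≤
      2 * κ ^ 2 * ∑ k ∈ Finset.Ico a L, 1 / (k : ℝ) := by
    rw [Finset.mul_sum, ← hfil]
    refine Finset.sum_le_sum fun k hk => le_trans (le_of_eq ?_) (key k hk)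
    refine Finset.sum_congr rfl fun i _ => ?_
    unfold βq
    simp only [Bool.false_eq_true, if_false]
    split_ifs <;> simp
  calc b * (_ + _) ≤ b * (2 * κ ^ 2 * ∑ k ∈ Finset.Ico a L, 1 / (k : ℝ) +
        2 * κ ^ 2 * ∑ k ∈ Finset.Ico a L, 1 / (k : ℝ)) :=
        mul_le_mul_of_nonneg_left (add_le_add r1 r2) hb
    _ = _ := by ring

/-- the harmonic sum -/
lemma log_le_harm {a L : ℕ} (ha : 1 ≤ a) (haL : a ≤ L) :
    Real.log ((L : ℝ) / a) ≤ ∑ k ∈ Finset.Ico a L, 1 / (k : ℝ) := by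
  induction L, haL using Nat.le_induction with
  | base =>
    have : (a : ℝ) ≠ 0 := by exact_mod_cast (by omega : a ≠ 0)
    rw [div_self this]
    simp
  | succ L hL ih =>
    rw [Finset.sum_Ico_succ_top hL]
    have hL0 : (0 : ℝ) < L := by exact_mod_cast (by omega : 0 < L)
    have ha0 : (0 : ℝ) < a := by exact_mod_cast (by omega : 0 < a)
    have h1 : Real.log (((L + 1 : ℕ) : ℝ) / a) =
        Real.log ((L : ℝ) / a) + Real.log (1 + 1 / L) := by
      rw [← Real.log_mul (by positivity) (by positivity)]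
      congr 1
      push_cast
      field_simp
    have h2 : Real.log (1 + 1 / (L : ℝ)) ≤ 1 / L := by
      have := Real.log_le_sub_one_of_pos (x := 1 + 1 / (L : ℝ)) (by positivity)
      linarith
    rw [h1]
    linarith

/-- **the bound for the flow** -/
theorem βq_final {b : ℝ} (hb : 0 < b) {a L : ℕ} (ha : 1 ≤ a) (haL : a ≤ L)
    {J : Bnd → ℝ} (hJ : ∀ e, 0 ≤ J e) (hJb : ∀ e, J e ≤ b) :
    Real.exp (-(2 * (min 1 (1 / (4 * b))) * ∑ k ∈ Finset.Ico a L, 1 / (k : ℝ)) +
      ∑ e ∈ SQ L, J e * (Real.cosh (βq (min 1 (1 / (4 * b))) a e) - 1)) ≤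
      ((a : ℝ) / L) ^ (min 1 (1 / (4 * b))) := by
  set κ : ℝ := min 1 (1 / (4 * b)) with hκ
  have k0 : 0 < κ := lt_min one_pos (by positivity)
  have k1 : κ ≤ 1 := min_le_left _ _
  have k2 : κ ≤ 1 / (4 * b) := min_le_right _ _
  have h1 := βq_energy k0.le k1 ha L hJ hJb
  have h2 := log_le_harm ha haL
  have ha0 : (0 : ℝ) < a := by exact_mod_cast ha
  have hL0 : (0 : ℝ) < L := by exact_mod_cast (lt_of_lt_of_le ha haL)
  set H := ∑ k ∈ Finset.Ico a L, 1 / (k : ℝ) with hH
  have hH0 : 0 ≤ H := Finset.sum_nonneg fun k _ => by positivity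
  have h3 : 4 * b * κ ^ 2 ≤ κ := by
    have h4 : 4 * b * κ ≤ 1 := by
      rw [le_div_iff₀ (by positivity)] at k2
      linarith
    nlinarith
  have h5 : Real.exp (-κ * H) ≤ ((a : ℝ) / L) ^ κ := by
    rw [Real.rpow_def_of_pos (by positivity)]
    apply Real.exp_le_exp.2
    have : Real.log ((a : ℝ) / L) = -Real.log ((L : ℝ) / a) := by
      rw [← Real.log_inv, inv_div]
    rw [this]
    nlinarith
  refine le_trans (Real.exp_le_exp.2 ?_) h5
  have h6 : 4 * b * κ ^ 2 * H ≤ κ * H := mul_le_mul_of_nonneg_right h3 hH0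
  linarith

end Vale.Agent.P159.T1.H910
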